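import Vale.Agent.P331.Model

/-! P331, row QUANT: quantiles and the law of the maximum of the samples. -/

namespace Vale.Agent.P331

open MeasureTheory
open scoped ENNReal NNReal

universe u
variable {E : Type u} [DecidableEq E]

namespace Quant

theorem nonempty_set (μ : Measure ℝ≥0) [IsProbabilityMeasure μ] {α : ℝ≥0∞} (h0 : 0 < α) :
    {t : ℝ≥0 | μ (Set.Ioi t) ≤ α}.Nonempty := by
  have h1 : Filter.Tendsto (fun n : ℕ => μ (Set.Ioi (n : ℝ≥0))) Filter.atTop
      (nhds (μ (⋂ n : ℕ, Set.Ioi (n : ℝ≥0)))) := by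
    refine tendsto_measure_iInter_atTop (fun n => measurableSet_Ioi.nullMeasurableSet) ?_
      ⟨0, measure_ne_top _ _⟩
    intro m n hmn x hx
    have hmn' : (m : ℝ≥0) ≤ n := by exact_mod_cast hmn
    exact lt_of_le_of_lt hmn' hx
  have h2 : (⋂ n : ℕ, Set.Ioi (n : ℝ≥0)) = ∅ := by
    rw [Set.eq_empty_iff_forall_notMem]
    intro x hx
    obtain ⟨n, hn⟩ := exists_nat_gt x
    have := Set.mem_iInter.1 hx n
    exact absurd (lt_trans hn this) (lt_irrefl _)
  rw [h2, measure_empty] at h1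
  obtain ⟨n, hn⟩ := (h1.eventually (gt_mem_nhds h0)).exists
  exact ⟨n, hn.le⟩

theorem pi_forall' [Fintype E] (μ : Measure ℝ≥0) [IsProbabilityMeasure μ] (Z : Finset E)
    (W : Set ℝ≥0) :
    (Measure.pi fun _ : E => μ) {S | ∀ z ∈ Z, S z ∈ W} = μ W ^ Z.card := by
  have h : {S : E → ℝ≥0 | ∀ z ∈ Z, S z ∈ W} =
      Set.pi Set.univ (fun e => if e ∈ Z then W else Set.univ) := by
    ext S
    simp only [Set.mem_ofPred_eq, Set.mem_pi, Set.mem_univ, true_implies]
    constructor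
    · intro h e
      split_ifs with he
      · exact h e he
      · trivial
    · intro h e he
      have := h e
      rwa [if_pos he] at this
  rw [h, Measure.pi_pi]
  have e1 : ∀ e ∈ (Finset.univ : Finset E), μ (if e ∈ Z then W else Set.univ) =
      if e ∈ Z then μ W else 1 := by
    intro e _
    split_ifs
    · rfl
    · exact measure_univ
  rw [Finset.prod_congr rfl e1, Finset.prod_ite_mem, Finset.univ_inter, Finset.prod_const]

theorem sup_lt_real [Fintype E] (μ : Measure ℝ≥0) [IsProbabilityMeasure μ] (Z : Finset E)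
    {v : ℝ≥0} (hv : 0 < v) :
    (Measure.pi fun _ : E => μ).real {S | Z.sup S < v} = (μ.real (Set.Iio v)) ^ Z.card := by
  have h : {S : E → ℝ≥0 | Z.sup S < v} = {S | ∀ z ∈ Z, S z ∈ Set.Iio v} := by
    ext S
    simp only [Set.mem_ofPred_eq, Set.mem_Iio]
    exact Finset.sup_lt_iff (by rwa [bot_eq_zero])
  rw [h, measureReal_def, pi_forall', ENNReal.toReal_pow, measureReal_def]

theorem sup_le_real [Fintype E] (μ : Measure ℝ≥0) [IsProbabilityMeasure μ] (Z : Finset E)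
    (v : ℝ≥0) :
    (Measure.pi fun _ : E => μ).real {S | Z.sup S ≤ v} = (μ.real (Set.Iic v)) ^ Z.card := by
  have h : {S : E → ℝ≥0 | Z.sup S ≤ v} = {S | ∀ z ∈ Z, S z ∈ Set.Iic v} := by
    ext S
    simp only [Set.mem_ofPred_eq, Set.mem_Iic]
    exact Finset.sup_le_iff
  rw [h, measureReal_def, pi_forall', ENNReal.toReal_pow, measureReal_def]

theorem toReal_inv_mul (s c : ℕ) : (1 / ((c : ℝ≥0∞) * s)).toReal = 1 / (c * s : ℝ) := by
  rw [ENNReal.toReal_div, ENNReal.toReal_mul]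
  simp

/-- `(1 - x / s) ^ s ≥ 1 - x`. -/
theorem pow_ge {s : ℕ} (hs : 1 ≤ s) {c : ℝ} (hc : 1 ≤ c) {a : ℝ} (ha : 1 - 1 / (c * s) ≤ a) :
    1 - 1 / c ≤ a ^ s := by
  have hs' : (1 : ℝ) ≤ s := by exact_mod_cast hs
  have hc0 : 0 < c := by linarith
  have h1 : 1 / (c * s) ≤ 1 := by
    rw [div_le_one (by positivity)]
    nlinarith
  have h0 : 0 ≤ 1 - 1 / (c * s) := by linarith
  have h2 : (1 - 1 / (c * s)) ^ s ≤ a ^ s := pow_le_pow_left₀ h0 ha s
  have h3 := one_add_mul_le_pow (a := -(1 / (c * s))) (by linarith) s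
  have h4 : (1 : ℝ) + s * -(1 / (c * s)) = 1 - 1 / c := by
    field_simp
    ring
  rw [h4, ← sub_eq_add_neg] at h3
  exact h3.trans h2

/-- `(1 - x / s) ^ s ≤ 1 / (1 + x)`. -/
theorem pow_le {s : ℕ} (hs : 1 ≤ s) {c : ℝ} (hc : 1 ≤ c) {a : ℝ} (h0 : 0 ≤ a)
    (ha : a ≤ 1 - 1 / (c * s)) : a ^ s ≤ c / (c + 1) := by
  have hs' : (1 : ℝ) ≤ s := by exact_mod_cast hs
  have hc0 : 0 < c := by linarith
  have hx : 0 < 1 / (c * s) := by positivity
  have h3 := one_add_mul_le_pow (a := (1 / (c * s))) (by linarith) s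
  have h4 : (1 : ℝ) + s * (1 / (c * s)) = (c + 1) / c := by
    field_simp
  rw [h4] at h3
  have h5 : a * (1 + 1 / (c * s)) ≤ 1 := by
    have : a * (1 + 1 / (c * s)) ≤ (1 - 1 / (c * s)) * (1 + 1 / (c * s)) :=
      mul_le_mul_of_nonneg_right ha (by linarith)
    nlinarith
  have h6 : a ^ s * (1 + 1 / (c * s)) ^ s ≤ 1 := by
    rw [← mul_pow]
    exact pow_le_one₀ (mul_nonneg h0 (by linarith)) h5
  have h7 : a ^ s * ((c + 1) / c) ≤ 1 :=
    (mul_le_mul_of_nonneg_left h3 (pow_nonneg h0 s)).trans h6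
  rw [le_div_iff₀ (by linarith)]
  rw [← mul_div_assoc, div_le_one hc0] at h7
  exact h7

end Quant

open Quant

theorem qt_Ioi (μ : Measure ℝ≥0) [IsProbabilityMeasure μ] (α : ℝ≥0∞) (h0 : 0 < α) :
    μ (Set.Ioi (qt μ α)) ≤ α := by
  have hne := nonempty_set μ h0
  have h1 : Filter.Tendsto (fun n : ℕ => μ (Set.Ioi (qt μ α + 1 / ((n : ℝ≥0) + 1)))) Filter.atTop
      (nhds (μ (⋃ n : ℕ, Set.Ioi (qt μ α + 1 / ((n : ℝ≥0) + 1))))) := by
    refine tendsto_measure_iUnion_atTop ?_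
    intro m n hmn x hx
    have hmn' : (m : ℝ≥0) ≤ n := by exact_mod_cast hmn
    have h2 : (1 : ℝ≥0) / ((n : ℝ≥0) + 1) ≤ 1 / ((m : ℝ≥0) + 1) :=
      one_div_le_one_div_of_le (by positivity) (by gcongr)
    exact lt_of_le_of_lt (add_le_add_right h2 _) hx
  have h2 : (⋃ n : ℕ, Set.Ioi (qt μ α + 1 / ((n : ℝ≥0) + 1))) = Set.Ioi (qt μ α) := by
    ext x
    rw [Set.mem_iUnion]
    constructor
    · rintro ⟨n, hn⟩
      have hn' : qt μ α + 1 / ((n : ℝ≥0) + 1) < x := hn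
      exact lt_of_le_of_lt le_self_add hn'
    · intro hx
      have hx' : qt μ α < x := hx
      obtain ⟨n, hn⟩ := exists_nat_one_div_lt (sub_pos.2 (NNReal.coe_lt_coe.2 hx'))
      refine ⟨n, ?_⟩
      show qt μ α + 1 / ((n : ℝ≥0) + 1) < x
      rw [← NNReal.coe_lt_coe]
      push_cast
      linarith
  rw [h2] at h1
  refine le_of_tendsto' h1 fun n => ?_
  obtain ⟨t, ht, htn⟩ := exists_lt_of_csInf_lt hne
    (show sInf {t : ℝ≥0 | μ (Set.Ioi t) ≤ α} < qt μ α + 1 / ((n : ℝ≥0) + 1) from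
      lt_add_of_pos_right _ (by positivity))
  exact (measure_mono (Set.Ioi_subset_Ioi htn.le)).trans ht

theorem qt_Ici (μ : Measure ℝ≥0) [IsProbabilityMeasure μ] (α : ℝ≥0∞) (h1 : α ≤ 1) :
    α ≤ μ (Set.Ici (qt μ α)) := by
  rcases eq_or_lt_of_le (zero_le (a := qt μ α)) with h0 | h0
  · rw [← h0]
    have : Set.Ici (0 : ℝ≥0) = Set.univ := by
      ext x
      simp
    rw [this, measure_univ]
    exact h1
  · have hT : ∀ t < qt μ α, α ≤ μ (Set.Ioi t) := by
      intro t ht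
      by_contra h
      rw [not_le] at h
      exact absurd (csInf_le (OrderBot.bddBelow _) (show t ∈ {t : ℝ≥0 | μ (Set.Ioi t) ≤ α} from h.le))
        (not_le.2 ht)
    have h2 : Filter.Tendsto (fun n : ℕ => μ (Set.Ioi (qt μ α - qt μ α / ((n : ℝ≥0) + 1))))
        Filter.atTop (nhds (μ (⋂ n : ℕ, Set.Ioi (qt μ α - qt μ α / ((n : ℝ≥0) + 1))))) := by
      refine tendsto_measure_iInter_atTop (fun n => measurableSet_Ioi.nullMeasurableSet) ?_
        ⟨0, measure_ne_top _ _⟩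
      intro m n hmn x hx
      have hmn' : (m : ℝ≥0) ≤ n := by exact_mod_cast hmn
      have h3 : qt μ α / ((n : ℝ≥0) + 1) ≤ qt μ α / ((m : ℝ≥0) + 1) := by gcongr
      exact lt_of_le_of_lt (tsub_le_tsub_left h3 _) hx
    have h3 : (⋂ n : ℕ, Set.Ioi (qt μ α - qt μ α / ((n : ℝ≥0) + 1))) = Set.Ici (qt μ α) := by
      ext x
      rw [Set.mem_iInter]
      constructor
      · intro hx
        show qt μ α ≤ x
        by_contra hlt
        rw [not_le] at hlt
        have hd : (0 : ℝ) < ((qt μ α : ℝ) - x) / qt μ α :=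
          div_pos (sub_pos.2 (NNReal.coe_lt_coe.2 hlt)) (NNReal.coe_pos.2 h0)
        obtain ⟨n, hn⟩ := exists_nat_one_div_lt hd
        have hxn : qt μ α - qt μ α / ((n : ℝ≥0) + 1) < x := hx n
        rw [← NNReal.coe_lt_coe, NNReal.coe_sub (div_le_self zero_le (by simp))] at hxn
        push_cast at hxn
        have hq : (0 : ℝ) < qt μ α := NNReal.coe_pos.2 h0
        have h4 : (qt μ α : ℝ) * (1 / ((n : ℝ) + 1)) < (qt μ α : ℝ) - x := by
          rw [lt_div_iff₀ hq] at hn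
          linarith
        rw [mul_one_div] at h4
        linarith
      · intro hx n
        have hx' : qt μ α ≤ x := hx
        refine lt_of_lt_of_le ?_ hx'
        exact tsub_lt_self h0 (by positivity)
    rw [h3] at h2
    refine ge_of_tendsto' h2 fun n => hT _ ?_
    exact tsub_lt_self h0 (by positivity)

theorem qt_anti (μ : Measure ℝ≥0) [IsProbabilityMeasure μ] {α β : ℝ≥0∞} (h0 : 0 < α)
    (h : α ≤ β) : qt μ β ≤ qt μ α :=
  csInf_le_csInf (OrderBot.bddBelow _) (nonempty_set μ h0) fun _ ht => le_trans ht h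

namespace Quant

theorem real_Iio_ge (μ : Measure ℝ≥0) [IsProbabilityMeasure μ] {s : ℕ} (hs : 1 ≤ s) {c : ℕ}
    (hc : 1 ≤ c) {v : ℝ≥0} (hv : qt μ (1 / (c * s)) < v) :
    1 - 1 / ((c : ℝ) * s) ≤ μ.real (Set.Iio v) := by
  have h0 : (0 : ℝ≥0∞) < 1 / (c * s) := by
    rw [one_div, ENNReal.inv_pos]
    exact ENNReal.mul_ne_top (ENNReal.natCast_ne_top _) (ENNReal.natCast_ne_top _)
  have h1 : μ (Set.Ici v) ≤ 1 / (c * s) :=
    (measure_mono fun x hx => lt_of_lt_of_le hv hx).trans (qt_Ioi μ _ h0)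
  have h2 : μ.real (Set.Ici v) ≤ 1 / ((c : ℝ) * s) := by
    rw [measureReal_def, ← toReal_inv_mul s c]
    refine ENNReal.toReal_mono ?_ h1
    rw [one_div]
    refine ENNReal.inv_ne_top.2 (mul_ne_zero ?_ ?_) <;> exact_mod_cast (by omega)
  have h3 : μ.real (Set.Ici v) = 1 - μ.real (Set.Iio v) := by
    rw [← Set.compl_Iio, probReal_compl_eq_one_sub measurableSet_Iio]
  linarith

theorem real_Iic_ge (μ : Measure ℝ≥0) [IsProbabilityMeasure μ] {s : ℕ} (hs : 1 ≤ s) {c : ℕ}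
    (hc : 1 ≤ c) :
    1 - 1 / ((c : ℝ) * s) ≤ μ.real (Set.Iic (qt μ (1 / (c * s)))) := by
  have h0 : (0 : ℝ≥0∞) < 1 / (c * s) := by
    rw [one_div, ENNReal.inv_pos]
    exact ENNReal.mul_ne_top (ENNReal.natCast_ne_top _) (ENNReal.natCast_ne_top _)
  have h1 : μ (Set.Ioi (qt μ (1 / (c * s)))) ≤ 1 / (c * s) := qt_Ioi μ _ h0
  have h2 : μ.real (Set.Ioi (qt μ (1 / (c * s)))) ≤ 1 / ((c : ℝ) * s) := by
    rw [measureReal_def, ← toReal_inv_mul s c]
    refine ENNReal.toReal_mono ?_ h1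
    rw [one_div]
    refine ENNReal.inv_ne_top.2 (mul_ne_zero ?_ ?_) <;> exact_mod_cast (by omega)
  have h3 : μ.real (Set.Ioi (qt μ (1 / (c * s)))) = 1 - μ.real (Set.Iic (qt μ (1 / (c * s)))) := by
    rw [← Set.compl_Iic, probReal_compl_eq_one_sub measurableSet_Iic]
  linarith

theorem real_Iio_le (μ : Measure ℝ≥0) [IsProbabilityMeasure μ] {s : ℕ} (hs : 1 ≤ s) {c : ℕ}
    (hc : 1 ≤ c) :
    μ.real (Set.Iio (qt μ (1 / (c * s)))) ≤ 1 - 1 / ((c : ℝ) * s) := by
  have h01 : (1 : ℝ≥0∞) / (c * s) ≤ 1 := by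
    rw [one_div, ENNReal.inv_le_one]
    have : 1 ≤ c * s := Nat.mul_le_mul hc hs
    exact_mod_cast this
  have h1 : 1 / (c * s) ≤ μ (Set.Ici (qt μ (1 / (c * s)))) := qt_Ici μ _ h01
  have h2 : 1 / ((c : ℝ) * s) ≤ μ.real (Set.Ici (qt μ (1 / (c * s)))) := by
    rw [measureReal_def, ← toReal_inv_mul s c]
    exact ENNReal.toReal_mono (measure_ne_top _ _) h1
  have h3 : μ.real (Set.Ici (qt μ (1 / (c * s)))) = 1 - μ.real (Set.Iio (qt μ (1 / (c * s)))) := by
    rw [← Set.compl_Iio, probReal_compl_eq_one_sub measurableSet_Iio]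
  linarith

theorem sup_lt_le [Fintype E] (μ : Measure ℝ≥0) [IsProbabilityMeasure μ] (Z : Finset E)
    (hs : 1 ≤ Z.card) {c : ℕ} (hc : 1 ≤ c) :
    (Measure.pi fun _ : E => μ).real {S | Z.sup S < qt μ (1 / (c * Z.card))} ≤
      (c : ℝ) / (c + 1) := by
  rcases eq_or_lt_of_le (zero_le (a := qt μ (1 / ((c : ℝ≥0∞) * Z.card)))) with h | h
  · have : {S : E → ℝ≥0 | Z.sup S < qt μ (1 / (c * Z.card))} = ∅ := by
      rw [Set.eq_empty_iff_forall_notMem]
      intro S hS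
      rw [Set.mem_ofPred_eq, ← h] at hS
      exact not_lt_zero hS
    rw [this, measureReal_empty]
    positivity
  · rw [sup_lt_real μ Z h]
    exact pow_le hs (by exact_mod_cast hc) measureReal_nonneg (real_Iio_le μ hs hc)

end Quant

/-- `P(t* ≤ max < v) ≥ 3/40` for `v` above the `1/(8s)` quantile, `t*` the `1/(4s)` quantile -/
theorem probA [Fintype E] (μ : Measure ℝ≥0) [IsProbabilityMeasure μ] (Z : Finset E)
    (hs : 1 ≤ Z.card) (v : ℝ≥0) (hv : qt μ (1 / (8 * Z.card)) < v) :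
    3 / 40 ≤ (Measure.pi fun _ : E => μ) {S | qt μ (1 / (4 * Z.card)) ≤ Z.sup S ∧ Z.sup S < v} := by
  have hv0 : 0 < v := lt_of_le_of_lt zero_le hv
  have h1 : 1 - 1 / (8 : ℝ) ≤ (Measure.pi fun _ : E => μ).real {S | Z.sup S < v} := by
    rw [sup_lt_real μ Z hv0]
    refine pow_ge hs (by norm_num) ?_
    have := real_Iio_ge μ hs (c := 8) (by norm_num) (v := v) (by exact_mod_cast hv)
    exact_mod_cast this
  have h2 : (Measure.pi fun _ : E => μ).real {S | Z.sup S < qt μ (1 / (4 * Z.card))} ≤ 4 / 5 := by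
    have := sup_lt_le μ Z hs (c := 4) (by norm_num)
    norm_num at this ⊢
    exact this
  have h3 : (Measure.pi fun _ : E => μ).real {S | Z.sup S < v} ≤
      (Measure.pi fun _ : E => μ).real {S | qt μ (1 / (4 * Z.card)) ≤ Z.sup S ∧ Z.sup S < v} +
      (Measure.pi fun _ : E => μ).real {S | Z.sup S < qt μ (1 / (4 * Z.card))} := by
    refine le_trans (measureReal_mono ?_) (measureReal_union_le _ _)
    intro S hS
    rcases le_or_gt (qt μ (1 / (4 * Z.card))) (Z.sup S) with h | h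
    · exact Or.inl ⟨h, hS⟩
    · exact Or.inr h
  have h4 : (3 / 40 : ℝ) ≤
      (Measure.pi fun _ : E => μ).real {S | qt μ (1 / (4 * Z.card)) ≤ Z.sup S ∧ Z.sup S < v} := by
    linarith
  rw [measureReal_def] at h4
  have h5 := ENNReal.ofReal_le_of_le_toReal h4
  refine le_trans (le_of_eq ?_) h5
  rw [ENNReal.ofReal_div_of_pos (by norm_num)]
  simp

/-- `P(t ≤ max ≤ t2) ≥ 7/144`, `t` the `1/(8s)` quantile, `t2` the `1/(16s)` quantile -/
theorem probB [Fintype E] (μ : Measure ℝ≥0) [IsProbabilityMeasure μ] (Z : Finset E)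
    (hs : 1 ≤ Z.card) :
    7 / 144 ≤ (Measure.pi fun _ : E => μ)
      {S | qt μ (1 / (8 * Z.card)) ≤ Z.sup S ∧ Z.sup S ≤ qt μ (1 / (16 * Z.card))} := by
  have h1 : 1 - 1 / (16 : ℝ) ≤
      (Measure.pi fun _ : E => μ).real {S | Z.sup S ≤ qt μ (1 / (16 * Z.card))} := by
    rw [sup_le_real μ Z]
    refine pow_ge hs (by norm_num) ?_
    have := real_Iic_ge μ hs (c := 16) (by norm_num)
    exact_mod_cast this
  have h2 : (Measure.pi fun _ : E => μ).real {S | Z.sup S < qt μ (1 / (8 * Z.card))} ≤ 8 / 9 := by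
    have := sup_lt_le μ Z hs (c := 8) (by norm_num)
    norm_num at this ⊢
    exact this
  have h3 : (Measure.pi fun _ : E => μ).real {S | Z.sup S ≤ qt μ (1 / (16 * Z.card))} ≤
      (Measure.pi fun _ : E => μ).real
        {S | qt μ (1 / (8 * Z.card)) ≤ Z.sup S ∧ Z.sup S ≤ qt μ (1 / (16 * Z.card))} +
      (Measure.pi fun _ : E => μ).real {S | Z.sup S < qt μ (1 / (8 * Z.card))} := by
    refine le_trans (measureReal_mono ?_) (measureReal_union_le _ _)
    intro S hS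
    rcases le_or_gt (qt μ (1 / (8 * Z.card))) (Z.sup S) with h | h
    · exact Or.inl ⟨h, hS⟩
    · exact Or.inr h
  have h4 : (7 / 144 : ℝ) ≤ (Measure.pi fun _ : E => μ).real
      {S | qt μ (1 / (8 * Z.card)) ≤ Z.sup S ∧ Z.sup S ≤ qt μ (1 / (16 * Z.card))} := by
    linarith
  rw [measureReal_def] at h4
  have h5 := ENNReal.ofReal_le_of_le_toReal h4
  refine le_trans (le_of_eq ?_) h5
  rw [ENNReal.ofReal_div_of_pos (by norm_num)]
  simp

end Vale.Agent.P331
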