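import Vale.Agent.P331.Core
import Vale.Agent.P331.Quant

/-! P331, row BLOCKA. -/

namespace Vale.Agent.P331

open MeasureTheory
open scoped ENNReal NNReal

universe u
variable {E : Type u} [DecidableEq E]

theorem blockA_inner [Fintype E] (μ : Measure ℝ≥0) [IsProbabilityMeasure μ] (r : RankFn E)
    (B Z : Finset E) (hs : 1 ≤ Z.card) (hd : ∀ A ⊆ B, A.card ≤ 2 * Z.card * r.rk A)
    (m : ℝ≥0) (hm : qt μ (1 / (4 * Z.card)) ≤ m) :
    (B.card : ℝ≥0∞) / 2 ≤
      ∫⁻ V, ((r.free B (passSet B (fun x => m < x) V)).card : ℝ≥0∞)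
        ∂(Measure.pi fun _ : E => μ) := by
  have hp : MeasurableSet {x : ℝ≥0 | m < x} := measurableSet_Ioi
  have hN : (B.card : ℝ≥0∞) ≠ ∞ := ENNReal.natCast_ne_top _
  have hs0 : (Z.card : ℝ≥0∞) ≠ 0 := by
    have : Z.card ≠ 0 := by omega
    exact_mod_cast this
  have hsT : (Z.card : ℝ≥0∞) ≠ ∞ := ENNReal.natCast_ne_top _
  have h1 := core_count μ r B (fun x => m < x) hp (2 * Z.card) hd
  have h2 := mean_le μ r B (fun x => m < x) hp
  have h3 : μ {x : ℝ≥0 | m < x} ≤ 1 / (4 * Z.card) := by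
    refine le_trans (measure_mono ?_) (qt_Ioi μ (1 / (4 * Z.card)) ?_)
    · intro x hx
      exact lt_of_le_of_lt hm hx
    · refine ENNReal.div_pos one_ne_zero ?_
      exact ENNReal.mul_ne_top (by norm_num) hsT
  have h4 : ((2 * Z.card : ℕ) : ℝ≥0∞)
      * ∫⁻ V, (r.rk (passSet B (fun x => m < x) V) : ℝ≥0∞) ∂(Measure.pi fun _ : E => μ)
      ≤ (B.card : ℝ≥0∞) / 2 := by
    calc ((2 * Z.card : ℕ) : ℝ≥0∞)
        * ∫⁻ V, (r.rk (passSet B (fun x => m < x) V) : ℝ≥0∞) ∂(Measure.pi fun _ : E => μ)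
        ≤ ((2 * Z.card : ℕ) : ℝ≥0∞) * (B.card * (1 / (4 * Z.card))) := by
          refine mul_le_mul_right (h2.trans (mul_le_mul_right h3 _)) _
      _ = (B.card : ℝ≥0∞) / 2 := by
          push_cast
          have e4 : (4 : ℝ≥0∞) * Z.card = 2 * (2 * Z.card) := by
            rw [← mul_assoc]; norm_num
          have hz : (2 : ℝ≥0∞) * Z.card ≠ 0 := mul_ne_zero (by norm_num) hs0
          have hzT : (2 : ℝ≥0∞) * Z.card ≠ ∞ := ENNReal.mul_ne_top (by norm_num) hsT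
          rw [e4, one_div, ENNReal.mul_inv (Or.inl (by norm_num)) (Or.inl (by norm_num))]
          calc (2 : ℝ≥0∞) * Z.card * (B.card * (2⁻¹ * ((2 : ℝ≥0∞) * Z.card)⁻¹))
              = ((B.card : ℝ≥0∞) * 2⁻¹) * (((2 : ℝ≥0∞) * Z.card) * ((2 : ℝ≥0∞) * Z.card)⁻¹) := by
                ring
            _ = (B.card : ℝ≥0∞) / 2 := by
                rw [ENNReal.mul_inv_cancel hz hzT, mul_one, div_eq_mul_inv]
  have h5 : (B.card : ℝ≥0∞) ≤
      (∫⁻ V, ((r.free B (passSet B (fun x => m < x) V)).card : ℝ≥0∞)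
        ∂(Measure.pi fun _ : E => μ)) + (B.card : ℝ≥0∞) / 2 := h1.trans (add_le_add_right h4 _)
  have h6 : (B.card : ℝ≥0∞) / 2 + (B.card : ℝ≥0∞) / 2 ≤
      (∫⁻ V, ((r.free B (passSet B (fun x => m < x) V)).card : ℝ≥0∞)
        ∂(Measure.pi fun _ : E => μ)) + (B.card : ℝ≥0∞) / 2 := by
    rw [ENNReal.add_halves]; exact h5
  exact (ENNReal.add_le_add_iff_right (ENNReal.div_ne_top hN (by norm_num))).1 h6

theorem blockA [Fintype E] (μ : Measure ℝ≥0) [IsProbabilityMeasure μ] (r : RankFn E)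
    (B Z : Finset E) (hs : 1 ≤ Z.card) (hd : ∀ A ⊆ B, A.card ≤ 2 * Z.card * r.rk A) :
    (3 / 80 : ℝ≥0∞) * (B.card * ∫⁻ x, ((x : ℝ≥0∞) - qt μ (1 / (8 * Z.card))) ∂μ) ≤
      ∫⁻ S, ∫⁻ V, (∑ e ∈ r.free (passSet B (fun x => Z.sup S < x) V)
          (passSet B (fun x => Z.sup S < x) V), (V e : ℝ≥0∞))
        ∂(Measure.pi fun _ : E => μ) ∂(Measure.pi fun _ : E => μ) := by
  classical
  set P : Measure (E → ℝ≥0) := Measure.pi fun _ : E => μ with hP
  set t : ℝ≥0 := qt μ (1 / (8 * Z.card)) with ht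
  set ts : ℝ≥0 := qt μ (1 / (4 * Z.card)) with hts
  let D : Set ((E → ℝ≥0) × ℝ≥0) := {q | ts ≤ Z.sup q.1 ∧ Z.sup q.1 < q.2}
  have hsup : Measurable fun q : (E → ℝ≥0) × ℝ≥0 => Z.sup q.1 :=
    (measurable_sup_apply Z).comp measurable_fst
  have hD : MeasurableSet D := by
    have h1 : MeasurableSet {q : (E → ℝ≥0) × ℝ≥0 | ts ≤ Z.sup q.1} :=
      measurableSet_le measurable_const hsup
    have h2 : MeasurableSet {q : (E → ℝ≥0) × ℝ≥0 | Z.sup q.1 < q.2} :=
      measurableSet_lt hsup measurable_snd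
    exact h1.inter h2
  let F : (E → ℝ≥0) → ℝ≥0 → ℝ≥0∞ := fun S x => D.indicator (fun q => (q.2 : ℝ≥0∞)) (S, x)
  have hFm : Measurable (Function.uncurry F) := by
    have : Function.uncurry F = D.indicator (fun q => (q.2 : ℝ≥0∞)) := by
      funext q; rfl
    rw [this]
    exact (measurable_coe_nnreal_ennreal.comp measurable_snd).indicator hD
  have step1 : ∀ S : E → ℝ≥0, ((B.card : ℝ≥0∞) / 2) * ∫⁻ x, F S x ∂μ ≤
      ∫⁻ V, (∑ e ∈ r.free (passSet B (fun x => Z.sup S < x) V)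
          (passSet B (fun x => Z.sup S < x) V), (V e : ℝ≥0∞)) ∂P := by
    intro S
    by_cases hS : ts ≤ Z.sup S
    · rw [hP, core_eq μ r B (fun x => Z.sup S < x) measurableSet_Ioi (fun x => (x : ℝ≥0∞))
        measurable_coe_nnreal_ennreal, mul_comm]
      refine mul_le_mul' ?_ (blockA_inner μ r B Z hs hd (Z.sup S) hS)
      have e0 := lintegral_indicator (μ := μ) (s := {x : ℝ≥0 | Z.sup S < x}) measurableSet_Ioi
        (fun x : ℝ≥0 => (x : ℝ≥0∞))
      rw [← e0]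
      refine lintegral_mono fun x => ?_
      simp only [F, D, Set.indicator_apply, Set.mem_setOf_eq]
      by_cases hx : Z.sup S < x
      · simp [hx, hS]
      · simp [hx]
    · have h0 : ∫⁻ x, F S x ∂μ = 0 := by
        have : ∀ x, F S x = 0 := by
          intro x
          simp only [F, D, Set.indicator_apply, Set.mem_setOf_eq, hS, false_and, if_false]
        simp [this]
      rw [h0, mul_zero]
      exact zero_le
  have step2 : ∀ x : ℝ≥0, (3 / 40 : ℝ≥0∞) * ((x : ℝ≥0∞) - t) ≤ ∫⁻ S, F S x ∂P := by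
    intro x
    by_cases hx : t < x
    · have e1 : ∫⁻ S, F S x ∂P = (x : ℝ≥0∞) * P {S | ts ≤ Z.sup S ∧ Z.sup S < x} := by
        have hm : MeasurableSet {S : E → ℝ≥0 | ts ≤ Z.sup S ∧ Z.sup S < x} := by
          have h1 : MeasurableSet {S : E → ℝ≥0 | ts ≤ Z.sup S} :=
            measurableSet_le measurable_const (measurable_sup_apply Z)
          have h2 : MeasurableSet {S : E → ℝ≥0 | Z.sup S < x} :=
            measurableSet_lt (measurable_sup_apply Z) measurable_const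
          exact h1.inter h2
        have : ∀ S, F S x = {S : E → ℝ≥0 | ts ≤ Z.sup S ∧ Z.sup S < x}.indicator
            (fun _ => (x : ℝ≥0∞)) S := by
          intro S
          simp only [F, D, Set.indicator_apply, Set.mem_setOf_eq]
        simp only [this]
        rw [lintegral_indicator hm, setLIntegral_const]
      rw [e1, mul_comm]
      refine mul_le_mul' tsub_le_self ?_
      exact probA μ Z hs x hx
    · have : ((x : ℝ≥0∞) - t) = 0 := by
        rw [tsub_eq_zero_iff_le]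
        exact_mod_cast not_lt.1 hx
      rw [this, mul_zero]
      exact zero_le
  calc (3 / 80 : ℝ≥0∞) * (B.card * ∫⁻ x, ((x : ℝ≥0∞) - t) ∂μ)
      = ((B.card : ℝ≥0∞) / 2) * ((3 / 40 : ℝ≥0∞) * ∫⁻ x, ((x : ℝ≥0∞) - t) ∂μ) := by
        have e : (3 / 80 : ℝ≥0∞) = 2⁻¹ * (3 / 40) := by
          rw [div_eq_mul_inv, div_eq_mul_inv]
          have : (80 : ℝ≥0∞) = 2 * 40 := by norm_num
          rw [this, ENNReal.mul_inv (Or.inl (by norm_num)) (Or.inl (by norm_num))]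
          ring
        have e2 : (B.card : ℝ≥0∞) / 2 = B.card * 2⁻¹ := div_eq_mul_inv _ _
        rw [e, e2]
        ring
    _ = ((B.card : ℝ≥0∞) / 2) * ∫⁻ x, (3 / 40 : ℝ≥0∞) * ((x : ℝ≥0∞) - t) ∂μ := by
        rw [lintegral_const_mul]
        exact measurable_coe_nnreal_ennreal.sub_const _
    _ ≤ ((B.card : ℝ≥0∞) / 2) * ∫⁻ x, ∫⁻ S, F S x ∂P ∂μ :=
        mul_le_mul_right (lintegral_mono step2) _
    _ = ((B.card : ℝ≥0∞) / 2) * ∫⁻ S, ∫⁻ x, F S x ∂μ ∂P := by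
        rw [← lintegral_lintegral_swap hFm.aemeasurable]
    _ ≤ ∫⁻ S, ((B.card : ℝ≥0∞) / 2) * ∫⁻ x, F S x ∂μ ∂P :=
        lintegral_const_mul_le _ _
    _ ≤ _ := lintegral_mono step1

end Vale.Agent.P331
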