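import Vale.Agent.P331.Model

/-! P331, row COUNT: elementary rank facts and two rank countings. -/

namespace Vale.Agent.P331

universe u

variable {E : Type u} [DecidableEq E]

theorem RankFn.rk_le_card (r : RankFn E) (A : Finset E) : r.rk A ≤ A.card := by
  induction A using Finset.induction_on with
  | empty => simp [r.rk_empty]
  | insert a s ha ih =>
    rw [Finset.card_insert_of_notMem ha]
    have := r.insert_le a s
    omega

/-- being spanned is monotone -/
theorem RankFn.span_mono (r : RankFn E) {A B : Finset E} (hAB : A ⊆ B) {e : E}
    (h : r.rk (insert e A) = r.rk A) : r.rk (insert e B) = r.rk B := by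
  by_cases he : e ∈ B
  · rw [Finset.insert_eq_of_mem he]
  · have h1 := r.submod (insert e A) B
    have e1 : insert e A ∩ B = A := by
      ext x
      simp only [Finset.mem_inter, Finset.mem_insert]
      constructor
      · rintro ⟨rfl | hx, hB⟩
        · exact absurd hB he
        · exact hx
      · intro hx
        exact ⟨Or.inr hx, hAB hx⟩
    have e2 : insert e A ∪ B = insert e B := by
      ext x
      simp only [Finset.mem_union, Finset.mem_insert]
      constructor
      · rintro ((hx | hx) | hx)
        · exact Or.inl hx
        · exact Or.inr (hAB hx)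
        · exact Or.inr hx
      · rintro (hx | hx)
        · exact Or.inl (Or.inl hx)
        · exact Or.inr hx
    rw [e1, e2] at h1
    have h2 := r.mono (Finset.subset_insert e B)
    omega

/-- a set of spanned elements does not increase the rank -/
theorem RankFn.rk_union_eq (r : RankFn E) (A B : Finset E)
    (h : ∀ e ∈ B, r.rk (insert e A) = r.rk A) : r.rk (A ∪ B) = r.rk A := by
  induction B using Finset.induction_on with
  | empty => simp
  | insert b s hb ih =>
    rw [Finset.union_insert]
    have h1 := ih (fun e he => h e (Finset.mem_insert_of_mem he))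
    rw [r.span_mono Finset.subset_union_left (h b (Finset.mem_insert_self b s)), h1]

theorem RankFn.mem_free (r : RankFn E) {B X : Finset E} {e : E} :
    e ∈ r.free B X ↔ e ∈ B ∧ r.rk (insert e (X.erase e)) ≠ r.rk (X.erase e) := by
  classical
  unfold RankFn.free
  rw [Finset.mem_filter]
  rfl

theorem free_card_le (r : RankFn E) (X : Finset E) : (r.free X X).card ≤ r.rk X := by
  have key : ∀ S : Finset E, S ⊆ r.free X X → r.rk S = S.card := by
    intro S
    induction S using Finset.induction_on with
    | empty => intro _; simp [r.rk_empty]
    | insert a s ha ih =>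
      intro hS
      have h1 := ih ((Finset.subset_insert a s).trans hS)
      obtain ⟨haX, hfree⟩ := r.mem_free.1 (hS (Finset.mem_insert_self a s))
      have hsX : s ⊆ X.erase a := by
        intro x hx
        refine Finset.mem_erase.2 ⟨fun hxa => ha (hxa ▸ hx), ?_⟩
        exact (r.mem_free.1 (hS (Finset.mem_insert_of_mem hx))).1
      have hne : r.rk (insert a s) ≠ r.rk s := fun h => hfree (r.span_mono hsX h)
      rw [Finset.card_insert_of_notMem ha]
      have h2 := r.insert_le a s
      have h3 := r.mono (Finset.subset_insert a s)
      omega
  rw [← key _ (Finset.Subset.refl _)]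
  exact r.mono (fun x hx => (r.mem_free.1 hx).1)

theorem spanned_card_le (r : RankFn E) (B X : Finset E) (hX : X ⊆ B) (d : ℕ)
    (hd : ∀ A ⊆ B, A.card ≤ d * r.rk A) :
    B.card ≤ (r.free B X).card + d * r.rk X := by
  have hsub : r.free B X ⊆ B := fun x hx => (r.mem_free.1 hx).1
  have h1 : r.rk (X ∪ (B \ r.free B X)) = r.rk X := by
    refine r.rk_union_eq _ _ fun e he => ?_
    obtain ⟨heB, heF⟩ := Finset.mem_sdiff.1 he
    have h2 : r.rk (insert e (X.erase e)) = r.rk (X.erase e) := by
      by_contra hc
      exact heF (r.mem_free.2 ⟨heB, hc⟩)
    exact r.span_mono (Finset.erase_subset e X) h2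
  have h2 : r.rk (B \ r.free B X) ≤ r.rk X := by
    rw [← h1]
    exact r.mono Finset.subset_union_right
  have h3 := hd (B \ r.free B X) Finset.sdiff_subset
  have h4 := Nat.mul_le_mul_left d h2
  have h5 : (B \ r.free B X).card + (r.free B X).card = B.card := by
    have := Finset.card_sdiff_add_card_eq_card hsub
    exact this
  omega

end Vale.Agent.P331
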