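import Vale.Agent.P331.CoreA
import Vale.Agent.P331.Count

/-! P331, row CORE: the counting inequality. -/

namespace Vale.Agent.P331

open MeasureTheory
open scoped ENNReal NNReal

universe u
variable {E : Type u} [DecidableEq E]

theorem core_count [Fintype E] (μ : Measure ℝ≥0) [IsProbabilityMeasure μ] (r : RankFn E)
    (B : Finset E) (p : ℝ≥0 → Prop) (hp : MeasurableSet {x | p x}) (d : ℕ)
    (hd : ∀ A ⊆ B, A.card ≤ d * r.rk A) :
    (B.card : ℝ≥0∞) ≤ (∫⁻ V, ((r.free B (passSet B p V)).card : ℝ≥0∞) ∂(Measure.pi fun _ : E => μ))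
      + d * ∫⁻ V, (r.rk (passSet B p V) : ℝ≥0∞) ∂(Measure.pi fun _ : E => μ) := by
  have m1 : Measurable fun V : E → ℝ≥0 => ((r.free B (passSet B p V)).card : ℝ≥0∞) :=
    measurable_of_passSet B p hp (fun X => ((r.free B X).card : ℝ≥0∞))
  have m2 : Measurable fun V : E → ℝ≥0 => ((r.rk (passSet B p V) : ℕ) : ℝ≥0∞) :=
    measurable_of_passSet B p hp (fun X => ((r.rk X : ℕ) : ℝ≥0∞))
  rw [← lintegral_const_mul _ m2, ← lintegral_add_left m1]
  calc (B.card : ℝ≥0∞) = ∫⁻ _V, (B.card : ℝ≥0∞) ∂(Measure.pi fun _ : E => μ) := by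
        rw [lintegral_const, measure_univ, mul_one]
    _ ≤ _ := by
        refine lintegral_mono fun V => ?_
        have hX : passSet B p V ⊆ B := fun e he => ((mem_passSet B p V e).1 he).1
        have := spanned_card_le r B (passSet B p V) hX d hd
        have h2 : ((B.card : ℕ) : ℝ≥0∞) ≤
            (((r.free B (passSet B p V)).card + d * r.rk (passSet B p V) : ℕ) : ℝ≥0∞) :=
          Nat.cast_le.2 this
        rw [Nat.cast_add, Nat.cast_mul] at h2
        exact h2

end Vale.Agent.P331
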