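import Vale.Agent.P331.Model
import Vale.Agent.P331.Count
import Vale.Agent.P331.Quant
import Vale.Agent.P331.Core

/-! P331, row BLOCKB: the weak test keeps a constant fraction of the rank of every block. -/

namespace Vale.Agent.P331

open MeasureTheory
open scoped ENNReal NNReal

universe u
variable {E : Type u} [DecidableEq E]

/-- The mean rank of the passing elements of a block. -/
theorem blockB_mean [Fintype E] (μ : Measure ℝ≥0) [IsProbabilityMeasure μ] (r : RankFn E)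
    (B : Finset E) (s : ℕ) (hs : 1 ≤ s) (hd : ∀ A ⊆ B, A.card ≤ 2 * s * r.rk A)
    (hb : s * r.rk B ≤ B.card) (p : ℝ≥0 → Prop) (hp : MeasurableSet {x | p x})
    (hq : (1 / (16 * s) : ℝ≥0∞) ≤ μ {x | p x}) :
    (r.rk B : ℝ≥0∞) ≤ 18 * ∫⁻ V, (r.rk (passSet B p V) : ℝ≥0∞) ∂(Measure.pi fun _ : E => μ) := by
  set P := Measure.pi fun _ : E => μ with hP
  set I := ∫⁻ V, (r.rk (passSet B p V) : ℝ≥0∞) ∂P with hI
  set F := ∫⁻ V, ((r.free B (passSet B p V)).card : ℝ≥0∞) ∂P with hF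
  have hs0 : (s : ℝ≥0∞) ≠ 0 := by
    have : s ≠ 0 := by omega
    exact_mod_cast this
  have hst : (s : ℝ≥0∞) ≠ ⊤ := ENNReal.natCast_ne_top s
  have h16 : (16 * s : ℝ≥0∞) ≠ 0 := mul_ne_zero (by norm_num) hs0
  have h16t : (16 * s : ℝ≥0∞) ≠ ⊤ := ENNReal.mul_ne_top (by norm_num) hst
  -- the free part
  have h1 : μ {x | p x} * F ≤ I := by
    have h := core_eq μ r B p hp (fun _ => 1) measurable_const
    simp only [Finset.sum_const, nsmul_eq_mul, mul_one, lintegral_const, one_mul,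
      Measure.restrict_apply MeasurableSet.univ, Set.univ_inter] at h
    rw [← hP] at h
    rw [← hF] at h
    rw [← h, hI]
    exact lintegral_mono fun V => Nat.cast_le.2 (free_card_le r (passSet B p V))
  have h2 : F ≤ 16 * s * I := by
    have h3 : (1 / (16 * s) : ℝ≥0∞) * F ≤ I := le_trans (mul_le_mul_left hq F) h1
    have h4 : (16 * s : ℝ≥0∞) * ((1 / (16 * s) : ℝ≥0∞) * F) ≤ 16 * s * I := by gcongr
    rwa [← mul_assoc, ENNReal.mul_div_cancel h16 h16t, one_mul] at h4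
  have h3 := core_count μ r B p hp (2 * s) hd
  rw [← hP, ← hI, ← hF] at h3
  have h4 : (s : ℝ≥0∞) * (r.rk B : ℝ≥0∞) ≤ s * (18 * I) := by
    calc (s : ℝ≥0∞) * (r.rk B : ℝ≥0∞) ≤ (B.card : ℝ≥0∞) := by exact_mod_cast hb
      _ ≤ F + ((2 * s : ℕ) : ℝ≥0∞) * I := h3
      _ ≤ 16 * s * I + ((2 * s : ℕ) : ℝ≥0∞) * I := by gcongr
      _ = s * (18 * I) := by push_cast; ring
  exact (ENNReal.mul_le_mul_iff_right hs0 hst).1 h4

theorem blockB [Fintype E] (μ : Measure ℝ≥0) [IsProbabilityMeasure μ] (r : RankFn E)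
    (B Z : Finset E) (hs : 1 ≤ Z.card) (hd : ∀ A ⊆ B, A.card ≤ 2 * Z.card * r.rk A)
    (hb : Z.card * r.rk B ≤ B.card) :
    (7 / 2592 : ℝ≥0∞) * (r.rk B * (qt μ (1 / (8 * Z.card)) : ℝ≥0∞)) ≤
      (Measure.pi fun _ : E => μ)
        {S | qt μ (1 / (8 * Z.card)) ≤ Z.sup S ∧ Z.sup S ≤ qt μ (1 / (16 * Z.card))}
      * ∫⁻ V, (qt μ (1 / (8 * Z.card)) : ℝ≥0∞)
          * (r.rk (passSet B (fun x => qt μ (1 / (16 * Z.card)) ≤ x) V) : ℝ≥0∞)
        ∂(Measure.pi fun _ : E => μ) := by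
  have hs0 : (Z.card : ℝ≥0∞) ≠ 0 := by
    have : Z.card ≠ 0 := by omega
    exact_mod_cast this
  have hα : (1 / (16 * Z.card) : ℝ≥0∞) ≤ 1 := by
    rw [one_div]
    apply ENNReal.inv_le_one.2
    have : 1 ≤ 16 * Z.card := by omega
    exact_mod_cast this
  have hq : (1 / (16 * Z.card) : ℝ≥0∞) ≤ μ {x | qt μ (1 / (16 * Z.card)) ≤ x} :=
    qt_Ici μ _ hα
  have hp : MeasurableSet {x : ℝ≥0 | qt μ (1 / (16 * Z.card)) ≤ x} := measurableSet_Ici
  have hm := blockB_mean μ r B Z.card hs hd hb _ hp hq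
  have hP := probB (E := E) μ Z hs
  rw [lintegral_const_mul' _ _ ENNReal.coe_ne_top]
  have h7 : (7 / 2592 : ℝ≥0∞) = 7 / 144 * (1 / 18) := by
    rw [ENNReal.div_eq_inv_mul, ENNReal.div_eq_inv_mul, ENNReal.div_eq_inv_mul, mul_one,
      mul_comm _ (18 : ℝ≥0∞)⁻¹, ← mul_assoc, ← ENNReal.mul_inv (by norm_num) (by norm_num)]
    norm_num
  set I := ∫⁻ V, (r.rk (passSet B (fun x => qt μ (1 / (16 * Z.card)) ≤ x) V) : ℝ≥0∞)
    ∂(Measure.pi fun _ : E => μ) with hI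
  have h18 : (1 / 18 : ℝ≥0∞) * r.rk B ≤ I := by
    calc (1 / 18 : ℝ≥0∞) * r.rk B ≤ 1 / 18 * (18 * I) := by gcongr
      _ = I := by
        rw [← mul_assoc, ENNReal.div_mul_cancel (by norm_num) (by norm_num), one_mul]
  calc (7 / 2592 : ℝ≥0∞) * (r.rk B * (qt μ (1 / (8 * Z.card)) : ℝ≥0∞))
      = 7 / 144 * ((qt μ (1 / (8 * Z.card)) : ℝ≥0∞) * ((1 / 18) * r.rk B)) := by
        rw [h7]; ring
    _ ≤ _ := by gcongr

end Vale.Agent.P331
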