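import Vale.Agent.P331.Base
import Vale.Agent.P331.Quant
import Vale.Agent.P331.BlockA
import Vale.Agent.P331.BlockB

namespace Vale.Agent.P331

open MeasureTheory
open scoped ENNReal NNReal

universe u
variable {E : Type u} [DecidableEq E]

/-- the window of the maximum in the weak coin -/
def win (Z : Finset E) (μ : Measure ℝ≥0) : Set (E → ℝ≥0) :=
  {S | qt μ (1 / (8 * Z.card)) ≤ Z.sup S ∧ Z.sup S ≤ qt μ (1 / (16 * Z.card))}

/-- lower bound function for the weak coin, value part -/
noncomputable def gB [Fintype E] {ρ : RankFn E} (C : Chain ρ) (Z : ℕ → Finset E)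
    (μ : Measure ℝ≥0) (j : ℕ) (V : E → ℝ≥0) : ℝ≥0∞ :=
  (qt μ (1 / (8 * (Z j).card)) : ℝ≥0∞) *
    ((C.rb j).rk (passSet (C.bl j) (fun x => qt μ (1 / (16 * (Z j).card)) ≤ x) V) : ℝ≥0∞)

theorem measurableSet_win [Fintype E] (Z : Finset E) (μ : Measure ℝ≥0) :
    MeasurableSet (win Z μ) := by
  exact ((measurable_supZ Z) measurableSet_Ici).inter ((measurable_supZ Z) measurableSet_Iic)

theorem measurable_gB [Fintype E] {ρ : RankFn E} (C : Chain ρ) (Z : ℕ → Finset E)
    (μ : Measure ℝ≥0) (j : ℕ) : Measurable (gB C Z μ j) := by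
  apply measurable_fib
    (fun V : E → ℝ≥0 => passSet (C.bl j) (fun x => qt μ (1 / (16 * (Z j).card)) ≤ x) V)
    (fun A => measurable_passSet (C.bl j) _ measurableSet_Ici A)
    (fun A _ => (qt μ (1 / (8 * (Z j).card)) : ℝ≥0∞) * ((C.rb j).rk A : ℝ≥0∞))
  intro A
  exact measurable_const


/-- pointwise lower bound, weak coin -/
theorem payB [Fintype E] {M : Matroid E} (C : Chain (rkM M)) (Z : ℕ → Finset E)
    (μ : Measure ℝ≥0) (S V : E → ℝ≥0) (l : List E) (hl : ∀ e, e ∈ l) :
    ∑ j ∈ Finset.range C.J, (win (Z j) μ).indicator (fun _ => gB C Z μ j V) S ≤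
      ∑ e ∈ accepted ((theRule M C Z).dec false S) (history l V), (V e : ℝ≥0∞) := by
  have h0 : accepted ((theRule M C Z).dec false S) (history l V)
      = run (C.ok (pass Z false S)) (history l V) :=
    accepted_eq_run (C.ok (pass Z false S)) _
  rw [h0]
  refine le_trans ?_ (sum_blocks_le C _ _)
  apply Finset.sum_le_sum
  intro j hj
  have hj' := Finset.mem_range.mp hj
  have h1 := run_card C (pass Z false S) l V hl j hj'
  have h3 := run_sub C (pass Z false S) l V j
  have h2 : pass Z false S j = fun x => (Z j).sup S ≤ x := by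
    ext x; simp [pass]
  rw [h2] at h1 h3
  by_cases hw : S ∈ win (Z j) μ
  · rw [Set.indicator_of_mem hw]
    obtain ⟨hw1, hw2⟩ := hw
    have h4 : (C.rb j).rk (passSet (C.bl j) (fun x => qt μ (1 / (16 * (Z j).card)) ≤ x) V)
        ≤ (C.rb j).rk (passSet (C.bl j) (fun x => (Z j).sup S ≤ x) V) := by
      apply (C.rb j).mono
      classical
      unfold passSet
      intro e he
      simp only [Finset.mem_filter] at he ⊢
      exact ⟨he.1, hw2.trans he.2⟩
    unfold gB
    calc (qt μ (1 / (8 * (Z j).card)) : ℝ≥0∞) *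
          ((C.rb j).rk (passSet (C.bl j) (fun x => qt μ (1 / (16 * (Z j).card)) ≤ x) V) : ℝ≥0∞)
        ≤ (((Z j).sup S : ℝ≥0) : ℝ≥0∞) *
          ((run (C.ok (pass Z false S)) (history l V) ∩ C.bl j).card : ℝ≥0∞) := by
          rw [h1]
          gcongr
      _ = ∑ e ∈ run (C.ok (pass Z false S)) (history l V) ∩ C.bl j,
            (((Z j).sup S : ℝ≥0) : ℝ≥0∞) := by
          rw [Finset.sum_const, nsmul_eq_mul, mul_comm]
      _ ≤ _ := by
          apply Finset.sum_le_sum
          intro e he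
          have := h3 he
          classical
          unfold passSet at this
          simp only [Finset.mem_filter] at this
          exact_mod_cast this.2
  · rw [Set.indicator_of_notMem hw]
    exact zero_le


theorem eval_lintegral [Fintype E] (μ : Measure ℝ≥0) [IsProbabilityMeasure μ] (e : E)
    (f : ℝ≥0 → ℝ≥0∞) (hf : Measurable f) :
    ∫⁻ V, f (V e) ∂(Measure.pi fun _ : E => μ) = ∫⁻ x, f x ∂μ :=
  (measurePreserving_eval (fun _ : E => μ) e).lintegral_comp hf

/-- levels of the quantiles -/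
noncomputable def tq (μ : Measure ℝ≥0) (j : ℕ) : ℝ≥0 := qt μ (1 / (8 * 2 ^ j))

theorem tq_mono (μ : Measure ℝ≥0) [IsProbabilityMeasure μ] : Monotone (tq μ) := by
  apply monotone_nat_of_le_succ
  intro j
  apply qt_anti μ
  · apply ENNReal.div_pos (by simp)
    exact ENNReal.mul_ne_top (by simp) (by simp)
  · apply ENNReal.div_le_div_left
    gcongr
    · norm_num
    · exact Nat.le_succ j

/-- the part of the optimum above the quantiles -/
noncomputable def UU [Fintype E] {ρ : RankFn E} (C : Chain ρ) (μ : Measure ℝ≥0) (j : ℕ) : ℝ≥0∞ :=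
  (C.bl j).card * ∫⁻ x, ((x : ℝ≥0∞) - tq μ j) ∂μ

/-- the part of the optimum below the quantiles -/
noncomputable def WW [Fintype E] {ρ : RankFn E} (C : Chain ρ) (μ : Measure ℝ≥0) (j : ℕ) : ℝ≥0∞ :=
  (C.rb j).rk (C.bl j) * (tq μ j : ℝ≥0∞)

theorem opt_int_le [Fintype E] (M : Matroid E) (C : Chain (rkM M)) (μ : Measure ℝ≥0)
    [IsProbabilityMeasure μ] :
    ∫⁻ V, opt M V ∂(Measure.pi fun _ : E => μ) ≤
      (∑ j ∈ Finset.range C.J, UU C μ j) + ∑ j ∈ Finset.range C.J, WW C μ j := by
  calc ∫⁻ V, opt M V ∂(Measure.pi fun _ : E => μ)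
      ≤ ∫⁻ V, ((∑ j ∈ Finset.range C.J, ∑ e ∈ C.bl j, ((V e : ℝ≥0∞) - tq μ j))
        + ∑ j ∈ Finset.range C.J, ((C.rb j).rk (C.bl j) : ℝ≥0∞) * tq μ j)
          ∂(Measure.pi fun _ : E => μ) :=
        lintegral_mono fun V => opt_le M C (tq μ) (tq_mono μ) V
    _ = _ := by
        rw [lintegral_add_right _ measurable_const, lintegral_const, measure_univ, mul_one]
        congr 1
        rw [lintegral_finsetSum _ (fun j _ => by fun_prop)]
        apply Finset.sum_congr rfl
        intro j _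
        rw [lintegral_finsetSum _ (fun e _ => by fun_prop)]
        unfold UU
        rw [← nsmul_eq_mul, ← Finset.sum_const]
        apply Finset.sum_congr rfl
        intro e _
        exact eval_lintegral μ e (fun x => (x : ℝ≥0∞) - tq μ j) (by fun_prop)

theorem intA [Fintype E] {ρ : RankFn E} (C : Chain ρ) (Z : ℕ → Finset E)
    (hZ : ∀ j, (C.bl j).Nonempty → (Z j).card = 2 ^ j) (μ : Measure ℝ≥0)
    [IsProbabilityMeasure μ] (j : ℕ) :
    (3 / 80) * UU C μ j ≤ ∫⁻ p, gA C Z j p
      ∂((Measure.pi fun _ : E => μ).prod (Measure.pi fun _ : E => μ)) := by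
  rw [lintegral_prod _ (measurable_gA C Z j).aemeasurable]
  by_cases h : (C.bl j).Nonempty
  · have h1 := blockA μ (C.rb j) (C.bl j) (Z j) (by rw [hZ j h]; exact Nat.one_le_two_pow) (by
      intro A hA
      have := C.dense j A hA
      rw [hZ j h]
      rw [pow_succ, mul_comm (2 ^ j) 2] at this
      exact this)
    rw [hZ j h] at h1
    push_cast at h1
    exact h1
  · rw [Finset.not_nonempty_iff_eq_empty] at h
    have : UU C μ j = 0 := by unfold UU; rw [h]; simp
    rw [this, mul_zero]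
    exact zero_le

theorem intB [Fintype E] {ρ : RankFn E} (C : Chain ρ) (Z : ℕ → Finset E)
    (hZ : ∀ j, (C.bl j).Nonempty → (Z j).card = 2 ^ j) (μ : Measure ℝ≥0)
    [IsProbabilityMeasure μ] (j : ℕ) :
    (7 / 2592) * WW C μ j ≤ ∫⁻ p, (win (Z j) μ).indicator (fun _ => gB C Z μ j p.2) p.1
      ∂((Measure.pi fun _ : E => μ).prod (Measure.pi fun _ : E => μ)) := by
  have e1 : ∀ p : (E → ℝ≥0) × (E → ℝ≥0),
      (win (Z j) μ).indicator (fun _ => gB C Z μ j p.2) p.1
        = (win (Z j) μ).indicator 1 p.1 * gB C Z μ j p.2 := by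
    intro p
    by_cases hp : p.1 ∈ win (Z j) μ
    · simp [hp]
    · simp [hp]
  simp_rw [e1]
  rw [lintegral_prod_mul
    ((measurable_one.indicator (measurableSet_win (Z j) μ)).aemeasurable)
    (measurable_gB C Z μ j).aemeasurable]
  rw [lintegral_indicator_one (measurableSet_win (Z j) μ)]
  by_cases h : (C.bl j).Nonempty
  · have h1 := blockB μ (C.rb j) (C.bl j) (Z j) (by rw [hZ j h]; exact Nat.one_le_two_pow) (by
      intro A hA
      have := C.dense j A hA
      rw [hZ j h]
      rw [pow_succ, mul_comm (2 ^ j) 2] at this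
      exact this) (by rw [hZ j h]; exact C.big j)
    refine le_trans ?_ h1
    unfold WW tq
    rw [hZ j h]
    push_cast
    exact le_refl _
  · rw [Finset.not_nonempty_iff_eq_empty] at h
    have : WW C μ j = 0 := by unfold WW; rw [h, (C.rb j).rk_empty]; simp
    rw [this, mul_zero]
    exact zero_le

theorem main_const [Fintype E] (M : Matroid E) : ∃ A : OnlineRule M Bool,
    ∀ (μ : Measure ℝ≥0) [IsProbabilityMeasure μ],
      A.Competitive (1 / 1000) coin (fun _ => μ) := by
  obtain ⟨C⟩ := exists_chain (rkM M)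
  obtain ⟨Z, hZ⟩ := exists_Z C
  refine ⟨theRule M C Z, fun μ _ => ?_⟩
  intro π hπ
  set P : Measure (E → ℝ≥0) := Measure.pi fun _ : E => μ with hP
  let g : Bool × (E → ℝ≥0) × (E → ℝ≥0) → ℝ≥0∞ := fun ω =>
    if ω.1 then ∑ j ∈ Finset.range C.J, gA C Z j ω.2
    else ∑ j ∈ Finset.range C.J, (win (Z j) μ).indicator (fun _ => gB C Z μ j ω.2.2) ω.2.1
  have hgA : Measurable fun p => ∑ j ∈ Finset.range C.J, gA C Z j p :=
    Finset.measurable_sum _ fun j _ => measurable_gA C Z j
  have hgBj : ∀ j, Measurable fun p : (E → ℝ≥0) × (E → ℝ≥0) =>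
      (win (Z j) μ).indicator (fun _ => gB C Z μ j p.2) p.1 := by
    intro j
    have e1 : (fun p : (E → ℝ≥0) × (E → ℝ≥0) =>
        (win (Z j) μ).indicator (fun _ => gB C Z μ j p.2) p.1)
          = fun p => (win (Z j) μ).indicator 1 p.1 * gB C Z μ j p.2 := by
      ext p
      by_cases hp : p.1 ∈ win (Z j) μ
      · simp [hp]
      · simp [hp]
    rw [e1]
    exact ((measurable_one.indicator (measurableSet_win (Z j) μ)).comp measurable_fst).mul
      ((measurable_gB C Z μ j).comp measurable_snd)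
  have hgB : Measurable fun p : (E → ℝ≥0) × (E → ℝ≥0) =>
      ∑ j ∈ Finset.range C.J, (win (Z j) μ).indicator (fun _ => gB C Z μ j p.2) p.1 :=
    Finset.measurable_sum _ fun j _ => hgBj j
  have hg : Measurable g := by
    apply measurable_from_prod_countable_right
    intro b
    cases b with
    | true => simpa [g] using hgA
    | false => simpa [g] using hgB
  have hle : ∀ ω : Bool × (E → ℝ≥0) × (E → ℝ≥0), g ω ≤
      ∑ e ∈ accepted ((theRule M C Z).dec ω.1 ω.2.1) (history (π ω.1 ω.2.1 ω.2.2) ω.2.2),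
          (ω.2.2 e : ℝ≥0∞) := by
    rintro ⟨b, S, V⟩
    cases b with
    | true => exact payA C Z S V _ (hπ true S V).2
    | false => exact payB C Z μ S V _ (hπ false S V).2
  have h1 : ∫⁻ ω, g ω ∂(coin.prod (P.prod P)) ≤ _ := lintegral_mono hle
  refine le_trans ?_ h1
  rw [coin_lintegral _ g hg]
  have hA : (3 / 80) * ∑ j ∈ Finset.range C.J, UU C μ j ≤ ∫⁻ p, g (true, p) ∂(P.prod P) := by
    have : ∫⁻ p, g (true, p) ∂(P.prod P) = ∑ j ∈ Finset.range C.J,
        ∫⁻ p, gA C Z j p ∂(P.prod P) := by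
      rw [← lintegral_finsetSum _ (fun j _ => measurable_gA C Z j)]
      rfl
    rw [this, Finset.mul_sum]
    exact Finset.sum_le_sum fun j _ => intA C Z hZ μ j
  have hB : (7 / 2592) * ∑ j ∈ Finset.range C.J, WW C μ j ≤ ∫⁻ p, g (false, p) ∂(P.prod P) := by
    have : ∫⁻ p, g (false, p) ∂(P.prod P) = ∑ j ∈ Finset.range C.J,
        ∫⁻ p, (win (Z j) μ).indicator (fun _ => gB C Z μ j p.2) p.1 ∂(P.prod P) := by
      rw [← lintegral_finsetSum _ (fun j _ => hgBj j)]
      rfl
    rw [this, Finset.mul_sum]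
    exact Finset.sum_le_sum fun j _ => intB C Z hZ μ j
  have h2 := opt_int_le M C μ
  have c1 : (1 / 1000 : ℝ≥0∞) ≤ 1 / 2 * (3 / 80) := by
    rw [← ENNReal.toReal_le_toReal (by finiteness) (by finiteness)]
    norm_num
  have c2 : (1 / 1000 : ℝ≥0∞) ≤ 1 / 2 * (7 / 2592) := by
    rw [← ENNReal.toReal_le_toReal (by finiteness) (by finiteness)]
    norm_num
  calc (1 / 1000) * ∫⁻ V, opt M V ∂P
      ≤ (1 / 1000) * ((∑ j ∈ Finset.range C.J, UU C μ j)
          + ∑ j ∈ Finset.range C.J, WW C μ j) := by gcongr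
    _ = (1 / 1000) * (∑ j ∈ Finset.range C.J, UU C μ j)
          + (1 / 1000) * ∑ j ∈ Finset.range C.J, WW C μ j := mul_add _ _ _
    _ ≤ (1 / 2 * (3 / 80)) * (∑ j ∈ Finset.range C.J, UU C μ j)
          + (1 / 2 * (7 / 2592)) * ∑ j ∈ Finset.range C.J, WW C μ j := by gcongr
    _ = (1 / 2) * ((3 / 80) * (∑ j ∈ Finset.range C.J, UU C μ j)
          + (7 / 2592) * ∑ j ∈ Finset.range C.J, WW C μ j) := by ring
    _ ≤ _ := by gcongr

/-- The theorem for laws `D` which are all equal. -/
theorem main_thm [Fintype E] (M : Matroid E) : ∃ A : OnlineRule M Bool,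
    ∀ D : E → Measure ℝ≥0, (∀ e, IsProbabilityMeasure (D e)) → (∀ e f, D e = D f) →
      A.Competitive (1 / 1000) coin D := by
  obtain ⟨A, hA⟩ := main_const M
  refine ⟨A, fun D hD hDD => ?_⟩
  by_cases hE : Nonempty E
  · obtain ⟨e⟩ := hE
    have : D = fun _ => D e := funext fun f => hDD f e
    have hp := hD e
    rw [this]
    exact hA (D e)
  · have hE' : IsEmpty E := not_nonempty_iff.mp hE
    have : D = fun _ => Measure.dirac 0 := funext fun f => isEmptyElim f
    rw [this]
    exact hA _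

end Vale.Agent.P331
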