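import Vale.Agent.P331.Model

namespace Vale.Agent.P331

open MeasureTheory
open scoped ENNReal NNReal

theorem measurable_fib {Ω ι β : Type*} [MeasurableSpace Ω] [MeasurableSpace β] [Countable ι]
    (X : Ω → ι) (hX : ∀ i, MeasurableSet {ω | X ω = i}) (F : ι → Ω → β)
    (hF : ∀ i, Measurable (F i)) : Measurable fun ω => F (X ω) ω := by
  intro s hs
  have : (fun ω => F (X ω) ω) ⁻¹' s = ⋃ i, ({ω | X ω = i} ∩ (F i) ⁻¹' s) := by
    ext ω
    simp only [Set.mem_preimage, Set.mem_iUnion, Set.mem_inter_iff, Set.mem_ofPred_eq]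
    constructor
    · intro h
      exact ⟨X ω, rfl, h⟩
    · rintro ⟨i, rfl, h⟩
      exact h
  rw [this]
  exact MeasurableSet.iUnion fun i => (hX i).inter (hF i hs)

end Vale.Agent.P331
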