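import Vale.Agent.P331.Count

/-! P331, row GREEDY: the run of the block greedy. -/

namespace Vale.Agent.P331

open scoped NNReal

universe u

variable {E : Type u} [DecidableEq E] [Fintype E]

theorem Chain.anti_le {ρ : RankFn E} (C : Chain ρ) {i j : ℕ} (h : i ≤ j) : C.G j ⊆ C.G i := by
  induction j, h using Nat.le_induction with
  | base => exact Finset.Subset.refl _
  | succ n _ ih => exact (C.anti n).trans ih

theorem Chain.bl_unique {ρ : RankFn E} (C : Chain ρ) {i j : ℕ} {e : E} (hi : e ∈ C.bl i)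
    (hj : e ∈ C.bl j) : i = j := by
  have key : ∀ a b : ℕ, e ∈ C.bl a → e ∈ C.bl b → ¬ a < b := by
    intro a b ha hb hab
    have h1 := (Finset.mem_sdiff.1 ha).2
    have h2 := (Finset.mem_sdiff.1 hb).1
    exact h1 (C.anti_le hab h2)
  have h1 := key i j hi hj
  have h2 := key j i hj hi
  omega

/-- the invariant of the run -/
structure Inv {ρ : RankFn E} (C : Chain ρ) (A : Finset E) : Prop where
  sub : ∀ e ∈ A, ∃ j, j < C.J ∧ e ∈ C.bl j
  ind : ∀ j, (C.rb j).rk (A ∩ C.bl j) = (A ∩ C.bl j).card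

theorem ok_iff {ρ : RankFn E} (C : Chain ρ) (pass : ℕ → ℝ≥0 → Prop) (A : Finset E)
    (x : E × ℝ≥0) : C.ok pass A x = true ↔ ∃ j, j < C.J ∧ x.1 ∈ C.bl j ∧ pass j x.2 ∧
    (C.rb j).rk (insert x.1 (A ∩ C.bl j)) ≠ (C.rb j).rk (A ∩ C.bl j) := by
  classical
  unfold Chain.ok
  exact decide_eq_true_iff

theorem run_inv {ρ : RankFn E} (C : Chain ρ) (pass : ℕ → ℝ≥0 → Prop)
    (h : List (E × ℝ≥0)) : Inv C (run (C.ok pass) h) := by
  induction h with
  | nil =>
    refine ⟨fun e he => absurd he (Finset.notMem_empty e), fun j => ?_⟩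
    simp [run, RankFn.rk_empty]
  | cons x h ih =>
    unfold run
    split_ifs with hok
    · obtain ⟨j0, hj0, hx, -, hne⟩ := (ok_iff C pass _ x).1 hok
      refine ⟨fun e he => ?_, fun j => ?_⟩
      · rcases Finset.mem_insert.1 he with rfl | he'
        · exact ⟨j0, hj0, hx⟩
        · exact ih.sub e he'
      · by_cases hj : j = j0
        · subst hj
          rw [Finset.insert_inter_of_mem hx]
          have hnot : x.1 ∉ run (C.ok pass) h ∩ C.bl j := by
            intro hmem
            rw [Finset.insert_eq_of_mem hmem] at hne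
            exact hne rfl
          rw [Finset.card_insert_of_notMem hnot]
          have h1 := ih.ind j
          have h2 := (C.rb j).insert_le x.1 (run (C.ok pass) h ∩ C.bl j)
          have h3 := (C.rb j).mono (Finset.subset_insert x.1 (run (C.ok pass) h ∩ C.bl j))
          omega
        · rw [Finset.insert_inter_of_notMem (fun hmem => hj (C.bl_unique hmem hx))]
          exact ih.ind j
    · exact ih

theorem Inv.rk_eq {ρ : RankFn E} {C : Chain ρ} {A : Finset E} (h : Inv C A) :
    ρ.rk A = A.card := by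
  have key : ∀ k ≤ C.J, ρ.rk (A ∩ C.G (C.J - k)) = (A ∩ C.G (C.J - k)).card := by
    intro k
    induction k with
    | zero =>
      intro _
      have h0 : A ∩ C.G (C.J - 0) = ∅ := by
        rw [Finset.eq_empty_iff_forall_notMem]
        intro e he
        obtain ⟨heA, heG⟩ := Finset.mem_inter.1 he
        obtain ⟨j, hj, hej⟩ := h.sub e heA
        exact (Finset.mem_sdiff.1 hej).2 (C.anti_le (by omega) heG)
      rw [h0, ρ.rk_empty, Finset.card_empty]
    | succ k ih =>
      intro hk
      have ih' := ih (by omega)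
      set j := C.J - (k + 1) with hj
      have hj1 : C.J - k = j + 1 := by omega
      rw [hj1] at ih'
      have e0 : A ∩ C.G j = (A ∩ C.bl j) ∪ (A ∩ C.G (j + 1)) := by
        ext x
        simp only [Finset.mem_inter, Finset.mem_union, Chain.bl, Finset.mem_sdiff]
        constructor
        · rintro ⟨hA, hG⟩
          by_cases hx : x ∈ C.G (j + 1)
          · exact Or.inr ⟨hA, hx⟩
          · exact Or.inl ⟨hA, hG, hx⟩
        · rintro (⟨hA, hG, -⟩ | ⟨hA, hG⟩)
          · exact ⟨hA, hG⟩
          · exact ⟨hA, C.anti j hG⟩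
      have hdisj : Disjoint (A ∩ C.bl j) (A ∩ C.G (j + 1)) := by
        rw [Finset.disjoint_left]
        intro x hx hx'
        exact (Finset.mem_sdiff.1 (Finset.mem_inter.1 hx).2).2 (Finset.mem_inter.1 hx').2
      have hc : (A ∩ C.G j).card = (A ∩ C.bl j).card + (A ∩ C.G (j + 1)).card := by
        rw [e0, Finset.card_union_of_disjoint hdisj]
      have hsm := ρ.submod (A ∩ C.G j) (C.G (j + 1))
      have e1 : (A ∩ C.G j) ∩ C.G (j + 1) = A ∩ C.G (j + 1) := by
        ext x
        simp only [Finset.mem_inter]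
        constructor
        · rintro ⟨⟨hA, -⟩, hG⟩
          exact ⟨hA, hG⟩
        · rintro ⟨hA, hG⟩
          exact ⟨⟨hA, C.anti j hG⟩, hG⟩
      have e2 : (A ∩ C.G j) ∪ C.G (j + 1) = C.G (j + 1) ∪ (A ∩ C.bl j) := by
        ext x
        simp only [Finset.mem_inter, Finset.mem_union, Chain.bl, Finset.mem_sdiff]
        constructor
        · rintro (⟨hA, hG⟩ | hG)
          · by_cases hx : x ∈ C.G (j + 1)
            · exact Or.inl hx
            · exact Or.inr ⟨hA, hG, hx⟩
          · exact Or.inl hG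
        · rintro (hG | ⟨hA, hG, -⟩)
          · exact Or.inr hG
          · exact Or.inl ⟨hA, hG⟩
      rw [e1, e2] at hsm
      have hind : ρ.rk (C.G (j + 1) ∪ (A ∩ C.bl j)) - ρ.rk (C.G (j + 1)) = (A ∩ C.bl j).card :=
        h.ind j
      have hmono := ρ.mono (Finset.subset_union_left (s₁ := C.G (j + 1)) (s₂ := A ∩ C.bl j))
      have hle := ρ.rk_le_card (A ∩ C.G j)
      omega
  have h0 := key C.J le_rfl
  rw [Nat.sub_self, C.G0, Finset.inter_univ] at h0
  exact h0

theorem run_indep {ρ : RankFn E} (C : Chain ρ) (pass : ℕ → ℝ≥0 → Prop)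
    (h : List (E × ℝ≥0)) : ρ.rk (run (C.ok pass) h) = (run (C.ok pass) h).card :=
  (run_inv C pass h).rk_eq

theorem run_pass {ρ : RankFn E} (C : Chain ρ) (pass : ℕ → ℝ≥0 → Prop) (V : E → ℝ≥0)
    (h : List (E × ℝ≥0)) (hV : ∀ x ∈ h, x.2 = V x.1) {e : E} {j : ℕ}
    (he : e ∈ run (C.ok pass) h) (hj : e ∈ C.bl j) : pass j (V e) := by
  induction h with
  | nil => exact absurd he (Finset.notMem_empty e)
  | cons x h ih =>
    unfold run at he
    split_ifs at he with hok
    · rcases Finset.mem_insert.1 he with rfl | he'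
      · obtain ⟨j0, -, hx, hp, -⟩ := (ok_iff C pass _ x).1 hok
        rw [hV x (List.mem_cons_self)] at hp
        rw [C.bl_unique hj hx]
        exact hp
      · exact ih (fun y hy => hV y (List.mem_cons_of_mem _ hy)) he'
    · exact ih (fun y hy => hV y (List.mem_cons_of_mem _ hy)) he

omit [DecidableEq E] [Fintype E] in
theorem history_val (l : List E) (V : E → ℝ≥0) : ∀ x ∈ history l V, x.2 = V x.1 := by
  intro x hx
  unfold history at hx
  rw [List.mem_reverse, List.mem_map] at hx
  obtain ⟨e, -, rfl⟩ := hx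
  rfl

omit [DecidableEq E] [Fintype E] in
theorem mem_history {l : List E} {V : E → ℝ≥0} {e : E} (he : e ∈ l) :
    (e, V e) ∈ history l V := by
  unfold history
  rw [List.mem_reverse, List.mem_map]
  exact ⟨e, he, rfl⟩

omit [DecidableEq E] [Fintype E] in
theorem mem_passSetG {B : Finset E} {p : ℝ≥0 → Prop} {V : E → ℝ≥0} {e : E} :
    e ∈ passSet B p V ↔ e ∈ B ∧ p (V e) := by
  classical
  unfold passSet
  rw [Finset.mem_filter]

theorem run_sub {ρ : RankFn E} (C : Chain ρ) (pass : ℕ → ℝ≥0 → Prop)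
    (l : List E) (V : E → ℝ≥0) (j : ℕ) :
    run (C.ok pass) (history l V) ∩ C.bl j ⊆ passSet (C.bl j) (pass j) V := by
  intro e he
  obtain ⟨h1, h2⟩ := Finset.mem_inter.1 he
  exact mem_passSetG.2 ⟨h2, run_pass C pass V _ (history_val l V) h1 h2⟩

theorem run_spans {ρ : RankFn E} (C : Chain ρ) (pass : ℕ → ℝ≥0 → Prop)
    (h : List (E × ℝ≥0)) {x : E × ℝ≥0} (hx : x ∈ h) {j : ℕ} (hj : j < C.J)
    (hb : x.1 ∈ C.bl j) (hp : pass j x.2) :
    (C.rb j).rk (insert x.1 (run (C.ok pass) h ∩ C.bl j))
      = (C.rb j).rk (run (C.ok pass) h ∩ C.bl j) := by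
  induction h with
  | nil => exact absurd hx (List.not_mem_nil)
  | cons y h ih =>
    have hsub : run (C.ok pass) h ⊆ run (C.ok pass) (y :: h) := by
      intro e he
      unfold run
      split_ifs
      · exact Finset.mem_insert_of_mem he
      · exact he
    rcases List.mem_cons.1 hx with rfl | hx'
    · by_cases hok : C.ok pass (run (C.ok pass) h) x = true
      · have hmem : x.1 ∈ run (C.ok pass) (x :: h) ∩ C.bl j := by
          refine Finset.mem_inter.2 ⟨?_, hb⟩
          unfold run
          rw [if_pos hok]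
          exact Finset.mem_insert_self _ _
        rw [Finset.insert_eq_of_mem hmem]
      · have h1 : (C.rb j).rk (insert x.1 (run (C.ok pass) h ∩ C.bl j))
            = (C.rb j).rk (run (C.ok pass) h ∩ C.bl j) := by
          by_contra hc
          exact hok ((ok_iff C pass _ x).2 ⟨j, hj, hb, hp, hc⟩)
        exact (C.rb j).span_mono (Finset.inter_subset_inter_right hsub) h1
    · exact (C.rb j).span_mono (Finset.inter_subset_inter_right hsub) (ih hx')

theorem run_card {ρ : RankFn E} (C : Chain ρ) (pass : ℕ → ℝ≥0 → Prop)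
    (l : List E) (V : E → ℝ≥0) (hl : ∀ e, e ∈ l) (j : ℕ) (hj : j < C.J) :
    (run (C.ok pass) (history l V) ∩ C.bl j).card
      = (C.rb j).rk (passSet (C.bl j) (pass j) V) := by
  have h1 := (run_inv C pass (history l V)).ind j
  have hsub := run_sub C pass l V j
  have h2 : (C.rb j).rk ((run (C.ok pass) (history l V) ∩ C.bl j) ∪
      passSet (C.bl j) (pass j) V) = (C.rb j).rk (run (C.ok pass) (history l V) ∩ C.bl j) := by
    refine (C.rb j).rk_union_eq _ _ fun e he => ?_
    obtain ⟨hb, hp⟩ := mem_passSetG.1 he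
    exact run_spans C pass _ (mem_history (hl e)) hj hb hp
  rw [Finset.union_eq_right.2 hsub] at h2
  rw [h2, h1]

theorem run_free {ρ : RankFn E} (C : Chain ρ) (pass : ℕ → ℝ≥0 → Prop)
    (l : List E) (V : E → ℝ≥0) (hl : ∀ e, e ∈ l) (j : ℕ) (hj : j < C.J) :
    (C.rb j).free (passSet (C.bl j) (pass j) V) (passSet (C.bl j) (pass j) V)
      ⊆ run (C.ok pass) (history l V) ∩ C.bl j := by
  intro e he
  obtain ⟨heX, hfree⟩ := (C.rb j).mem_free.1 he
  obtain ⟨hb, hp⟩ := mem_passSetG.1 heX
  by_contra hc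
  refine hfree ((C.rb j).span_mono (fun x hx => ?_)
    (run_spans C pass _ (mem_history (V := V) (hl e)) hj hb hp))
  exact Finset.mem_erase.2 ⟨fun hxe => hc (hxe ▸ hx), run_sub C pass l V j hx⟩

end Vale.Agent.P331
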