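import Vale.Agent.P331.Model

/-! P331: measurability of the decisions of the rule. -/

namespace Vale.Agent.P331

open MeasureTheory
open scoped ENNReal NNReal

universe u
variable {E : Type u} [DecidableEq E]

theorem MeasAux.measurable_finset_sup (s : Finset E) :
    Measurable fun S : E → ℝ≥0 => s.sup S := by
  induction s using Finset.induction_on with
  | empty => simp
  | insert a s _ ih =>
    have h : (fun S : E → ℝ≥0 => (insert a s).sup S) = fun S => S a ⊔ s.sup S := by
      funext S
      rw [Finset.sup_insert]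
    rw [h]
    exact (measurable_pi_apply a).sup ih

theorem MeasAux.measurableSet_pass (Z : ℕ → Finset E) (j : ℕ) (e : E) :
    MeasurableSet {p : Bool × (E → ℝ≥0) × (E → ℝ≥0) | pass Z p.1 p.2.1 j (p.2.2 e)} := by
  have hs : Measurable fun p : Bool × (E → ℝ≥0) × (E → ℝ≥0) => (Z j).sup p.2.1 :=
    (MeasAux.measurable_finset_sup (Z j)).comp (measurable_fst.comp measurable_snd)
  have hv : Measurable fun p : Bool × (E → ℝ≥0) × (E → ℝ≥0) => p.2.2 e :=
    (measurable_pi_apply e).comp (measurable_snd.comp measurable_snd)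
  have hb : MeasurableSet {p : Bool × (E → ℝ≥0) × (E → ℝ≥0) | p.1 = true} :=
    measurable_fst (measurableSet_singleton true)
  have h : {p : Bool × (E → ℝ≥0) × (E → ℝ≥0) | pass Z p.1 p.2.1 j (p.2.2 e)} =
      ({p | p.1 = true} ∩ {p | (Z j).sup p.2.1 < p.2.2 e}) ∪
        ({p | p.1 = true}ᶜ ∩ {p | (Z j).sup p.2.1 ≤ p.2.2 e}) := by
    ext p
    simp only [pass, Set.mem_ofPred_eq, Set.mem_union, Set.mem_inter_iff, Set.mem_compl_iff]
    by_cases hp : p.1 = true
    · simp [hp]
    · simp [hp]
  rw [h]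
  exact (hb.inter (measurableSet_lt hs hv)).union (hb.compl.inter (measurableSet_le hs hv))

theorem MeasAux.measurableSet_ok [Fintype E] {ρ : RankFn E} (C : Chain ρ) (Z : ℕ → Finset E)
    (B : Finset E) (e : E) :
    MeasurableSet {p : Bool × (E → ℝ≥0) × (E → ℝ≥0) |
      C.ok (pass Z p.1 p.2.1) B (e, p.2.2 e) = true} := by
  have h : {p : Bool × (E → ℝ≥0) × (E → ℝ≥0) |
      C.ok (pass Z p.1 p.2.1) B (e, p.2.2 e) = true} =
      ⋃ j : ℕ, {p | j < C.J ∧ e ∈ C.bl j ∧ pass Z p.1 p.2.1 j (p.2.2 e) ∧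
        (C.rb j).rk (insert e (B ∩ C.bl j)) ≠ (C.rb j).rk (B ∩ C.bl j)} := by
    ext p
    simp [Chain.ok]
  rw [h]
  refine MeasurableSet.iUnion fun j => ?_
  exact (MeasurableSet.const _).inter ((MeasurableSet.const _).inter
    ((MeasAux.measurableSet_pass Z j e).inter (MeasurableSet.const _)))

omit [DecidableEq E] in
theorem MeasAux.history_append_singleton (l : List E) (e : E) (V : E → ℝ≥0) :
    history (l ++ [e]) V = (e, V e) :: history l V := by
  simp [history]

theorem measurable_run [Fintype E] {ρ : RankFn E} (C : Chain ρ) (Z : ℕ → Finset E) (l : List E)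
    (A : Finset E) :
    MeasurableSet {p : Bool × (E → ℝ≥0) × (E → ℝ≥0) |
      run (C.ok (pass Z p.1 p.2.1)) (history l p.2.2) = A} := by
  induction l using List.reverseRecOn generalizing A with
  | nil =>
    simp only [history, List.map_nil, List.reverse_nil, run]
    exact MeasurableSet.const _
  | append_singleton l e ih =>
    have h : {p : Bool × (E → ℝ≥0) × (E → ℝ≥0) |
        run (C.ok (pass Z p.1 p.2.1)) (history (l ++ [e]) p.2.2) = A} =
        ⋃ B : Finset E, ({p | run (C.ok (pass Z p.1 p.2.1)) (history l p.2.2) = B} ∩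
          (({p | C.ok (pass Z p.1 p.2.1) B (e, p.2.2 e) = true} ∩ {p | insert e B = A}) ∪
            ({p | C.ok (pass Z p.1 p.2.1) B (e, p.2.2 e) = true}ᶜ ∩ {p | B = A}))) := by
      ext p
      simp only [Set.mem_ofPred_eq, Set.mem_iUnion, Set.mem_inter_iff, Set.mem_union,
        Set.mem_compl_iff, MeasAux.history_append_singleton, run]
      constructor
      · intro hp
        refine ⟨_, rfl, ?_⟩
        by_cases hok : C.ok (pass Z p.1 p.2.1)
            (run (C.ok (pass Z p.1 p.2.1)) (history l p.2.2)) (e, p.2.2 e) = true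
        · rw [if_pos hok] at hp
          exact Or.inl ⟨hok, hp⟩
        · rw [if_neg hok] at hp
          exact Or.inr ⟨hok, hp⟩
      · rintro ⟨B, rfl, ⟨hok, hp⟩ | ⟨hok, hp⟩⟩
        · rw [if_pos hok]; exact hp
        · rw [if_neg hok]; exact hp
    rw [h]
    refine MeasurableSet.iUnion fun B => (ih B).inter ?_
    exact ((MeasAux.measurableSet_ok C Z B e).inter (MeasurableSet.const _)).union
      ((MeasAux.measurableSet_ok C Z B e).compl.inter (MeasurableSet.const _))

theorem measurable_dec [Fintype E] {ρ : RankFn E} (C : Chain ρ) (Z : ℕ → Finset E) (l : List E)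
    (e : E) :
    Measurable fun p : Bool × (E → ℝ≥0) × (E → ℝ≥0) =>
      C.ok (pass Z p.1 p.2.1) (run (C.ok (pass Z p.1 p.2.1)) (history l p.2.2)) (e, p.2.2 e) := by
  apply measurable_to_bool
  have h : (fun p : Bool × (E → ℝ≥0) × (E → ℝ≥0) =>
      C.ok (pass Z p.1 p.2.1) (run (C.ok (pass Z p.1 p.2.1)) (history l p.2.2)) (e, p.2.2 e)) ⁻¹'
        {true} =
      ⋃ B : Finset E, ({p | run (C.ok (pass Z p.1 p.2.1)) (history l p.2.2) = B} ∩
        {p | C.ok (pass Z p.1 p.2.1) B (e, p.2.2 e) = true}) := by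
    ext p
    simp only [Set.mem_preimage, Set.mem_singleton_iff, Set.mem_iUnion, Set.mem_inter_iff,
      Set.mem_ofPred_eq]
    constructor
    · intro hp; exact ⟨_, rfl, hp⟩
    · rintro ⟨B, rfl, hp⟩; exact hp
  rw [h]
  exact MeasurableSet.iUnion fun B => (measurable_run C Z l B).inter (MeasAux.measurableSet_ok C Z B e)

end Vale.Agent.P331
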