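import Vale.Agent.P331.Model

/-! P331, row OPT: the rank function of a matroid and the bound for the optimum. -/

namespace Vale.Agent.P331

open MeasureTheory
open scoped ENNReal NNReal

universe u
variable {E : Type u} [DecidableEq E]

namespace OptAux

omit [DecidableEq E] in
theorem eRk_ne_top (M : Matroid E) (A : Finset E) : M.eRk (A : Set E) ≠ ⊤ := by
  refine ne_top_of_le_ne_top ?_ (M.eRk_le_encard (A : Set E))
  rw [Set.encard_coe_eq_coe_finsetCard]
  exact ENat.natCast_ne_top _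

omit [DecidableEq E] in
theorem coe_rk (M : Matroid E) (A : Finset E) :
    (((M.eRk (A : Set E)).toNat : ℕ) : ℕ∞) = M.eRk (A : Set E) :=
  ENat.natCast_toNat (eRk_ne_top M A)

end OptAux

open OptAux

/-- the rank function of a matroid (definition is part of this row) -/
noncomputable def rkM [Fintype E] (M : Matroid E) : RankFn E where
  rk A := (M.eRk (A : Set E)).toNat
  rk_empty := by simp
  mono := fun {A B} h => by
    have h1 := M.eRk_mono (Finset.coe_subset.2 h)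
    rw [← coe_rk M A, ← coe_rk M B] at h1
    exact_mod_cast h1
  insert_le := fun e A => by
    have h1 := M.eRk_insert_le_add_one e (A : Set E)
    rw [← Finset.coe_insert, ← coe_rk M A, ← coe_rk M (insert e A)] at h1
    exact_mod_cast h1
  submod := fun A B => by
    have h1 := M.eRk_inter_add_eRk_union_le (A : Set E) (B : Set E)
    rw [← Finset.coe_inter, ← Finset.coe_union, ← coe_rk M A, ← coe_rk M B,
      ← coe_rk M (A ∩ B), ← coe_rk M (A ∪ B)] at h1
    exact_mod_cast h1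

theorem indep_iff [Fintype E] (M : Matroid E) (A : Finset E) :
    M.Indep (A : Set E) ↔ (rkM M).rk A = A.card := by
  rw [Matroid.indep_iff_eRk_eq_encard_of_finite A.finite_toSet, ← coe_rk M A,
    Set.encard_coe_eq_coe_finsetCard]
  constructor
  · intro h
    exact_mod_cast h
  · intro h
    exact_mod_cast h

namespace OptAux

theorem abel (J : ℕ) : ∀ (a b α γ : ℕ → ℕ) (t : ℕ → ℝ), Monotone t →
    (∀ j, α j = a j + α (j + 1)) → (∀ j, γ j = b j + γ (j + 1)) → (∀ j, α j ≤ γ j) →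
    α J = 0 → γ J = 0 →
    (∑ i ∈ Finset.range J, (a i : ℝ) * t i) + t 0 * γ 0 ≤
      (∑ i ∈ Finset.range J, (b i : ℝ) * t i) + t 0 * α 0 := by
  induction J with
  | zero =>
    intro a b α γ t _ _ _ _ h1 h2
    rw [h1, h2]
    simp
  | succ J ih =>
    intro a b α γ t ht hα hγ hle h1 h2
    have h3 := ih (fun i => a (i + 1)) (fun i => b (i + 1)) (fun i => α (i + 1))
      (fun i => γ (i + 1)) (fun i => t (i + 1)) (fun i j hij => ht (Nat.add_le_add_right hij 1))
      (fun j => hα (j + 1)) (fun j => hγ (j + 1)) (fun j => hle (j + 1)) h1 h2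
    rw [Finset.sum_range_succ', Finset.sum_range_succ']
    have h4 : (α 0 : ℝ) = a 0 + α 1 := by exact_mod_cast hα 0
    have h5 : (γ 0 : ℝ) = b 0 + γ 1 := by exact_mod_cast hγ 0
    have h6 : (α 1 : ℝ) ≤ γ 1 := by exact_mod_cast hle 1
    have h7 : t 0 ≤ t 1 := ht (Nat.zero_le 1)
    have h8 : 0 ≤ (t 1 - t 0) * (γ 1 - α 1) := mul_nonneg (sub_nonneg.2 h7) (sub_nonneg.2 h6)
    simp only [zero_add] at h3
    rw [h4, h5]
    nlinarith

theorem abel' (J : ℕ) (a b α γ : ℕ → ℕ) (t : ℕ → ℝ≥0) (ht : Monotone t)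
    (hα : ∀ j, α j = a j + α (j + 1)) (hγ : ∀ j, γ j = b j + γ (j + 1)) (hle : ∀ j, α j ≤ γ j)
    (h1 : α J = 0) (h2 : γ J = 0) :
    ∑ i ∈ Finset.range J, (a i : ℝ≥0∞) * t i ≤ ∑ i ∈ Finset.range J, (b i : ℝ≥0∞) * t i := by
  have h3 := abel J a b α γ (fun i => (t i : ℝ)) (fun i j hij => NNReal.coe_le_coe.2 (ht hij))
    hα hγ hle h1 h2
  have h4 : (α 0 : ℝ) ≤ γ 0 := by exact_mod_cast hle 0
  have h5 : ∑ i ∈ Finset.range J, (a i : ℝ) * (t i : ℝ) ≤
      ∑ i ∈ Finset.range J, (b i : ℝ) * (t i : ℝ) := by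
    have := mul_le_mul_of_nonneg_left h4 (t 0).coe_nonneg
    linarith
  have h6 : ∑ i ∈ Finset.range J, (a i : ℝ≥0) * t i ≤
      ∑ i ∈ Finset.range J, (b i : ℝ≥0) * t i := by
    rw [← NNReal.coe_le_coe]
    push_cast
    exact h5
  have h7 : ((∑ i ∈ Finset.range J, (a i : ℝ≥0) * t i : ℝ≥0) : ℝ≥0∞) ≤
      ((∑ i ∈ Finset.range J, (b i : ℝ≥0) * t i : ℝ≥0) : ℝ≥0∞) := ENNReal.coe_le_coe.2 h6
  push_cast at h7
  exact h7

theorem bl_disj [Fintype E] {ρ : RankFn E} (C : Chain ρ) (I : Finset E) (j : ℕ) :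
    Disjoint (I ∩ C.bl j) (I ∩ C.G (j + 1)) := by
  rw [Finset.disjoint_left]
  intro x hx hx'
  exact (Finset.mem_sdiff.1 (Finset.mem_inter.1 hx).2).2 (Finset.mem_inter.1 hx').2

theorem inter_G [Fintype E] {ρ : RankFn E} (C : Chain ρ) (I : Finset E) (j : ℕ) :
    I ∩ C.G j = (I ∩ C.bl j) ∪ (I ∩ C.G (j + 1)) := by
  rw [← Finset.inter_union_distrib_left]
  congr 1
  exact (Finset.sdiff_union_of_subset (C.anti j)).symm

theorem sum_split [Fintype E] {ρ : RankFn E} (C : Chain ρ) (I : Finset E) (f : E → ℝ≥0∞)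
    (k : ℕ) :
    ∑ e ∈ I, f e = (∑ j ∈ Finset.range k, ∑ e ∈ I ∩ C.bl j, f e) + ∑ e ∈ I ∩ C.G k, f e := by
  induction k with
  | zero =>
    rw [Finset.sum_range_zero, zero_add, C.G0, Finset.inter_univ]
  | succ k ih =>
    rw [ih, Finset.sum_range_succ, inter_G C I k, Finset.sum_union (bl_disj C I k), add_assoc]

theorem rb_bl [Fintype E] {ρ : RankFn E} (C : Chain ρ) (j : ℕ) :
    (C.rb j).rk (C.bl j) = ρ.rk (C.G j) - ρ.rk (C.G (j + 1)) := by
  show ρ.rk (C.G (j + 1) ∪ (C.G j \ C.G (j + 1))) - ρ.rk (C.G (j + 1)) = _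
  rw [Finset.union_sdiff_of_subset (C.anti j)]

end OptAux

theorem opt_le [Fintype E] (M : Matroid E) (C : Chain (rkM M)) (t : ℕ → ℝ≥0) (ht : Monotone t)
    (V : E → ℝ≥0) :
    opt M V ≤ (∑ j ∈ Finset.range C.J, ∑ e ∈ C.bl j, ((V e : ℝ≥0∞) - t j))
      + ∑ j ∈ Finset.range C.J, ((C.rb j).rk (C.bl j) : ℝ≥0∞) * t j := by
  refine iSup_le fun I => iSup_le fun hI => ?_
  have hsub : ∀ X : Finset E, (I ∩ X).card ≤ (rkM M).rk X := by
    intro X
    have h1 : M.Indep ((I ∩ X : Finset E) : Set E) :=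
      hI.subset (Finset.coe_subset.2 Finset.inter_subset_left)
    rw [← (indep_iff M _).1 h1]
    exact (rkM M).mono Finset.inter_subset_right
  have hJ : I ∩ C.G C.J = ∅ := by
    rw [← Finset.card_eq_zero]
    have := hsub (C.G C.J)
    rw [C.GJ] at this
    omega
  rw [sum_split C I (fun e => (V e : ℝ≥0∞)) C.J, hJ, Finset.sum_empty, add_zero]
  have h1 : ∑ j ∈ Finset.range C.J, ((I ∩ C.bl j).card : ℝ≥0∞) * t j ≤
      ∑ j ∈ Finset.range C.J, ((C.rb j).rk (C.bl j) : ℝ≥0∞) * t j := by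
    refine abel' C.J (fun j => (I ∩ C.bl j).card) (fun j => (C.rb j).rk (C.bl j))
      (fun j => (I ∩ C.G j).card) (fun j => (rkM M).rk (C.G j)) t ht ?_ ?_ ?_ ?_ C.GJ
    · intro j
      show (I ∩ C.G j).card = _
      rw [inter_G C I j, Finset.card_union_of_disjoint (bl_disj C I j)]
    · intro j
      show (rkM M).rk (C.G j) = _
      rw [rb_bl, Nat.sub_add_cancel ((rkM M).mono (C.anti j))]
    · exact fun j => hsub (C.G j)
    · show (I ∩ C.G C.J).card = 0
      rw [hJ, Finset.card_empty]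
  refine le_trans ?_ (add_le_add_right h1 _)
  rw [← Finset.sum_add_distrib]
  refine Finset.sum_le_sum fun j _ => ?_
  have h2 : ∑ e ∈ I ∩ C.bl j, (V e : ℝ≥0∞) ≤ ∑ e ∈ I ∩ C.bl j, (((V e : ℝ≥0∞) - t j) + t j) :=
    Finset.sum_le_sum fun e _ => le_tsub_add
  refine h2.trans ?_
  rw [Finset.sum_add_distrib, Finset.sum_const, nsmul_eq_mul]
  refine add_le_add_left ?_ _
  exact Finset.sum_le_sum_of_subset Finset.inter_subset_right

end Vale.Agent.P331
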