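import Vale.Agent.P331.Model

/-! P331, row PI: facts on finite products of one law. -/

namespace Vale.Agent.P331

open MeasureTheory
open scoped ENNReal NNReal

universe u
variable {E : Type u} [DecidableEq E]

theorem pi_forall [Fintype E] (μ : Measure ℝ≥0) [IsProbabilityMeasure μ] (Z : Finset E)
    (W : Set ℝ≥0) (hW : MeasurableSet W) :
    (Measure.pi fun _ : E => μ) {S | ∀ z ∈ Z, S z ∈ W} = μ W ^ Z.card := by
  have h1 : {S : E → ℝ≥0 | ∀ z ∈ Z, S z ∈ W}
      = Set.pi Set.univ (fun e => if e ∈ Z then W else Set.univ) := by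
    ext S
    simp only [Set.mem_setOf_eq, Set.mem_pi, Set.mem_univ, true_implies]
    constructor
    · intro h e
      by_cases he : e ∈ Z
      · rw [if_pos he]; exact h e he
      · rw [if_neg he]; exact Set.mem_univ _
    · intro h z hz
      have := h z
      rw [if_pos hz] at this
      exact this
  rw [h1, Measure.pi_pi]
  have h2 : ∀ e : E, μ (if e ∈ Z then W else Set.univ) = if e ∈ Z then μ W else 1 := by
    intro e
    by_cases he : e ∈ Z
    · rw [if_pos he, if_pos he]
    · rw [if_neg he, if_neg he]; exact measure_univ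
  simp only [h2]
  rw [Finset.prod_ite_mem]
  simp

theorem lintegral_mul_indep [Fintype E] (μ : Measure ℝ≥0) [IsProbabilityMeasure μ] (e : E)
    (f : ℝ≥0 → ℝ≥0∞) (hf : Measurable f) (g : (E → ℝ≥0) → ℝ≥0∞) (hg : Measurable g)
    (hgi : ∀ V x, g (Function.update V e x) = g V) :
    ∫⁻ V, f (V e) * g V ∂(Measure.pi fun _ : E => μ)
      = (∫⁻ x, f x ∂μ) * ∫⁻ V, g V ∂(Measure.pi fun _ : E => μ) := by
  have hfg : Measurable fun V : E → ℝ≥0 => f (V e) * g V :=
    (hf.comp (measurable_pi_apply e)).mul hg
  have key : ∀ (F : (E → ℝ≥0) → ℝ≥0∞), Measurable F →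
      ∫⁻ V, F V ∂(Measure.pi fun _ : E => μ)
        = lmarginal (fun _ : E => μ) (Finset.univ.erase e)
            (fun x => ∫⁻ y, F (Function.update x e y) ∂μ) (fun _ => 0) := by
    intro F hF
    rw [lintegral_eq_lmarginal_univ (μ := fun _ : E => μ) (f := F) (fun _ => 0)]
    rw [lmarginal_erase' (μ := fun _ : E => μ) F hF (Finset.mem_univ e)]
  rw [key _ hfg, key _ hg]
  have e1 : (fun x : E → ℝ≥0 => ∫⁻ y, f (Function.update x e y e) * g (Function.update x e y) ∂μ)
      = fun x => (∫⁻ y, f y ∂μ) * g x := by
    funext x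
    simp only [Function.update_self, hgi]
    rw [lintegral_mul_const _ hf]
  have e2 : (fun x : E → ℝ≥0 => ∫⁻ y, g (Function.update x e y) ∂μ) = g := by
    funext x
    simp only [hgi, lintegral_const, measure_univ, mul_one]
  rw [e1, e2]
  unfold lmarginal
  rw [lintegral_const_mul]
  exact hg.comp measurable_updateFinset

theorem measurableSet_iff_mem {Ω : Type*} [MeasurableSpace Ω] {P : Ω → Prop}
    (hP : MeasurableSet {ω | P ω}) (a b : Prop) :
    MeasurableSet {ω | (a ∧ P ω) ↔ b} := by
  by_cases ha : a <;> by_cases hb : b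
  · simp only [ha, hb, true_and, iff_true]; exact hP
  · simp only [ha, hb, true_and, iff_false]; exact hP.compl
  · simp only [ha, hb, false_and, iff_true, Set.setOf_false]; exact MeasurableSet.empty
  · simp only [ha, hb, false_and, iff_false, not_false_eq_true, Set.setOf_true]
    exact MeasurableSet.univ

theorem passSet_eq_iff (B : Finset E) (p : ℝ≥0 → Prop) (V : E → ℝ≥0) (A : Finset E) :
    passSet B p V = A ↔ ∀ e, ((e ∈ B ∧ p (V e)) ↔ e ∈ A) := by
  classical
  unfold passSet
  rw [Finset.ext_iff]
  simp only [Finset.mem_filter]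

theorem measurable_passSet [Fintype E] (B : Finset E) (p : ℝ≥0 → Prop)
    (hp : MeasurableSet {x | p x}) (A : Finset E) :
    MeasurableSet {V : E → ℝ≥0 | passSet B p V = A} := by
  have h : {V : E → ℝ≥0 | passSet B p V = A}
      = ⋂ e : E, {V | (e ∈ B ∧ p (V e)) ↔ e ∈ A} := by
    ext V
    simp only [Set.mem_setOf_eq, Set.mem_iInter, passSet_eq_iff]
  rw [h]
  refine MeasurableSet.iInter fun e => ?_
  refine measurableSet_iff_mem ?_ _ _
  exact measurable_pi_apply e hp

theorem measurable_sup_apply (Z : Finset E) :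
    Measurable fun S : E → ℝ≥0 => Z.sup S := by
  induction Z using Finset.induction_on with
  | empty => simpa using (measurable_const : Measurable fun _ : E → ℝ≥0 => (⊥ : ℝ≥0))
  | insert a s ha ih =>
    have : (fun S : E → ℝ≥0 => (insert a s).sup S) = fun S => S a ⊔ s.sup S := by
      funext S; rw [Finset.sup_insert]
    rw [this]
    exact (measurable_pi_apply a).sup ih

/-- joint version: the threshold is the maximum of the samples over `Z` (strict test) -/
theorem measurable_passSet_sup [Fintype E] (B Z : Finset E) (A : Finset E) :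
    MeasurableSet {p : (E → ℝ≥0) × (E → ℝ≥0) | passSet B (fun x => Z.sup p.1 < x) p.2 = A} := by
  have h : {p : (E → ℝ≥0) × (E → ℝ≥0) | passSet B (fun x => Z.sup p.1 < x) p.2 = A}
      = ⋂ e : E, {p | (e ∈ B ∧ Z.sup p.1 < p.2 e) ↔ e ∈ A} := by
    ext V
    simp only [Set.mem_setOf_eq, Set.mem_iInter, passSet_eq_iff]
  rw [h]
  refine MeasurableSet.iInter fun e => ?_
  refine measurableSet_iff_mem ?_ _ _
  exact measurableSet_lt ((measurable_sup_apply Z).comp measurable_fst)
    ((measurable_pi_apply e).comp measurable_snd)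

/-- any function of the passing set is measurable -/
theorem measurable_of_passSet [Fintype E] (B : Finset E) (p : ℝ≥0 → Prop)
    (hp : MeasurableSet {x | p x}) (G : Finset E → ℝ≥0∞) :
    Measurable fun V : E → ℝ≥0 => G (passSet B p V) := by
  letI : MeasurableSpace (Finset E) := ⊤
  have h1 : Measurable (passSet B p) := by
    refine measurable_to_countable' fun A => ?_
    exact measurable_passSet B p hp A
  exact (measurable_from_top : Measurable G).comp h1

end Vale.Agent.P331
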