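import Vale.Agent.P331.Chain
import Vale.Agent.P331.Greedy
import Vale.Agent.P331.Opt
import Vale.Agent.P331.Meas
import Vale.Agent.P331.Pi
import Vale.Agent.P331.Fib

namespace Vale.Agent.P331

open MeasureTheory
open scoped ENNReal NNReal

universe u
variable {E : Type u} [DecidableEq E]

theorem accepted_eq_run (ok : Finset E → E × ℝ≥0 → Bool) (h : List (E × ℝ≥0)) :
    accepted (fun h x => ok (run ok h) x) h = run ok h := by
  induction h with
  | nil => rfl
  | cons x h ih =>
    simp only [accepted, run]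
    rw [ih]

/-- The rule. -/
noncomputable def theRule [Fintype E] (M : Matroid E) (C : Chain (rkM M)) (Z : ℕ → Finset E) :
    OnlineRule M Bool where
  dec r S h x := C.ok (pass Z r S) (run (C.ok (pass Z r S)) h) x
  measurable_dec l e := measurable_dec C Z l e
  indep r S l V _ := by
    rw [accepted_eq_run, indep_iff]
    exact run_indep C _ _

theorem exists_Z [Fintype E] {ρ : RankFn E} (C : Chain ρ) :
    ∃ Z : ℕ → Finset E, ∀ j, (C.bl j).Nonempty → (Z j).card = 2 ^ j := by
  have : ∀ j, ∃ Z : Finset E, (C.bl j).Nonempty → Z.card = 2 ^ j := by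
    intro j
    by_cases h : (C.bl j).Nonempty
    · have h1 := C.dense j (C.bl j) (Finset.Subset.refl _)
      have h2 := C.big j
      have h3 : 1 ≤ (C.bl j).card := Finset.card_pos.mpr h
      have h4 : 1 ≤ (ρ.con (C.G (j + 1))).rk (C.bl j) := by
        by_contra h5
        have : (ρ.con (C.G (j + 1))).rk (C.bl j) = 0 := by omega
        rw [this] at h1
        simp at h1
        rw [h1] at h3
        simp at h3
      have h5 : 2 ^ j ≤ (C.bl j).card := by
        calc 2 ^ j = 2 ^ j * 1 := by ring
          _ ≤ 2 ^ j * (ρ.con (C.G (j + 1))).rk (C.bl j) := Nat.mul_le_mul_left _ h4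
          _ ≤ _ := h2
      obtain ⟨Z, _, hZ⟩ := Finset.exists_subset_card_eq h5
      exact ⟨Z, fun _ => hZ⟩
    · exact ⟨∅, fun h' => absurd h' h⟩
  choose Z hZ using this
  exact ⟨Z, hZ⟩

theorem chain_anti [Fintype E] {ρ : RankFn E} (C : Chain ρ) {i j : ℕ} (h : i ≤ j) :
    C.G j ⊆ C.G i := by
  induction h with
  | refl => exact Finset.Subset.refl _
  | step _ ih => exact (C.anti _).trans ih

theorem bl_disjoint [Fintype E] {ρ : RankFn E} (C : Chain ρ) {i j : ℕ} (h : i ≠ j) :
    Disjoint (C.bl i) (C.bl j) := by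
  wlog hij : i < j generalizing i j
  · exact (this h.symm (by omega)).symm
  rw [Finset.disjoint_left]
  intro e hi hj
  simp only [Chain.bl, Finset.mem_sdiff] at hi hj
  exact hi.2 (chain_anti C (by omega) hj.1)

/-- sum over the accepted set dominates the sum over the blocks -/
theorem sum_blocks_le [Fintype E] {ρ : RankFn E} (C : Chain ρ) (A : Finset E)
    (f : E → ℝ≥0∞) :
    ∑ j ∈ Finset.range C.J, ∑ e ∈ A ∩ C.bl j, f e ≤ ∑ e ∈ A, f e := by
  rw [← Finset.sum_biUnion]
  · apply Finset.sum_le_sum_of_subset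
    intro e he
    simp only [Finset.mem_biUnion, Finset.mem_inter] at he
    obtain ⟨_, _, h, _⟩ := he
    exact h
  · intro i _ j _ hij
    exact (bl_disjoint C hij).mono Finset.inter_subset_right Finset.inter_subset_right

/-- lower bound function for the strict coin -/
noncomputable def gA [Fintype E] {ρ : RankFn E} (C : Chain ρ) (Z : ℕ → Finset E) (j : ℕ)
    (p : (E → ℝ≥0) × (E → ℝ≥0)) : ℝ≥0∞ :=
  ∑ e ∈ (C.rb j).free (passSet (C.bl j) (fun x => (Z j).sup p.1 < x) p.2)
    (passSet (C.bl j) (fun x => (Z j).sup p.1 < x) p.2), (p.2 e : ℝ≥0∞)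


theorem measurable_supZ [Fintype E] (Z : Finset E) :
    Measurable fun S : E → ℝ≥0 => Z.sup S := by
  induction Z using Finset.induction_on with
  | empty => simp only [Finset.sup_empty]; exact measurable_const
  | insert a Z _ ih =>
    simp only [Finset.sup_insert]
    exact (measurable_pi_apply a).sup ih

theorem measurable_gA [Fintype E] {ρ : RankFn E} (C : Chain ρ) (Z : ℕ → Finset E) (j : ℕ) :
    Measurable (gA C Z j) := by
  apply measurable_fib
    (fun p : (E → ℝ≥0) × (E → ℝ≥0) => passSet (C.bl j) (fun x => (Z j).sup p.1 < x) p.2)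
    (fun A => measurable_passSet_sup (C.bl j) (Z j) A)
    (fun A p => ∑ e ∈ (C.rb j).free A A, (p.2 e : ℝ≥0∞))
  intro A
  fun_prop

theorem free_sub [Fintype E] (r : RankFn E) (B X : Finset E) : r.free B X ⊆ B := by
  classical
  unfold RankFn.free
  exact Finset.filter_subset _ _

/-- pointwise lower bound, strict coin -/
theorem payA [Fintype E] {M : Matroid E} (C : Chain (rkM M)) (Z : ℕ → Finset E)
    (S V : E → ℝ≥0) (l : List E) (hl : ∀ e, e ∈ l) :
    ∑ j ∈ Finset.range C.J, gA C Z j (S, V) ≤
      ∑ e ∈ accepted ((theRule M C Z).dec true S) (history l V), (V e : ℝ≥0∞) := by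
  have h0 : accepted ((theRule M C Z).dec true S) (history l V)
      = run (C.ok (pass Z true S)) (history l V) :=
    accepted_eq_run (C.ok (pass Z true S)) _
  rw [h0]
  refine le_trans ?_ (sum_blocks_le C _ _)
  apply Finset.sum_le_sum
  intro j hj
  have hj' := Finset.mem_range.mp hj
  have h1 := run_free C (pass Z true S) l V hl j hj'
  have h2 : pass Z true S j = fun x => (Z j).sup S < x := by
    ext x; simp [pass]
  rw [h2] at h1
  exact Finset.sum_le_sum_of_subset h1

theorem coin_lintegral {X : Type*} [MeasurableSpace X] (Q : Measure X) [SFinite Q]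
    (g : Bool × X → ℝ≥0∞) (hg : Measurable g) :
    ∫⁻ ω, g ω ∂(coin.prod Q) = (1 / 2) * ((∫⁻ x, g (true, x) ∂Q) + ∫⁻ x, g (false, x) ∂Q) := by
  have : SFinite coin := by unfold coin; infer_instance
  rw [lintegral_prod _ hg.aemeasurable]
  unfold coin
  rw [lintegral_smul_measure, lintegral_add_measure, lintegral_dirac, lintegral_dirac]
  rfl


end Vale.Agent.P331
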