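import Vale.Agent.P331.Model

/-! P331, row CHAIN: the nested minimisers of `2 ^ j * ρ F + |E \ F|`. -/

namespace Vale.Agent.P331

universe u
variable {E : Type u} [DecidableEq E]

namespace ChainAux

/-- the function that is minimised -/
def fn [Fintype E] (ρ : RankFn E) (j : ℕ) (F : Finset E) : ℕ := 2 ^ j * ρ.rk F + (Fᶜ).card

theorem exists_min [Fintype E] (ρ : RankFn E) (j : ℕ) :
    ∃ M : Finset E, ∀ F, fn ρ j M ≤ fn ρ j F := by
  obtain ⟨M, _, hM⟩ := Finset.exists_min_image (Finset.univ : Finset (Finset E)) (fn ρ j)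
    ⟨∅, Finset.mem_univ _⟩
  exact ⟨M, fun F => hM F (Finset.mem_univ F)⟩

/-- the chain -/
noncomputable def G [Fintype E] (ρ : RankFn E) : ℕ → Finset E
  | 0 => Finset.univ
  | j + 1 => G ρ j ∩ (exists_min ρ (j + 1)).choose

theorem rk_univ_le [Fintype E] (ρ : RankFn E) (F : Finset E) :
    ρ.rk Finset.univ ≤ ρ.rk F + (Fᶜ).card := by
  have h : ∀ S : Finset E, ρ.rk (F ∪ S) ≤ ρ.rk F + S.card := by
    intro S
    induction S using Finset.induction_on with
    | empty => simp
    | insert a S ha ih =>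
      rw [Finset.union_insert, Finset.card_insert_of_notMem ha]
      have := ρ.insert_le a (F ∪ S)
      omega
  have h1 := h Fᶜ
  rwa [Finset.union_compl] at h1

theorem card_compl_inter_union [Fintype E] (A B : Finset E) :
    ((A ∩ B)ᶜ).card + ((A ∪ B)ᶜ).card = (Aᶜ).card + (Bᶜ).card := by
  have h := Finset.card_union_add_card_inter A B
  have h1 := Finset.card_add_card_compl (A ∩ B)
  have h2 := Finset.card_add_card_compl (A ∪ B)
  have h3 := Finset.card_add_card_compl A
  have h4 := Finset.card_add_card_compl B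
  omega

theorem step [Fintype E] (ρ : RankFn E) (j : ℕ) (A B : Finset E)
    (hA : ∀ F, fn ρ j A ≤ fn ρ j F) (hB : ∀ F, fn ρ (j + 1) B ≤ fn ρ (j + 1) F) (F : Finset E) :
    fn ρ (j + 1) (A ∩ B) ≤ fn ρ (j + 1) F := by
  refine le_trans ?_ (hB F)
  have h1 := hA (A ∪ B)
  have h2 := card_compl_inter_union A B
  have h3 := ρ.submod A B
  have h4 := ρ.mono (Finset.inter_subset_right (s₁ := A) (s₂ := B))
  have h5 : 2 ^ j * (ρ.rk (A ∩ B) + ρ.rk (A ∪ B)) ≤ 2 ^ j * (ρ.rk A + ρ.rk B) :=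
    Nat.mul_le_mul_left _ h3
  have h6 : 2 ^ j * ρ.rk (A ∩ B) ≤ 2 ^ j * ρ.rk B := Nat.mul_le_mul_left _ h4
  unfold fn at h1 ⊢
  rw [pow_succ]
  nlinarith

theorem G_min [Fintype E] (ρ : RankFn E) (j : ℕ) : ∀ F, fn ρ j (G ρ j) ≤ fn ρ j F := by
  induction j with
  | zero =>
    intro F
    have := rk_univ_le ρ F
    simp only [G, fn, Finset.compl_univ, Finset.card_empty, pow_zero, one_mul, add_zero]
    exact this
  | succ j ih =>
    intro F
    exact step ρ j _ _ ih (exists_min ρ (j + 1)).choose_spec F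

end ChainAux

open ChainAux in
theorem exists_chain [Fintype E] (ρ : RankFn E) : Nonempty (Chain ρ) := by
  refine ⟨⟨G ρ, Fintype.card E, rfl, fun j => Finset.inter_subset_left, ?_, ?_, ?_⟩⟩
  · have h := G_min ρ (Fintype.card E) ∅
    simp only [fn, ρ.rk_empty, mul_zero, zero_add, Finset.compl_empty, Finset.card_univ] at h
    by_contra hne
    have h1 : 1 ≤ ρ.rk (G ρ (Fintype.card E)) := Nat.one_le_iff_ne_zero.2 hne
    have h2 : 2 ^ Fintype.card E * 1 ≤ 2 ^ Fintype.card E * ρ.rk (G ρ (Fintype.card E)) :=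
      Nat.mul_le_mul_left _ h1
    have h3 : Fintype.card E < 2 ^ Fintype.card E := Nat.lt_two_pow_self
    omega
  · intro j A hA
    have h := G_min ρ (j + 1) (G ρ (j + 1) ∪ A)
    have hd : Disjoint (G ρ (j + 1)) A := by
      rw [Finset.disjoint_right]
      intro x hx
      exact (Finset.mem_sdiff.1 (hA hx)).2
    have h1 := Finset.card_union_of_disjoint hd
    have h2 := Finset.card_add_card_compl (G ρ (j + 1))
    have h3 := Finset.card_add_card_compl (G ρ (j + 1) ∪ A)
    have h4 := ρ.mono (Finset.subset_union_left (s₁ := G ρ (j + 1)) (s₂ := A))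
    show A.card ≤ 2 ^ (j + 1) * (ρ.rk (G ρ (j + 1) ∪ A) - ρ.rk (G ρ (j + 1)))
    rw [Nat.mul_sub]
    unfold fn at h
    omega
  · intro j
    have h := G_min ρ j (G ρ (j + 1))
    have hs : G ρ (j + 1) ⊆ G ρ j := Finset.inter_subset_left
    have h1 := Finset.card_sdiff_add_card_eq_card hs
    have h2 := Finset.card_add_card_compl (G ρ (j + 1))
    have h3 := Finset.card_add_card_compl (G ρ j)
    have h4 := ρ.mono hs
    show 2 ^ j * (ρ.rk (G ρ (j + 1) ∪ (G ρ j \ G ρ (j + 1))) - ρ.rk (G ρ (j + 1))) ≤ _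
    rw [Finset.union_sdiff_of_subset hs, Nat.mul_sub]
    unfold fn at h
    omega

end Vale.Agent.P331
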