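import Vale.Agent.P331.Pi

/-! P331, row CORE (core_eq, mean_le; the counting inequality is in `Core.lean`). -/

namespace Vale.Agent.P331

open MeasureTheory
open scoped ENNReal NNReal

universe u
variable {E : Type u} [DecidableEq E]

theorem mem_passSet (B : Finset E) (p : ℝ≥0 → Prop) (V : E → ℝ≥0) (e : E) :
    e ∈ passSet B p V ↔ e ∈ B ∧ p (V e) := by
  classical
  unfold passSet
  rw [Finset.mem_filter]

theorem mem_free (r : RankFn E) (B X : Finset E) (e : E) :
    e ∈ r.free B X ↔ e ∈ B ∧ r.Free X e := by
  classical
  unfold RankFn.free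
  rw [Finset.mem_filter]

theorem erase_passSet (B : Finset E) (p : ℝ≥0 → Prop) (V : E → ℝ≥0) (e : E) (x : ℝ≥0) :
    (passSet B p (Function.update V e x)).erase e = (passSet B p V).erase e := by
  ext y
  simp only [Finset.mem_erase, mem_passSet]
  constructor
  · rintro ⟨h1, h2, h3⟩
    refine ⟨h1, h2, ?_⟩
    rwa [Function.update_of_ne h1] at h3
  · rintro ⟨h1, h2, h3⟩
    refine ⟨h1, h2, ?_⟩
    rwa [Function.update_of_ne h1]

theorem core_eq [Fintype E] (μ : Measure ℝ≥0) [IsProbabilityMeasure μ] (r : RankFn E)
    (B : Finset E) (p : ℝ≥0 → Prop) (hp : MeasurableSet {x | p x}) (f : ℝ≥0 → ℝ≥0∞)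
    (hf : Measurable f) :
    ∫⁻ V, (∑ e ∈ r.free (passSet B p V) (passSet B p V), f (V e)) ∂(Measure.pi fun _ : E => μ)
      = (∫⁻ x in {x | p x}, f x ∂μ)
        * ∫⁻ V, ((r.free B (passSet B p V)).card : ℝ≥0∞) ∂(Measure.pi fun _ : E => μ) := by
  classical
  -- the two indicator functions
  set F : ℝ≥0 → ℝ≥0∞ := fun x => {x | p x}.indicator f x with hF
  set g : E → (E → ℝ≥0) → ℝ≥0∞ := fun e V => if r.Free (passSet B p V) e then 1 else 0 with hg
  have hFm : Measurable F := hf.indicator hp
  have hgm : ∀ e, Measurable (g e) := fun e =>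
    measurable_of_passSet B p hp (fun X => if r.Free X e then 1 else 0)
  have hgi : ∀ e V x, g e (Function.update V e x) = g e V := by
    intro e V x
    have h : r.Free (passSet B p (Function.update V e x)) e ↔ r.Free (passSet B p V) e := by
      unfold RankFn.Free
      rw [erase_passSet]
    by_cases b : r.Free (passSet B p V) e
    · simp only [hg]
      rw [if_pos (h.2 b), if_pos b]
    · simp only [hg]
      rw [if_neg (fun c => b (h.1 c)), if_neg b]
  have h1 : ∀ V : E → ℝ≥0, (∑ e ∈ r.free (passSet B p V) (passSet B p V), f (V e))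
      = ∑ e ∈ B, F (V e) * g e V := by
    intro V
    have hs : r.free (passSet B p V) (passSet B p V)
        = B.filter fun e => p (V e) ∧ r.Free (passSet B p V) e := by
      ext e
      simp only [mem_free, mem_passSet, Finset.mem_filter, and_assoc]
    rw [hs, Finset.sum_filter]
    refine Finset.sum_congr rfl fun e _ => ?_
    simp only [hF, hg, Set.indicator_apply, Set.mem_setOf_eq]
    by_cases a : p (V e) <;> by_cases b : r.Free (passSet B p V) e <;> simp [a, b]
  have h2 : ∀ V : E → ℝ≥0, ((r.free B (passSet B p V)).card : ℝ≥0∞) = ∑ e ∈ B, g e V := by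
    intro V
    have hs : r.free B (passSet B p V) = B.filter fun e => r.Free (passSet B p V) e := by
      ext e
      simp only [mem_free, Finset.mem_filter]
    rw [hs, Finset.card_filter]
    push_cast
    rfl
  simp only [h1, h2]
  rw [lintegral_finsetSum]
  · rw [lintegral_finsetSum]
    · rw [Finset.mul_sum]
      refine Finset.sum_congr rfl fun e _ => ?_
      rw [lintegral_mul_indep μ e F hFm (g e) (hgm e) (hgi e)]
      congr 1
      exact lintegral_indicator hp f
    · intro e _; exact hgm e
  · intro e _
    exact (hFm.comp (measurable_pi_apply e)).mul (hgm e)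

theorem rk_le_card (r : RankFn E) (A : Finset E) : r.rk A ≤ A.card := by
  induction A using Finset.induction_on with
  | empty => simp [r.rk_empty]
  | insert a s ha ih =>
    have := r.insert_le a s
    rw [Finset.card_insert_of_notMem ha]
    omega

theorem mean_le [Fintype E] (μ : Measure ℝ≥0) [IsProbabilityMeasure μ] (r : RankFn E)
    (B : Finset E) (p : ℝ≥0 → Prop) (hp : MeasurableSet {x | p x}) :
    ∫⁻ V, (r.rk (passSet B p V) : ℝ≥0∞) ∂(Measure.pi fun _ : E => μ)
      ≤ B.card * μ {x | p x} := by
  classical
  calc ∫⁻ V, (r.rk (passSet B p V) : ℝ≥0∞) ∂(Measure.pi fun _ : E => μ)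
      ≤ ∫⁻ V, ∑ e ∈ B, {x | p x}.indicator (fun _ => (1 : ℝ≥0∞)) (V e)
          ∂(Measure.pi fun _ : E => μ) := by
        refine lintegral_mono fun V => ?_
        have h : (r.rk (passSet B p V) : ℝ≥0∞) ≤ ((passSet B p V).card : ℝ≥0∞) := by
          exact_mod_cast rk_le_card r _
        refine h.trans (le_of_eq ?_)
        have hs : passSet B p V = B.filter fun e => p (V e) := by
          ext e
          simp only [mem_passSet, Finset.mem_filter]
        rw [hs, Finset.card_filter]
        push_cast
        refine Finset.sum_congr rfl fun e _ => ?_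
        simp only [Set.indicator_apply, Set.mem_setOf_eq]
    _ = ∑ e ∈ B, ∫⁻ V, {x | p x}.indicator (fun _ => (1 : ℝ≥0∞)) (V e)
          ∂(Measure.pi fun _ : E => μ) := by
        rw [lintegral_finsetSum]
        intro e _
        exact (measurable_const.indicator hp).comp (measurable_pi_apply e)
    _ = ∑ e ∈ B, μ {x | p x} := by
        refine Finset.sum_congr rfl fun e _ => ?_
        have := lintegral_mul_indep μ e ({x | p x}.indicator (fun _ => (1 : ℝ≥0∞)))
          (measurable_const.indicator hp) (fun _ => 1) measurable_const (fun _ _ => rfl)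
        simp only [mul_one] at this
        rw [this, lintegral_indicator hp]
        simp
    _ = B.card * μ {x | p x} := by
        rw [Finset.sum_const, nsmul_eq_mul]

end Vale.Agent.P331
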