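import Mathlib

/-! P331: the model (single-sample matroid prophet inequality, almighty adversary). -/

namespace Vale.Agent.P331

open MeasureTheory
open scoped ENNReal NNReal

universe u

section Model

variable {E : Type u} [DecidableEq E]

/-- The offline optimum: the largest total value of an independent set of `M`. -/
noncomputable def opt (M : Matroid E) (v : E → ℝ≥0) : ℝ≥0∞ :=
  ⨆ (I : Finset E) (_ : M.Indep (I : Set E)), ∑ e ∈ I, (v e : ℝ≥0∞)

/-- The set accepted by the decision function `d` along the arrival history `h`; the head of
the list is the most recent arrival, and `d h x` is the irrevocable decision on `x` when the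
arrivals before it are `h`. -/
def accepted (d : List (E × ℝ≥0) → E × ℝ≥0 → Bool) : List (E × ℝ≥0) → Finset E
  | [] => ∅
  | x :: h => if d h x then insert x.1 (accepted d h) else accepted d h

/-- The arrival history when the elements arrive in the order `l` (head of `l` first) with
values `V`: the most recent arrival is the head. -/
def history (l : List E) (V : E → ℝ≥0) : List (E × ℝ≥0) :=
  (l.map fun e => (e, V e)).reverse

/-- An online rule for `M` with one sample per element and seed space `R`.  The decision on an
arrival `(e, v)` may use the seed, all samples and the earlier arrivals with their values. -/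
structure OnlineRule (M : Matroid E) (R : Type) [MeasurableSpace R] where
  /-- decision: seed, samples, earlier arrivals (most recent first), current arrival -/
  dec : R → (E → ℝ≥0) → List (E × ℝ≥0) → E × ℝ≥0 → Bool
  /-- measurability of every decision in seed, samples and values -/
  measurable_dec : ∀ (l : List E) (e : E),
    Measurable fun p : R × (E → ℝ≥0) × (E → ℝ≥0) => dec p.1 p.2.1 (history l p.2.2) (e, p.2.2 e)
  /-- the accepted set is independent at every time -/
  indep : ∀ (r : R) (S : E → ℝ≥0) (l : List E) (V : E → ℝ≥0), l.Nodup →
    M.Indep (accepted (dec r S) (history l V) : Set E)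

variable [Fintype E]

/-- The rule `A` is `c`-competitive for the laws `D` and the seed law `ν` against the almighty
adversary: the order of arrival may be any function of seed, samples and values. -/
def OnlineRule.Competitive {M : Matroid E} {R : Type} [MeasurableSpace R] (A : OnlineRule M R)
    (c : ℝ≥0∞) (ν : Measure R) (D : E → Measure ℝ≥0) : Prop :=
  ∀ π : R → (E → ℝ≥0) → (E → ℝ≥0) → List E,
    (∀ r S V, (π r S V).Nodup ∧ ∀ e, e ∈ π r S V) →
    c * ∫⁻ V, opt M V ∂(Measure.pi D) ≤
      ∫⁻ ω : R × (E → ℝ≥0) × (E → ℝ≥0),
        (∑ e ∈ accepted (A.dec ω.1 ω.2.1) (history (π ω.1 ω.2.1 ω.2.2) ω.2.2),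
          (ω.2.2 e : ℝ≥0∞)) ∂(ν.prod ((Measure.pi D).prod (Measure.pi D)))

/-- A fair coin. -/
noncomputable def coin : Measure Bool :=
  (1 / 2 : ℝ≥0∞) • (Measure.dirac true + Measure.dirac false)

end Model

end Vale.Agent.P331
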