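import Vale.Agent.P331.KModel
import Vale.Agent.P331.Quant

/-! P331, row KQUANT: common quantiles of comparable laws. -/

namespace Vale.Agent.P331

open MeasureTheory
open scoped ENNReal NNReal

universe u
variable {E : Type u} [DecidableEq E]

namespace KQuant

omit [DecidableEq E] in
theorem nonempty_set [Fintype E] (D : E → Measure ℝ≥0) [∀ e, IsProbabilityMeasure (D e)]
    {α : ℝ≥0∞} (h0 : 0 < α) : {t : ℝ≥0 | ∀ e, D e (Set.Ioi t) ≤ α}.Nonempty := by
  refine ⟨Finset.univ.sup fun e => qt (D e) α, fun e => ?_⟩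
  exact (measure_mono (Set.Ioi_subset_Ioi
    (Finset.le_sup (f := fun e => qt (D e) α) (Finset.mem_univ e)))).trans (qt_Ioi (D e) α h0)

theorem pi_forall_prod' [Fintype E] (D : E → Measure ℝ≥0) [∀ e, IsProbabilityMeasure (D e)]
    (Z : Finset E) (W : Set ℝ≥0) :
    (Measure.pi D) {S | ∀ z ∈ Z, S z ∈ W} = ∏ z ∈ Z, D z W := by
  have h : {S : E → ℝ≥0 | ∀ z ∈ Z, S z ∈ W} =
      Set.pi Set.univ (fun e => if e ∈ Z then W else Set.univ) := by
    ext S
    simp only [Set.mem_ofPred_eq, Set.mem_pi, Set.mem_univ, true_implies]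
    constructor
    · intro h e
      split_ifs with he
      · exact h e he
      · trivial
    · intro h e he
      have := h e
      rwa [if_pos he] at this
  rw [h, Measure.pi_pi]
  have e1 : ∀ e ∈ (Finset.univ : Finset E), D e (if e ∈ Z then W else Set.univ) =
      if e ∈ Z then D e W else 1 := by
    intro e _
    split_ifs
    · rfl
    · exact measure_univ
  rw [Finset.prod_congr rfl e1, Finset.prod_ite_mem, Finset.univ_inter]

theorem sup_lt_real [Fintype E] (D : E → Measure ℝ≥0) [∀ e, IsProbabilityMeasure (D e)]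
    (Z : Finset E) {v : ℝ≥0} (hv : 0 < v) :
    (Measure.pi D).real {S | Z.sup S < v} = ∏ z ∈ Z, (D z).real (Set.Iio v) := by
  have h : {S : E → ℝ≥0 | Z.sup S < v} = {S | ∀ z ∈ Z, S z ∈ Set.Iio v} := by
    ext S
    simp only [Set.mem_ofPred_eq, Set.mem_Iio]
    exact Finset.sup_lt_iff (by rwa [bot_eq_zero])
  rw [h, measureReal_def, pi_forall_prod', ENNReal.toReal_prod]
  rfl

theorem sup_le_real [Fintype E] (D : E → Measure ℝ≥0) [∀ e, IsProbabilityMeasure (D e)]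
    (Z : Finset E) (v : ℝ≥0) :
    (Measure.pi D).real {S | Z.sup S ≤ v} = ∏ z ∈ Z, (D z).real (Set.Iic v) := by
  have h : {S : E → ℝ≥0 | Z.sup S ≤ v} = {S | ∀ z ∈ Z, S z ∈ Set.Iic v} := by
    ext S
    simp only [Set.mem_ofPred_eq, Set.mem_Iic]
    exact Finset.sup_le_iff
  rw [h, measureReal_def, pi_forall_prod', ENNReal.toReal_prod]
  rfl

end KQuant

open KQuant

theorem th_Ioi [Fintype E] (D : E → Measure ℝ≥0) [∀ e, IsProbabilityMeasure (D e)] (α : ℝ≥0∞)
    (h0 : 0 < α) (e : E) : D e (Set.Ioi (th D α)) ≤ α := by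
  have h1 : qt (D e) α ≤ th D α :=
    csInf_le_csInf (OrderBot.bddBelow _) (KQuant.nonempty_set D h0) fun t ht => ht e
  exact (measure_mono (Set.Ioi_subset_Ioi h1)).trans (qt_Ioi (D e) α h0)

theorem th_Ici [Fintype E] (D : E → Measure ℝ≥0) [∀ e, IsProbabilityMeasure (D e)] (K : ℕ)
    (hK : 1 ≤ K) (hc : Comp K D) (α : ℝ≥0∞) (h1 : α ≤ 1) (e : E) :
    α / K ≤ D e (Set.Ici (th D α)) := by
  have hK0 : (K : ℝ≥0∞) ≠ 0 := by exact_mod_cast (by omega : K ≠ 0)
  have hKt : (K : ℝ≥0∞) ≠ ∞ := ENNReal.natCast_ne_top K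
  rcases eq_or_lt_of_le (zero_le (a := th D α)) with h0 | h0
  · rw [← h0]
    have : Set.Ici (0 : ℝ≥0) = Set.univ := by
      ext x
      simp
    rw [this, measure_univ]
    refine (ENNReal.div_le_of_le_mul ?_)
    rw [one_mul]
    exact h1.trans (by exact_mod_cast hK)
  · have hT : ∀ t < th D α, α / K ≤ D e (Set.Ioi t) := by
      intro t ht
      refine ENNReal.div_le_of_le_mul ?_
      by_contra h
      rw [not_le] at h
      refine absurd (csInf_le (OrderBot.bddBelow _)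
        (show t ∈ {t : ℝ≥0 | ∀ e, D e (Set.Ioi t) ≤ α} from fun f => ?_)) (not_le.2 ht)
      refine (hc f e t).trans ?_
      rw [mul_comm]
      exact h.le
    have h2 : Filter.Tendsto (fun n : ℕ => D e (Set.Ioi (th D α - th D α / ((n : ℝ≥0) + 1))))
        Filter.atTop (nhds (D e (⋂ n : ℕ, Set.Ioi (th D α - th D α / ((n : ℝ≥0) + 1))))) := by
      refine tendsto_measure_iInter_atTop (fun n => measurableSet_Ioi.nullMeasurableSet) ?_
        ⟨0, measure_ne_top _ _⟩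
      intro m n hmn x hx
      have hmn' : (m : ℝ≥0) ≤ n := by exact_mod_cast hmn
      have h3 : th D α / ((n : ℝ≥0) + 1) ≤ th D α / ((m : ℝ≥0) + 1) := by gcongr
      exact lt_of_le_of_lt (tsub_le_tsub_left h3 _) hx
    have h3 : (⋂ n : ℕ, Set.Ioi (th D α - th D α / ((n : ℝ≥0) + 1))) = Set.Ici (th D α) := by
      ext x
      rw [Set.mem_iInter]
      constructor
      · intro hx
        show th D α ≤ x
        by_contra hlt
        rw [not_le] at hlt
        have hd : (0 : ℝ) < ((th D α : ℝ) - x) / th D α :=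
          div_pos (sub_pos.2 (NNReal.coe_lt_coe.2 hlt)) (NNReal.coe_pos.2 h0)
        obtain ⟨n, hn⟩ := exists_nat_one_div_lt hd
        have hxn : th D α - th D α / ((n : ℝ≥0) + 1) < x := hx n
        rw [← NNReal.coe_lt_coe, NNReal.coe_sub (div_le_self zero_le (by simp))] at hxn
        push_cast at hxn
        have hq : (0 : ℝ) < th D α := NNReal.coe_pos.2 h0
        have h4 : (th D α : ℝ) * (1 / ((n : ℝ) + 1)) < (th D α : ℝ) - x := by
          rw [lt_div_iff₀ hq] at hn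
          linarith
        rw [mul_one_div] at h4
        linarith
      · intro hx n
        have hx' : th D α ≤ x := hx
        refine lt_of_lt_of_le ?_ hx'
        exact tsub_lt_self h0 (by positivity)
    rw [h3] at h2
    refine ge_of_tendsto' h2 fun n => hT _ ?_
    exact tsub_lt_self h0 (by positivity)

theorem th_anti [Fintype E] (D : E → Measure ℝ≥0) [∀ e, IsProbabilityMeasure (D e)]
    {α β : ℝ≥0∞} (h0 : 0 < α) (h : α ≤ β) : th D β ≤ th D α :=
  csInf_le_csInf (OrderBot.bddBelow _) (KQuant.nonempty_set D h0) fun _ ht e => (ht e).trans h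

namespace KQuant

theorem inv_pos' (s c : ℕ) : (0 : ℝ≥0∞) < 1 / ((c : ℝ≥0∞) * s) := by
  rw [one_div, ENNReal.inv_pos]
  exact ENNReal.mul_ne_top (ENNReal.natCast_ne_top _) (ENNReal.natCast_ne_top _)

theorem inv_ne_top' {s c : ℕ} (hs : 1 ≤ s) (hc : 1 ≤ c) : 1 / ((c : ℝ≥0∞) * s) ≠ ∞ := by
  rw [one_div]
  refine ENNReal.inv_ne_top.2 (mul_ne_zero ?_ ?_) <;> exact_mod_cast (by omega)

theorem real_Iio_ge [Fintype E] (D : E → Measure ℝ≥0) [∀ e, IsProbabilityMeasure (D e)] {s : ℕ}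
    (hs : 1 ≤ s) {c : ℕ} (hc : 1 ≤ c) {v : ℝ≥0} (hv : th D (1 / (c * s)) < v) (e : E) :
    1 - 1 / ((c : ℝ) * s) ≤ (D e).real (Set.Iio v) := by
  have h1 : D e (Set.Ici v) ≤ 1 / (c * s) :=
    (measure_mono fun x hx => lt_of_lt_of_le hv hx).trans (th_Ioi D _ (inv_pos' s c) e)
  have h2 : (D e).real (Set.Ici v) ≤ 1 / ((c : ℝ) * s) := by
    rw [measureReal_def, ← Quant.toReal_inv_mul s c]
    exact ENNReal.toReal_mono (inv_ne_top' hs hc) h1
  have h3 : (D e).real (Set.Ici v) = 1 - (D e).real (Set.Iio v) := by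
    rw [← Set.compl_Iio, probReal_compl_eq_one_sub measurableSet_Iio]
  linarith

theorem real_Iic_ge [Fintype E] (D : E → Measure ℝ≥0) [∀ e, IsProbabilityMeasure (D e)] {s : ℕ}
    (hs : 1 ≤ s) {c : ℕ} (hc : 1 ≤ c) (e : E) :
    1 - 1 / ((c : ℝ) * s) ≤ (D e).real (Set.Iic (th D (1 / (c * s)))) := by
  have h1 : D e (Set.Ioi (th D (1 / (c * s)))) ≤ 1 / (c * s) := th_Ioi D _ (inv_pos' s c) e
  have h2 : (D e).real (Set.Ioi (th D (1 / (c * s)))) ≤ 1 / ((c : ℝ) * s) := by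
    rw [measureReal_def, ← Quant.toReal_inv_mul s c]
    exact ENNReal.toReal_mono (inv_ne_top' hs hc) h1
  have h3 : (D e).real (Set.Ioi (th D (1 / (c * s)))) =
      1 - (D e).real (Set.Iic (th D (1 / (c * s)))) := by
    rw [← Set.compl_Iic, probReal_compl_eq_one_sub measurableSet_Iic]
  linarith

theorem real_Iio_le [Fintype E] (D : E → Measure ℝ≥0) [∀ e, IsProbabilityMeasure (D e)] {K : ℕ}
    (hK : 1 ≤ K) (hc' : Comp K D) {s : ℕ} (hs : 1 ≤ s) {c : ℕ} (hc : 1 ≤ c) (e : E) :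
    (D e).real (Set.Iio (th D (1 / (c * s)))) ≤ 1 - 1 / (((c : ℝ) * K) * s) := by
  have h01 : (1 : ℝ≥0∞) / (c * s) ≤ 1 := by
    rw [one_div, ENNReal.inv_le_one]
    have : 1 ≤ c * s := Nat.mul_le_mul hc hs
    exact_mod_cast this
  have h1 : 1 / (c * s) / K ≤ D e (Set.Ici (th D (1 / (c * s)))) := th_Ici D K hK hc' _ h01 e
  have h2 : 1 / (((c : ℝ) * K) * s) ≤ (D e).real (Set.Ici (th D (1 / (c * s)))) := by
    have h4 := ENNReal.toReal_mono (measure_ne_top _ _) h1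
    rw [ENNReal.toReal_div, Quant.toReal_inv_mul, ENNReal.toReal_natCast] at h4
    rw [measureReal_def]
    refine le_trans (le_of_eq ?_) h4
    rw [div_div]
    congr 1
    ring
  have h3 : (D e).real (Set.Ici (th D (1 / (c * s)))) =
      1 - (D e).real (Set.Iio (th D (1 / (c * s)))) := by
    rw [← Set.compl_Iio, probReal_compl_eq_one_sub measurableSet_Iio]
  linarith

theorem prod_ge {Z : Finset E} (hs : 1 ≤ Z.card) {c : ℝ} (hc : 1 ≤ c) {a : E → ℝ}
    (ha : ∀ z ∈ Z, 1 - 1 / (c * Z.card) ≤ a z) : 1 - 1 / c ≤ ∏ z ∈ Z, a z := by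
  have hs' : (1 : ℝ) ≤ Z.card := by exact_mod_cast hs
  have h1 : 1 / (c * Z.card) ≤ 1 := by
    rw [div_le_one (by positivity)]
    nlinarith
  refine (Quant.pow_ge hs hc le_rfl).trans ?_
  rw [← Finset.prod_const]
  exact Finset.prod_le_prod (fun _ _ => by linarith) ha

theorem prod_le {Z : Finset E} (hs : 1 ≤ Z.card) {c : ℝ} (hc : 1 ≤ c) {a : E → ℝ}
    (h0 : ∀ z ∈ Z, 0 ≤ a z) (ha : ∀ z ∈ Z, a z ≤ 1 - 1 / (c * Z.card)) :
    ∏ z ∈ Z, a z ≤ c / (c + 1) := by
  have hs' : (1 : ℝ) ≤ Z.card := by exact_mod_cast hs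
  have h1 : 1 / (c * Z.card) ≤ 1 := by
    rw [div_le_one (by positivity)]
    nlinarith
  refine le_trans ?_ (Quant.pow_le (a := 1 - 1 / (c * Z.card)) hs hc (by linarith) le_rfl)
  rw [← Finset.prod_const]
  exact Finset.prod_le_prod h0 ha

theorem sup_lt_le [Fintype E] (D : E → Measure ℝ≥0) [∀ e, IsProbabilityMeasure (D e)] {K : ℕ}
    (hK : 1 ≤ K) (hc' : Comp K D) (Z : Finset E) (hs : 1 ≤ Z.card) {c : ℕ} (hc : 1 ≤ c) :
    (Measure.pi D).real {S | Z.sup S < th D (1 / (c * Z.card))} ≤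
      ((c : ℝ) * K) / ((c : ℝ) * K + 1) := by
  rcases eq_or_lt_of_le (zero_le (a := th D (1 / ((c : ℝ≥0∞) * Z.card)))) with h | h
  · have : {S : E → ℝ≥0 | Z.sup S < th D (1 / (c * Z.card))} = ∅ := by
      rw [Set.eq_empty_iff_forall_notMem]
      intro S hS
      rw [Set.mem_ofPred_eq, ← h] at hS
      exact not_lt_zero hS
    rw [this, measureReal_empty]
    positivity
  · rw [sup_lt_real D Z h]
    have hcK : (1 : ℝ) ≤ (c : ℝ) * K := by
      have : 1 ≤ c * K := Nat.mul_le_mul hc hK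
      exact_mod_cast this
    exact prod_le hs hcK (fun _ _ => measureReal_nonneg) fun z _ => real_Iio_le D hK hc' hs hc z

theorem ofReal_le {c : ℕ} (hc : 1 ≤ c) {x : ℝ≥0∞} (h : 1 / (c : ℝ) ≤ x.toReal) :
    1 / (c : ℝ≥0∞) ≤ x := by
  have h5 := ENNReal.ofReal_le_of_le_toReal h
  refine le_trans (le_of_eq ?_) h5
  have hc0 : (0 : ℝ) < c := by exact_mod_cast hc
  rw [ENNReal.ofReal_div_of_pos hc0]
  simp

end KQuant

/-- `P(t* ≤ max < v) ≥ 1/(10K)`: `(1 - 1/(10Ks))^s ≥ 1 - 1/(10K)`,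
`(1 - 1/(4Ks))^s ≤ 4K/(4K+1)` -/
theorem probAK [Fintype E] (D : E → Measure ℝ≥0) [∀ e, IsProbabilityMeasure (D e)] (K : ℕ)
    (hK : 1 ≤ K) (hc : Comp K D) (Z : Finset E) (hs : 1 ≤ Z.card) (v : ℝ≥0)
    (hv : th D (1 / (10 * K * Z.card)) < v) :
    1 / (10 * K) ≤ (Measure.pi D) {S | th D (1 / (4 * Z.card)) ≤ Z.sup S ∧ Z.sup S < v} := by
  have hv0 : 0 < v := lt_of_le_of_lt zero_le hv
  have hK' : (1 : ℝ) ≤ K := by exact_mod_cast hK
  have h1 : 1 - 1 / ((10 * K : ℕ) : ℝ) ≤ (Measure.pi D).real {S | Z.sup S < v} := by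
    rw [sup_lt_real D Z hv0]
    refine prod_ge hs (by push_cast; linarith) fun z _ => ?_
    exact KQuant.real_Iio_ge D hs (c := 10 * K) (by omega) (by push_cast; exact hv) z
  have h2 : (Measure.pi D).real {S | Z.sup S < th D (1 / (4 * Z.card))} ≤
      (4 * K) / (4 * K + 1) := by
    have := KQuant.sup_lt_le D hK hc Z hs (c := 4) (by norm_num)
    push_cast at this
    exact this
  have h3 : (Measure.pi D).real {S | Z.sup S < v} ≤
      (Measure.pi D).real {S | th D (1 / (4 * Z.card)) ≤ Z.sup S ∧ Z.sup S < v} +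
      (Measure.pi D).real {S | Z.sup S < th D (1 / (4 * Z.card))} := by
    refine le_trans (measureReal_mono ?_) (measureReal_union_le _ _)
    intro S hS
    rcases le_or_gt (th D (1 / (4 * Z.card))) (Z.sup S) with h | h
    · exact Or.inl ⟨h, hS⟩
    · exact Or.inr h
  have h6 : (4 * K : ℝ) / (4 * K + 1) + 1 / (10 * K) ≤ 1 - 1 / (10 * K) := by
    rw [div_add_div _ _ (by positivity) (by positivity), one_sub_div (by positivity),
      div_le_div_iff₀ (by positivity) (by positivity)]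
    nlinarith [mul_nonneg (sub_nonneg.2 hK') (sub_nonneg.2 hK'),
      mul_nonneg (mul_nonneg (sub_nonneg.2 hK') (sub_nonneg.2 hK')) (sub_nonneg.2 hK')]
  have h4 : 1 / ((10 * K : ℕ) : ℝ) ≤
      (Measure.pi D).real {S | th D (1 / (4 * Z.card)) ≤ Z.sup S ∧ Z.sup S < v} := by
    push_cast at h1 ⊢
    linarith
  have := KQuant.ofReal_le (c := 10 * K) (by omega) h4
  push_cast at this
  exact this

/-- `P(t ≤ max ≤ t2) ≥ 1/(22K^2)`: `(1 - 1/(22K^2 s))^s ≥ 1 - 1/(22K^2)`,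
`(1 - 1/(10K^2 s))^s ≤ 10K^2/(10K^2+1)` -/
theorem probBK [Fintype E] (D : E → Measure ℝ≥0) [∀ e, IsProbabilityMeasure (D e)] (K : ℕ)
    (hK : 1 ≤ K) (hc : Comp K D) (Z : Finset E) (hs : 1 ≤ Z.card) :
    1 / (22 * K ^ 2) ≤ (Measure.pi D)
      {S | th D (1 / (10 * K * Z.card)) ≤ Z.sup S ∧
        Z.sup S ≤ th D (1 / (22 * K ^ 2 * Z.card))} := by
  have hK' : (1 : ℝ) ≤ K := by exact_mod_cast hK
  have hK2 : (1 : ℝ) ≤ (K : ℝ) ^ 2 := one_le_pow₀ hK'
  have hK2' : 1 ≤ K ^ 2 := Nat.one_le_pow _ _ hK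
  have h1 : 1 - 1 / ((22 * K ^ 2 : ℕ) : ℝ) ≤
      (Measure.pi D).real {S | Z.sup S ≤ th D (1 / (22 * K ^ 2 * Z.card))} := by
    rw [KQuant.sup_le_real D Z]
    refine prod_ge hs (by push_cast; linarith) fun z _ => ?_
    have := KQuant.real_Iic_ge D hs (c := 22 * K ^ 2) (by omega) z
    push_cast at this ⊢
    exact this
  have h2 : (Measure.pi D).real {S | Z.sup S < th D (1 / (10 * K * Z.card))} ≤
      (10 * K ^ 2) / (10 * K ^ 2 + 1) := by
    have := KQuant.sup_lt_le D hK hc Z hs (c := 10 * K) (by omega)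
    push_cast at this
    refine this.trans (le_of_eq ?_)
    congr 1 <;> ring
  have h3 : (Measure.pi D).real {S | Z.sup S ≤ th D (1 / (22 * K ^ 2 * Z.card))} ≤
      (Measure.pi D).real {S | th D (1 / (10 * K * Z.card)) ≤ Z.sup S ∧
        Z.sup S ≤ th D (1 / (22 * K ^ 2 * Z.card))} +
      (Measure.pi D).real {S | Z.sup S < th D (1 / (10 * K * Z.card))} := by
    refine le_trans (measureReal_mono ?_) (measureReal_union_le _ _)
    intro S hS
    rcases le_or_gt (th D (1 / (10 * K * Z.card))) (Z.sup S) with h | h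
    · exact Or.inl ⟨h, hS⟩
    · exact Or.inr h
  have h6 : (10 * K ^ 2 : ℝ) / (10 * K ^ 2 + 1) + 1 / (22 * K ^ 2) ≤ 1 - 1 / (22 * K ^ 2) := by
    generalize (K : ℝ) ^ 2 = x at hK2 ⊢
    rw [div_add_div _ _ (by positivity) (by positivity), one_sub_div (by positivity),
      div_le_div_iff₀ (by positivity) (by positivity)]
    nlinarith [mul_nonneg (sub_nonneg.2 hK2) (sub_nonneg.2 hK2),
      mul_nonneg (mul_nonneg (sub_nonneg.2 hK2) (sub_nonneg.2 hK2)) (sub_nonneg.2 hK2)]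
  have h4 : 1 / ((22 * K ^ 2 : ℕ) : ℝ) ≤
      (Measure.pi D).real {S | th D (1 / (10 * K * Z.card)) ≤ Z.sup S ∧
        Z.sup S ≤ th D (1 / (22 * K ^ 2 * Z.card))} := by
    push_cast at h1 ⊢
    linarith
  have := KQuant.ofReal_le (c := 22 * K ^ 2) (by omega) h4
  push_cast at this
  exact this

end Vale.Agent.P331
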