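import Vale.Agent.P331.KModel

/-! P331, row KTAIL: truncated means of comparable laws are comparable. -/

namespace Vale.Agent.P331

open MeasureTheory
open scoped ENNReal NNReal

universe u
variable {E : Type u} [DecidableEq E]

/-- layer cake for the truncated mean -/
theorem trunc_layer (μ : Measure ℝ≥0) (t : ℝ≥0) :
    ∫⁻ x in Set.Ioi t, (x : ℝ≥0∞) ∂μ =
      ∫⁻ s in Set.Ioi (0 : ℝ), μ (Set.Ioi (max t s.toNNReal)) := by
  classical
  have h1 : ∫⁻ x in Set.Ioi t, (x : ℝ≥0∞) ∂μ =
      ∫⁻ x, ENNReal.ofReal ((Set.Ioi t).indicator (fun x : ℝ≥0 => (x : ℝ)) x) ∂μ := by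
    rw [← lintegral_indicator measurableSet_Ioi]
    refine lintegral_congr fun x => ?_
    simp only [Set.indicator_apply]
    by_cases hx : x ∈ Set.Ioi t
    · rw [if_pos hx, if_pos hx, ENNReal.ofReal_coe_nnreal]
    · rw [if_neg hx, if_neg hx, ENNReal.ofReal_zero]
  rw [h1, lintegral_eq_lintegral_meas_lt μ
    (f := fun x => (Set.Ioi t).indicator (fun x : ℝ≥0 => (x : ℝ)) x)]
  · refine setLIntegral_congr_fun measurableSet_Ioi fun s hs => ?_
    congr 1
    ext x
    simp only [Set.mem_ofPred_eq, Set.indicator_apply, Set.mem_Ioi, max_lt_iff]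
    have hs0 : (0 : ℝ) < s := hs
    by_cases hx : t < x
    · rw [if_pos hx]
      constructor
      · intro h
        exact ⟨hx, by rw [← NNReal.coe_lt_coe, Real.coe_toNNReal s hs0.le]; exact h⟩
      · rintro ⟨-, h⟩
        rw [← NNReal.coe_lt_coe, Real.coe_toNNReal s hs0.le] at h
        exact h
    · rw [if_neg hx]
      constructor
      · intro h
        exact absurd h (not_lt.2 hs0.le)
      · rintro ⟨h, -⟩
        exact absurd h hx
  · refine Filter.Eventually.of_forall fun x => ?_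
    exact Set.indicator_nonneg (fun y _ => y.2) x
  · exact (measurable_coe_nnreal_real.indicator measurableSet_Ioi).aemeasurable

theorem tail_comp [Fintype E] (D : E → Measure ℝ≥0) [∀ e, IsProbabilityMeasure (D e)] (K : ℕ)
    (hc : Comp K D) (e f : E) (t : ℝ≥0) :
    ∫⁻ x in Set.Ioi t, (x : ℝ≥0∞) ∂(D e) ≤ K * ∫⁻ x in Set.Ioi t, (x : ℝ≥0∞) ∂(D f) := by
  rw [trunc_layer, trunc_layer, ← lintegral_const_mul']
  · exact lintegral_mono fun s => hc e f _
  · exact ENNReal.natCast_ne_top K

end Vale.Agent.P331
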