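import Vale.Agent.P331.KCore
import Vale.Agent.P331.KTail
import Vale.Agent.P331.KQuant

/-! P331, row KBLOCKA. -/

namespace Vale.Agent.P331

open MeasureTheory
open scoped ENNReal NNReal

universe u
variable {E : Type u} [DecidableEq E]

theorem blockAK_inner [Fintype E] (D : E → Measure ℝ≥0) [∀ e, IsProbabilityMeasure (D e)]
    (r : RankFn E) (B Z : Finset E) (hs : 1 ≤ Z.card)
    (hd : ∀ A ⊆ B, A.card ≤ 2 * Z.card * r.rk A) (m : ℝ≥0) (hm : th D (1 / (4 * Z.card)) ≤ m) :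
    (B.card : ℝ≥0∞) / 2 ≤
      ∑ e ∈ B, (Measure.pi D) {V | e ∈ r.free B (passSet B (fun x => m < x) V)} := by
  have hp : MeasurableSet {x : ℝ≥0 | m < x} := measurableSet_Ioi
  have hN : (B.card : ℝ≥0∞) ≠ ∞ := ENNReal.natCast_ne_top _
  have hs0 : (Z.card : ℝ≥0∞) ≠ 0 := by
    have : Z.card ≠ 0 := by omega
    exact_mod_cast this
  have hsT : (Z.card : ℝ≥0∞) ≠ ∞ := ENNReal.natCast_ne_top _
  have h1 := core_count_D D r B (fun x => m < x) hp (2 * Z.card) hd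
  have h2 := mean_le_D D r B (fun x => m < x) hp
  have h3 : ∀ e, D e {x : ℝ≥0 | m < x} ≤ 1 / (4 * Z.card) := by
    intro e
    refine le_trans (measure_mono ?_) (th_Ioi D (1 / (4 * Z.card)) ?_ e)
    · intro x hx
      exact lt_of_le_of_lt hm hx
    · refine ENNReal.div_pos one_ne_zero ?_
      exact ENNReal.mul_ne_top (by norm_num) hsT
  have h3' : ∑ e ∈ B, D e {x : ℝ≥0 | m < x} ≤ B.card * (1 / (4 * Z.card)) := by
    refine (Finset.sum_le_sum fun e _ => h3 e).trans ?_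
    rw [Finset.sum_const, nsmul_eq_mul]
  have h4 : ((2 * Z.card : ℕ) : ℝ≥0∞)
      * ∫⁻ V, (r.rk (passSet B (fun x => m < x) V) : ℝ≥0∞) ∂(Measure.pi D)
      ≤ (B.card : ℝ≥0∞) / 2 := by
    calc ((2 * Z.card : ℕ) : ℝ≥0∞)
        * ∫⁻ V, (r.rk (passSet B (fun x => m < x) V) : ℝ≥0∞) ∂(Measure.pi D)
        ≤ ((2 * Z.card : ℕ) : ℝ≥0∞) * (B.card * (1 / (4 * Z.card))) := by
          refine mul_le_mul_right (h2.trans h3') _
      _ = (B.card : ℝ≥0∞) / 2 := by
          push_cast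
          have e4 : (4 : ℝ≥0∞) * Z.card = 2 * (2 * Z.card) := by
            rw [← mul_assoc]; norm_num
          have hz : (2 : ℝ≥0∞) * Z.card ≠ 0 := mul_ne_zero (by norm_num) hs0
          have hzT : (2 : ℝ≥0∞) * Z.card ≠ ∞ := ENNReal.mul_ne_top (by norm_num) hsT
          rw [e4, one_div, ENNReal.mul_inv (Or.inl (by norm_num)) (Or.inl (by norm_num))]
          calc (2 : ℝ≥0∞) * Z.card * (B.card * (2⁻¹ * ((2 : ℝ≥0∞) * Z.card)⁻¹))
              = ((B.card : ℝ≥0∞) * 2⁻¹) * (((2 : ℝ≥0∞) * Z.card) * ((2 : ℝ≥0∞) * Z.card)⁻¹) := by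
                ring
            _ = (B.card : ℝ≥0∞) / 2 := by
                rw [ENNReal.mul_inv_cancel hz hzT, mul_one, div_eq_mul_inv]
  have h6 : (B.card : ℝ≥0∞) / 2 + (B.card : ℝ≥0∞) / 2 ≤
      (∑ e ∈ B, (Measure.pi D) {V | e ∈ r.free B (passSet B (fun x => m < x) V)})
        + (B.card : ℝ≥0∞) / 2 := by
    rw [ENNReal.add_halves]
    exact h1.trans (add_le_add_right h4 _)
  exact (ENNReal.add_le_add_iff_right (ENNReal.div_ne_top hN (by norm_num))).1 h6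

/-- averaging: `∑ a_e q_e ≥ (1/(2K)) ∑ a_e` if the `a_e` are comparable and `∑ q_e ≥ |B|/2`. -/
theorem avg_comp (B : Finset E) (K : ℕ) (hK : 1 ≤ K) (a q : E → ℝ≥0∞)
    (ha : ∀ e f, a f ≤ K * a e) (hq : (B.card : ℝ≥0∞) / 2 ≤ ∑ e ∈ B, q e) :
    (1 / (2 * K) : ℝ≥0∞) * ∑ e ∈ B, a e ≤ ∑ e ∈ B, a e * q e := by
  classical
  rcases B.eq_empty_or_nonempty with rfl | hB
  · simp
  have hKT : (K : ℝ≥0∞) ≠ ∞ := ENNReal.natCast_ne_top _
  have hK0 : (K : ℝ≥0∞) ≠ 0 := by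
    have : K ≠ 0 := by omega
    exact_mod_cast this
  have hBc0 : (B.card : ℝ≥0∞) ≠ 0 := by
    have : B.card ≠ 0 := by
      have := hB.card_pos
      omega
    exact_mod_cast this
  have hBcT : (B.card : ℝ≥0∞) ≠ ∞ := ENNReal.natCast_ne_top _
  have h1 : ∀ f ∈ B, a f * ((B.card : ℝ≥0∞) / 2) ≤ K * ∑ e ∈ B, a e * q e := by
    intro f _
    calc a f * ((B.card : ℝ≥0∞) / 2) ≤ a f * ∑ e ∈ B, q e := mul_le_mul_right hq _
      _ = ∑ e ∈ B, a f * q e := Finset.mul_sum _ _ _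
      _ ≤ ∑ e ∈ B, K * (a e * q e) := by
          refine Finset.sum_le_sum fun e _ => ?_
          rw [← mul_assoc]
          exact mul_le_mul_left (ha e f) _
      _ = K * ∑ e ∈ B, a e * q e := (Finset.mul_sum _ _ _).symm
  have h2 : (∑ f ∈ B, a f) * ((B.card : ℝ≥0∞) / 2) ≤ B.card * (K * ∑ e ∈ B, a e * q e) := by
    rw [Finset.sum_mul]
    refine (Finset.sum_le_sum h1).trans ?_
    rw [Finset.sum_const, nsmul_eq_mul]
  have h3 : (B.card : ℝ≥0∞) * ((∑ f ∈ B, a f) * 2⁻¹) ≤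
      B.card * (K * ∑ e ∈ B, a e * q e) := by
    refine le_trans (le_of_eq ?_) h2
    rw [div_eq_mul_inv]
    ring
  have h4 : (∑ f ∈ B, a f) * 2⁻¹ ≤ K * ∑ e ∈ B, a e * q e :=
    (ENNReal.mul_le_mul_iff_right hBc0 hBcT).1 h3
  calc (1 / (2 * K) : ℝ≥0∞) * ∑ e ∈ B, a e
      = (K : ℝ≥0∞)⁻¹ * ((∑ f ∈ B, a f) * 2⁻¹) := by
        rw [one_div, ENNReal.mul_inv (Or.inr hKT) (Or.inl (by norm_num))]
        ring
    _ ≤ (K : ℝ≥0∞)⁻¹ * (K * ∑ e ∈ B, a e * q e) := mul_le_mul_right h4 _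
    _ = ∑ e ∈ B, a e * q e := by
        rw [← mul_assoc, ENNReal.inv_mul_cancel hK0 hKT, one_mul]

theorem blockAK [Fintype E] (D : E → Measure ℝ≥0) [∀ e, IsProbabilityMeasure (D e)] (K : ℕ)
    (hK : 1 ≤ K) (hc : Comp K D) (r : RankFn E)
    (B Z : Finset E) (hs : 1 ≤ Z.card) (hd : ∀ A ⊆ B, A.card ≤ 2 * Z.card * r.rk A) :
    (1 / (20 * K ^ 2) : ℝ≥0∞)
        * (∑ e ∈ B, ∫⁻ x, ((x : ℝ≥0∞) - th D (1 / (10 * K * Z.card))) ∂(D e)) ≤
      ∫⁻ S, ∫⁻ V, (∑ e ∈ r.free (passSet B (fun x => Z.sup S < x) V)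
          (passSet B (fun x => Z.sup S < x) V), (V e : ℝ≥0∞))
        ∂(Measure.pi D) ∂(Measure.pi D) := by
  classical
  set P : Measure (E → ℝ≥0) := Measure.pi D with hP
  set t : ℝ≥0 := th D (1 / (10 * K * Z.card)) with ht
  set ts : ℝ≥0 := th D (1 / (4 * Z.card)) with hts
  have hKT : (K : ℝ≥0∞) ≠ ∞ := ENNReal.natCast_ne_top _
  have hK0 : (K : ℝ≥0∞) ≠ 0 := by
    have : K ≠ 0 := by omega
    exact_mod_cast this
  let W : Set ((E → ℝ≥0) × ℝ≥0) := {q | ts ≤ Z.sup q.1 ∧ Z.sup q.1 < q.2}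
  have hsup : Measurable fun q : (E → ℝ≥0) × ℝ≥0 => Z.sup q.1 :=
    (measurable_sup_apply Z).comp measurable_fst
  have hW : MeasurableSet W := by
    have h1 : MeasurableSet {q : (E → ℝ≥0) × ℝ≥0 | ts ≤ Z.sup q.1} :=
      measurableSet_le measurable_const hsup
    have h2 : MeasurableSet {q : (E → ℝ≥0) × ℝ≥0 | Z.sup q.1 < q.2} :=
      measurableSet_lt hsup measurable_snd
    exact h1.inter h2
  let F : (E → ℝ≥0) → ℝ≥0 → ℝ≥0∞ := fun S x => W.indicator (fun q => (q.2 : ℝ≥0∞)) (S, x)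
  have hFm : Measurable (Function.uncurry F) := by
    have : Function.uncurry F = W.indicator (fun q => (q.2 : ℝ≥0∞)) := by
      funext q; rfl
    rw [this]
    exact (measurable_coe_nnreal_ennreal.comp measurable_snd).indicator hW
  have step1 : ∀ S : E → ℝ≥0, (1 / (2 * K) : ℝ≥0∞) * ∑ e ∈ B, ∫⁻ x, F S x ∂(D e) ≤
      ∫⁻ V, (∑ e ∈ r.free (passSet B (fun x => Z.sup S < x) V)
          (passSet B (fun x => Z.sup S < x) V), (V e : ℝ≥0∞)) ∂P := by
    intro S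
    by_cases hS : ts ≤ Z.sup S
    · rw [hP, core_eq_D D r B (fun x => Z.sup S < x) measurableSet_Ioi (fun x => (x : ℝ≥0∞))
        measurable_coe_nnreal_ennreal]
      have e1 : ∀ e, ∫⁻ x, F S x ∂(D e) =
          ∫⁻ x in {x : ℝ≥0 | Z.sup S < x}, (x : ℝ≥0∞) ∂(D e) := by
        intro e
        have e0 := lintegral_indicator (μ := D e) (s := {x : ℝ≥0 | Z.sup S < x}) measurableSet_Ioi
          (fun x : ℝ≥0 => (x : ℝ≥0∞))
        rw [← e0]
        refine lintegral_congr fun x => ?_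
        simp only [F, W, Set.indicator_apply, Set.mem_ofPred_eq]
        by_cases hx : Z.sup S < x
        · simp [hx, hS]
        · simp [hx]
      simp only [e1]
      exact avg_comp B K hK _ _ (fun e f => tail_comp D K hc f e (Z.sup S))
        (blockAK_inner D r B Z hs hd (Z.sup S) hS)
    · have h0 : ∀ e, ∫⁻ x, F S x ∂(D e) = 0 := by
        intro e
        have : ∀ x, F S x = 0 := by
          intro x
          simp only [F, W, Set.indicator_apply, Set.mem_ofPred_eq, hS, false_and, if_false]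
        simp [this]
      simp only [h0, Finset.sum_const_zero, mul_zero]
      exact zero_le
  have step2 : ∀ x : ℝ≥0, (1 / (10 * K) : ℝ≥0∞) * ((x : ℝ≥0∞) - t) ≤ ∫⁻ S, F S x ∂P := by
    intro x
    by_cases hx : t < x
    · have e1 : ∫⁻ S, F S x ∂P = (x : ℝ≥0∞) * P {S | ts ≤ Z.sup S ∧ Z.sup S < x} := by
        have hm : MeasurableSet {S : E → ℝ≥0 | ts ≤ Z.sup S ∧ Z.sup S < x} := by
          have h1 : MeasurableSet {S : E → ℝ≥0 | ts ≤ Z.sup S} :=
            measurableSet_le measurable_const (measurable_sup_apply Z)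
          have h2 : MeasurableSet {S : E → ℝ≥0 | Z.sup S < x} :=
            measurableSet_lt (measurable_sup_apply Z) measurable_const
          exact h1.inter h2
        have : ∀ S, F S x = {S : E → ℝ≥0 | ts ≤ Z.sup S ∧ Z.sup S < x}.indicator
            (fun _ => (x : ℝ≥0∞)) S := by
          intro S
          simp only [F, W, Set.indicator_apply, Set.mem_ofPred_eq]
        simp only [this]
        rw [lintegral_indicator hm, setLIntegral_const]
      rw [e1, mul_comm]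
      refine mul_le_mul' tsub_le_self ?_
      exact probAK D K hK hc Z hs x hx
    · have : ((x : ℝ≥0∞) - t) = 0 := by
        rw [tsub_eq_zero_iff_le]
        exact_mod_cast not_lt.1 hx
      rw [this, mul_zero]
      exact zero_le
  have hconst : (1 / (20 * K ^ 2) : ℝ≥0∞) = (1 / (2 * K)) * (1 / (10 * K)) := by
    rw [one_div, one_div, one_div, ← ENNReal.mul_inv]
    · congr 1
      ring
    · exact Or.inl (mul_ne_zero (by norm_num) hK0)
    · exact Or.inl (ENNReal.mul_ne_top (by norm_num) hKT)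
  calc (1 / (20 * K ^ 2) : ℝ≥0∞) * (∑ e ∈ B, ∫⁻ x, ((x : ℝ≥0∞) - t) ∂(D e))
      = (1 / (2 * K)) * ∑ e ∈ B, ∫⁻ x, (1 / (10 * K) : ℝ≥0∞) * ((x : ℝ≥0∞) - t) ∂(D e) := by
        rw [hconst, mul_assoc, Finset.mul_sum]
        congr 1
        refine Finset.sum_congr rfl fun e _ => ?_
        rw [lintegral_const_mul]
        exact measurable_coe_nnreal_ennreal.sub_const _
    _ ≤ (1 / (2 * K)) * ∑ e ∈ B, ∫⁻ x, ∫⁻ S, F S x ∂P ∂(D e) :=
        mul_le_mul_right (Finset.sum_le_sum fun e _ => lintegral_mono step2) _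
    _ = (1 / (2 * K)) * ∑ e ∈ B, ∫⁻ S, ∫⁻ x, F S x ∂(D e) ∂P := by
        congr 1
        refine Finset.sum_congr rfl fun e _ => ?_
        rw [← lintegral_lintegral_swap hFm.aemeasurable]
    _ = (1 / (2 * K)) * ∫⁻ S, ∑ e ∈ B, ∫⁻ x, F S x ∂(D e) ∂P := by
        rw [lintegral_finsetSum]
        intro e _
        exact hFm.lintegral_prod_right'
    _ ≤ ∫⁻ S, (1 / (2 * K)) * ∑ e ∈ B, ∫⁻ x, F S x ∂(D e) ∂P :=
        lintegral_const_mul_le _ _
    _ ≤ _ := lintegral_mono step1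

end Vale.Agent.P331
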