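import Vale.Agent.P331.KPi
import Vale.Agent.P331.CoreA
import Vale.Agent.P331.Count

/-! P331, row KCORE. -/

namespace Vale.Agent.P331

open MeasureTheory
open scoped ENNReal NNReal

universe u
variable {E : Type u} [DecidableEq E]

theorem core_eq_D [Fintype E] (D : E → Measure ℝ≥0) [∀ e, IsProbabilityMeasure (D e)]
    (r : RankFn E) (B : Finset E) (p : ℝ≥0 → Prop) (hp : MeasurableSet {x | p x})
    (f : ℝ≥0 → ℝ≥0∞) (hf : Measurable f) :
    ∫⁻ V, (∑ e ∈ r.free (passSet B p V) (passSet B p V), f (V e)) ∂(Measure.pi D)
      = ∑ e ∈ B, (∫⁻ x in {x | p x}, f x ∂(D e))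
        * (Measure.pi D) {V | e ∈ r.free B (passSet B p V)} := by
  classical
  set F : ℝ≥0 → ℝ≥0∞ := fun x => {x | p x}.indicator f x with hF
  set g : E → (E → ℝ≥0) → ℝ≥0∞ := fun e V => if r.Free (passSet B p V) e then 1 else 0 with hg
  have hFm : Measurable F := hf.indicator hp
  have hgm : ∀ e, Measurable (g e) := fun e =>
    measurable_of_passSet B p hp (fun X => if r.Free X e then 1 else 0)
  have hgi : ∀ e V x, g e (Function.update V e x) = g e V := by
    intro e V x
    have h : r.Free (passSet B p (Function.update V e x)) e ↔ r.Free (passSet B p V) e := by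
      unfold RankFn.Free
      rw [erase_passSet]
    by_cases b : r.Free (passSet B p V) e
    · simp only [hg]
      rw [if_pos (h.2 b), if_pos b]
    · simp only [hg]
      rw [if_neg (fun c => b (h.1 c)), if_neg b]
  have h1 : ∀ V : E → ℝ≥0, (∑ e ∈ r.free (passSet B p V) (passSet B p V), f (V e))
      = ∑ e ∈ B, F (V e) * g e V := by
    intro V
    have hs : r.free (passSet B p V) (passSet B p V)
        = B.filter fun e => p (V e) ∧ r.Free (passSet B p V) e := by
      ext e
      simp only [mem_free, mem_passSet, Finset.mem_filter, and_assoc]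
    rw [hs, Finset.sum_filter]
    refine Finset.sum_congr rfl fun e _ => ?_
    simp only [hF, hg, Set.indicator_apply, Set.mem_ofPred_eq]
    by_cases a : p (V e) <;> by_cases b : r.Free (passSet B p V) e <;> simp [a, b]
  have h2 : ∀ e ∈ B, ∫⁻ V, g e V ∂(Measure.pi D)
      = (Measure.pi D) {V | e ∈ r.free B (passSet B p V)} := by
    intro e he
    have hs : ∀ V, g e V = {V | e ∈ r.free B (passSet B p V)}.indicator 1 V := by
      intro V
      simp only [hg, Set.indicator_apply, Set.mem_ofPred_eq, mem_free, he, true_and, Pi.one_apply]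
    have hm : MeasurableSet {V | e ∈ r.free B (passSet B p V)} := by
      have := hgm e (measurableSet_singleton (1 : ℝ≥0∞))
      convert this using 1
      ext V
      simp only [Set.mem_ofPred_eq, mem_free, he, true_and, Set.mem_preimage,
        Set.mem_singleton_iff, hg]
      by_cases b : r.Free (passSet B p V) e <;> simp [b]
    simp only [hs]
    exact lintegral_indicator_one hm
  simp only [h1]
  rw [lintegral_finsetSum]
  · refine Finset.sum_congr rfl fun e he => ?_
    rw [lintegral_mul_indep_D D e F hFm (g e) (hgm e) (hgi e), h2 e he]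
    congr 1
    exact lintegral_indicator hp f
  · intro e _
    exact (hFm.comp (measurable_pi_apply e)).mul (hgm e)

theorem core_count_D [Fintype E] (D : E → Measure ℝ≥0) [∀ e, IsProbabilityMeasure (D e)]
    (r : RankFn E) (B : Finset E) (p : ℝ≥0 → Prop) (hp : MeasurableSet {x | p x}) (d : ℕ)
    (hd : ∀ A ⊆ B, A.card ≤ d * r.rk A) :
    (B.card : ℝ≥0∞) ≤ (∑ e ∈ B, (Measure.pi D) {V | e ∈ r.free B (passSet B p V)})
      + d * ∫⁻ V, (r.rk (passSet B p V) : ℝ≥0∞) ∂(Measure.pi D) := by
  classical
  have m2 : Measurable fun V : E → ℝ≥0 => ((r.rk (passSet B p V) : ℕ) : ℝ≥0∞) :=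
    measurable_of_passSet B p hp (fun X => ((r.rk X : ℕ) : ℝ≥0∞))
  have hm : ∀ e, MeasurableSet {V : E → ℝ≥0 | e ∈ r.free B (passSet B p V)} := by
    intro e
    have h := measurable_of_passSet B p hp (fun X => if e ∈ r.free B X then (1 : ℝ≥0∞) else 0)
    have := h (measurableSet_singleton (1 : ℝ≥0∞))
    convert this using 1
    ext V
    simp only [Set.mem_ofPred_eq, Set.mem_preimage, Set.mem_singleton_iff]
    by_cases b : e ∈ r.free B (passSet B p V) <;> simp [b]
  have hind : ∀ e, (Measure.pi D) {V | e ∈ r.free B (passSet B p V)}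
      = ∫⁻ V, {V : E → ℝ≥0 | e ∈ r.free B (passSet B p V)}.indicator 1 V ∂(Measure.pi D) :=
    fun e => (lintegral_indicator_one (hm e)).symm
  simp only [hind]
  rw [← lintegral_finsetSum _ (fun e _ => measurable_one.indicator (hm e)),
    ← lintegral_const_mul _ m2, ← lintegral_add_right _ (m2.const_mul _)]
  calc (B.card : ℝ≥0∞) = ∫⁻ _V, (B.card : ℝ≥0∞) ∂(Measure.pi D) := by
        rw [lintegral_const, measure_univ, mul_one]
    _ ≤ _ := by
        refine lintegral_mono fun V => ?_
        have hX : passSet B p V ⊆ B := fun e he => ((mem_passSet B p V e).1 he).1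
        have := spanned_card_le r B (passSet B p V) hX d hd
        have h2 : ((B.card : ℕ) : ℝ≥0∞) ≤
            (((r.free B (passSet B p V)).card + d * r.rk (passSet B p V) : ℕ) : ℝ≥0∞) :=
          Nat.cast_le.2 this
        rw [Nat.cast_add, Nat.cast_mul] at h2
        refine h2.trans (add_le_add_left (le_of_eq ?_) _)
        have hs : r.free B (passSet B p V)
            = B.filter fun e => e ∈ r.free B (passSet B p V) := by
          ext e
          simp only [Finset.mem_filter, mem_free]
          tauto
        calc ((r.free B (passSet B p V)).card : ℝ≥0∞)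
            = ((B.filter fun e => e ∈ r.free B (passSet B p V)).card : ℝ≥0∞) := by rw [← hs]
          _ = ∑ e ∈ B, (if e ∈ r.free B (passSet B p V) then (1 : ℝ≥0∞) else 0) := by
              rw [Finset.card_filter]
              push_cast
              rfl
          _ = _ := by
              refine Finset.sum_congr rfl fun e _ => ?_
              simp only [Set.indicator_apply, Set.mem_ofPred_eq, Pi.one_apply]

theorem mean_le_D [Fintype E] (D : E → Measure ℝ≥0) [∀ e, IsProbabilityMeasure (D e)]
    (r : RankFn E) (B : Finset E) (p : ℝ≥0 → Prop) (hp : MeasurableSet {x | p x}) :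
    ∫⁻ V, (r.rk (passSet B p V) : ℝ≥0∞) ∂(Measure.pi D) ≤ ∑ e ∈ B, D e {x | p x} := by
  classical
  calc ∫⁻ V, (r.rk (passSet B p V) : ℝ≥0∞) ∂(Measure.pi D)
      ≤ ∫⁻ V, ∑ e ∈ B, {x | p x}.indicator (fun _ => (1 : ℝ≥0∞)) (V e)
          ∂(Measure.pi D) := by
        refine lintegral_mono fun V => ?_
        have h : (r.rk (passSet B p V) : ℝ≥0∞) ≤ ((passSet B p V).card : ℝ≥0∞) := by
          exact_mod_cast rk_le_card r _
        refine h.trans (le_of_eq ?_)
        have hs : passSet B p V = B.filter fun e => p (V e) := by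
          ext e
          simp only [mem_passSet, Finset.mem_filter]
        rw [hs, Finset.card_filter]
        push_cast
        refine Finset.sum_congr rfl fun e _ => ?_
        simp only [Set.indicator_apply, Set.mem_ofPred_eq]
    _ = ∑ e ∈ B, ∫⁻ V, {x | p x}.indicator (fun _ => (1 : ℝ≥0∞)) (V e)
          ∂(Measure.pi D) := by
        rw [lintegral_finsetSum]
        intro e _
        exact (measurable_const.indicator hp).comp (measurable_pi_apply e)
    _ = ∑ e ∈ B, D e {x | p x} := by
        refine Finset.sum_congr rfl fun e _ => ?_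
        have := lintegral_mul_indep_D D e ({x | p x}.indicator (fun _ => (1 : ℝ≥0∞)))
          (measurable_const.indicator hp) (fun _ => 1) measurable_const (fun _ _ => rfl)
        simp only [mul_one] at this
        rw [this, lintegral_indicator hp]
        simp

end Vale.Agent.P331
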