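import Vale.Agent.P331.KQuant
import Vale.Agent.P331.KCore
import Vale.Agent.P331.Count
import Vale.Agent.P331.Fib
import Vale.Agent.P331.Pi

/-! P331, row KBLOCKB. -/

namespace Vale.Agent.P331

open MeasureTheory
open scoped ENNReal NNReal

universe u
variable {E : Type u} [DecidableEq E]

theorem blockB_real {k s b n R T' : ℝ} (hk : 1 ≤ k) (hs : 1 ≤ s) (hR : 0 ≤ R)
    (h1 : 1 / (22 * k ^ 2 * s) / k * T' ≤ R) (h2 : n ≤ T' + 2 * s * R) (h3 : s * b ≤ n) :
    1 / (24 * k ^ 3) * b ≤ R := by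
  have hk0 : 0 < k := by linarith
  have hs0 : 0 < s := by linarith
  have hk3 : 1 ≤ k ^ 3 := one_le_pow₀ hk
  have e1 : 1 / (22 * k ^ 2 * s) / k = 1 / (22 * k ^ 3 * s) := by
    field_simp
  rw [e1] at h1
  have h1' : T' ≤ 22 * k ^ 3 * s * R := by
    rw [one_div_mul_eq_div, div_le_iff₀ (by positivity)] at h1
    linarith
  have h4 : s * b ≤ s * (22 * k ^ 3 * R + 2 * R) := by nlinarith
  have h5 : b ≤ 22 * k ^ 3 * R + 2 * R := le_of_mul_le_mul_left h4 hs0
  rw [one_div_mul_eq_div, div_le_iff₀ (by positivity)]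
  nlinarith

theorem measurable_card_free [Fintype E] (r : RankFn E) (B : Finset E) (p : ℝ≥0 → Prop)
    (hp : MeasurableSet {x | p x}) (F : Finset E → ℝ≥0∞) :
    Measurable fun V : E → ℝ≥0 => F (passSet B p V) :=
  measurable_fib (fun V : E → ℝ≥0 => passSet B p V) (measurable_passSet B p hp)
    (fun A _ => F A) (fun _ => measurable_const)

theorem blockBK [Fintype E] (D : E → Measure ℝ≥0) [∀ e, IsProbabilityMeasure (D e)] (K : ℕ)
    (hK : 1 ≤ K) (hc : Comp K D) (r : RankFn E)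
    (B Z : Finset E) (hs : 1 ≤ Z.card) (hd : ∀ A ⊆ B, A.card ≤ 2 * Z.card * r.rk A)
    (hb : Z.card * r.rk B ≤ B.card) :
    (1 / (528 * K ^ 5) : ℝ≥0∞) * (r.rk B * (th D (1 / (10 * K * Z.card)) : ℝ≥0∞)) ≤
      (Measure.pi D)
        {S | th D (1 / (10 * K * Z.card)) ≤ Z.sup S ∧ Z.sup S ≤ th D (1 / (22 * K ^ 2 * Z.card))}
      * ∫⁻ V, (th D (1 / (10 * K * Z.card)) : ℝ≥0∞)
          * (r.rk (passSet B (fun x => th D (1 / (22 * K ^ 2 * Z.card)) ≤ x) V) : ℝ≥0∞)
        ∂(Measure.pi D) := by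
  classical
  set t : ℝ≥0 := th D (1 / (10 * K * Z.card)) with ht
  set t2 : ℝ≥0 := th D (1 / (22 * K ^ 2 * Z.card)) with ht2
  have hK0 : (K : ℝ≥0∞) ≠ 0 := by
    have : K ≠ 0 := by omega
    exact_mod_cast this
  have hKT : (K : ℝ≥0∞) ≠ ∞ := ENNReal.natCast_ne_top _
  have hs0 : (Z.card : ℝ≥0∞) ≠ 0 := by
    have : Z.card ≠ 0 := by omega
    exact_mod_cast this
  have hsT : (Z.card : ℝ≥0∞) ≠ ∞ := ENNReal.natCast_ne_top _
  have hp : MeasurableSet {x : ℝ≥0 | t2 ≤ x} := measurableSet_Ici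
  set R : ℝ≥0∞ := ∫⁻ V, (r.rk (passSet B (fun x => t2 ≤ x) V) : ℝ≥0∞) ∂(Measure.pi D) with hR
  set Sg : ℝ≥0∞ := ∑ e ∈ B, (Measure.pi D) {V | e ∈ r.free B (passSet B (fun x => t2 ≤ x) V)}
    with hSg
  set q : ℝ≥0∞ := 1 / (22 * K ^ 2 * Z.card) / K with hq
  -- finiteness
  have hRfin : R ≠ ∞ := by
    have : R ≤ ∫⁻ _ : E → ℝ≥0, (r.rk B : ℝ≥0∞) ∂(Measure.pi D) := by
      apply lintegral_mono
      intro V
      have : r.rk (passSet B (fun x => t2 ≤ x) V) ≤ r.rk B := by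
        apply r.mono
        unfold passSet
        exact Finset.filter_subset _ _
      exact Nat.cast_le.mpr this
    rw [lintegral_const, measure_univ, mul_one] at this
    exact ne_top_of_le_ne_top (ENNReal.natCast_ne_top _) this
  have hSfin : Sg ≠ ∞ := by
    rw [hSg]
    exact ENNReal.sum_ne_top.mpr fun e _ => measure_ne_top _ _
  -- level of a single element
  have hlev : ∀ e, q ≤ D e {x : ℝ≥0 | t2 ≤ x} := by
    intro e
    apply th_Ici D K hK hc
    rw [one_div]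
    apply ENNReal.inv_le_one.mpr
    have : 1 ≤ 22 * K ^ 2 * Z.card := Nat.one_le_iff_ne_zero.mpr (by positivity)
    exact_mod_cast this
  -- (1)
  have h1 : q * Sg ≤ R := by
    have hce := core_eq_D D r B (fun x => t2 ≤ x) hp (fun _ => 1) measurable_const
    have hle : ∫⁻ V, (∑ e ∈ r.free (passSet B (fun x => t2 ≤ x) V)
        (passSet B (fun x => t2 ≤ x) V), (1 : ℝ≥0∞)) ∂(Measure.pi D) ≤ R := by
      apply lintegral_mono
      intro V
      simp only [Finset.sum_const, nsmul_eq_mul, mul_one]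
      exact_mod_cast free_card_le r _
    rw [hce] at hle
    refine le_trans ?_ hle
    rw [hSg, Finset.mul_sum]
    apply Finset.sum_le_sum
    intro e _
    rw [setLIntegral_one]
    exact mul_le_mul_left (hlev e) _
  -- (2)
  have h2 : (B.card : ℝ≥0∞) ≤ Sg + ((2 * Z.card : ℕ) : ℝ≥0∞) * R :=
    core_count_D D r B (fun x => t2 ≤ x) hp (2 * Z.card) hd
  -- real version
  have key : (1 / (24 * K ^ 3) : ℝ≥0∞) * r.rk B ≤ R := by
    have hKr : (1 : ℝ) ≤ K := by exact_mod_cast hK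
    have hsr : (1 : ℝ) ≤ Z.card := by exact_mod_cast hs
    have r1 : 1 / (22 * (K : ℝ) ^ 2 * Z.card) / K * Sg.toReal ≤ R.toReal := by
      have := ENNReal.toReal_mono hRfin h1
      rw [ENNReal.toReal_mul, hq] at this
      simpa [ENNReal.toReal_div, ENNReal.toReal_mul, ENNReal.toReal_pow] using this
    have r2 : (B.card : ℝ) ≤ Sg.toReal + 2 * Z.card * R.toReal := by
      have := ENNReal.toReal_mono
        (ENNReal.add_ne_top.mpr ⟨hSfin, ENNReal.mul_ne_top (ENNReal.natCast_ne_top _) hRfin⟩) h2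
      rw [ENNReal.toReal_add hSfin (ENNReal.mul_ne_top (ENNReal.natCast_ne_top _) hRfin),
        ENNReal.toReal_mul] at this
      simpa using this
    have r3 : (Z.card : ℝ) * r.rk B ≤ B.card := by exact_mod_cast hb
    have r4 := blockB_real hKr hsr ENNReal.toReal_nonneg r1 r2 r3
    rw [← ENNReal.toReal_le_toReal ?_ hRfin]
    · simpa [ENNReal.toReal_div, ENNReal.toReal_mul, ENNReal.toReal_pow] using r4
    · apply ENNReal.mul_ne_top _ (ENNReal.natCast_ne_top _)
      apply ENNReal.div_ne_top ENNReal.one_ne_top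
      exact mul_ne_zero (by norm_num) (pow_ne_zero _ hK0)
  have hw := probBK D K hK hc Z hs
  rw [← ht, ← ht2] at hw
  rw [lintegral_const_mul _ (measurable_card_free r B _ hp fun A => (r.rk A : ℝ≥0∞)), ← hR]
  calc (1 / (528 * K ^ 5) : ℝ≥0∞) * (r.rk B * (t : ℝ≥0∞))
      = (1 / (22 * K ^ 2)) * ((t : ℝ≥0∞) * ((1 / (24 * K ^ 3)) * r.rk B)) := by
        have e : (1 / (528 * K ^ 5) : ℝ≥0∞) = (1 / (22 * K ^ 2)) * (1 / (24 * K ^ 3)) := by
          rw [one_div, one_div, one_div, ← ENNReal.mul_inv (Or.inl (mul_ne_zero (by norm_num)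
            (pow_ne_zero _ hK0))) (Or.inl (ENNReal.mul_ne_top (by norm_num)
            (ENNReal.pow_ne_top hKT)))]
          congr 1
          ring
        rw [e]
        ring
    _ ≤ _ := by gcongr

end Vale.Agent.P331
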