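import Vale.Agent.P331.Model

/-! P331: comparable laws (helper definitions). -/

namespace Vale.Agent.P331

open MeasureTheory
open scoped ENNReal NNReal

universe u
variable {E : Type u}

/-- The tails of the laws are pairwise within the factor `K`. -/
def Comp (K : ℕ) (D : E → Measure ℝ≥0) : Prop :=
  ∀ (e f : E) (t : ℝ≥0), D e (Set.Ioi t) ≤ K * D f (Set.Ioi t)

/-- Common upper quantile of level `α` of a family of laws. -/
noncomputable def th (D : E → Measure ℝ≥0) (α : ℝ≥0∞) : ℝ≥0 :=
  sInf {t : ℝ≥0 | ∀ e, D e (Set.Ioi t) ≤ α}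

end Vale.Agent.P331
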