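import Vale.Agent.P331.KModel
import Vale.Agent.P331.Pi

/-! P331, row KPI: facts on finite products of laws. -/

namespace Vale.Agent.P331

open MeasureTheory
open scoped ENNReal NNReal

universe u
variable {E : Type u} [DecidableEq E]

theorem pi_forall_prod [Fintype E] (D : E → Measure ℝ≥0) [∀ e, IsProbabilityMeasure (D e)]
    (Z : Finset E) (W : Set ℝ≥0) :
    (Measure.pi D) {S | ∀ z ∈ Z, S z ∈ W} = ∏ z ∈ Z, D z W := by
  have h1 : {S : E → ℝ≥0 | ∀ z ∈ Z, S z ∈ W}
      = Set.pi Set.univ (fun e => if e ∈ Z then W else Set.univ) := by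
    ext S
    simp only [Set.mem_ofPred_eq, Set.mem_pi, Set.mem_univ, true_implies]
    constructor
    · intro h e
      by_cases he : e ∈ Z
      · rw [if_pos he]; exact h e he
      · rw [if_neg he]; exact Set.mem_univ _
    · intro h z hz
      have := h z
      rw [if_pos hz] at this
      exact this
  rw [h1, Measure.pi_pi]
  have h2 : ∀ e : E, D e (if e ∈ Z then W else Set.univ) = if e ∈ Z then D e W else 1 := by
    intro e
    by_cases he : e ∈ Z
    · rw [if_pos he, if_pos he]
    · rw [if_neg he, if_neg he]; exact measure_univ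
  simp only [h2]
  rw [Finset.prod_ite_mem]
  simp

theorem lintegral_mul_indep_D [Fintype E] (D : E → Measure ℝ≥0)
    [∀ e, IsProbabilityMeasure (D e)] (e : E)
    (f : ℝ≥0 → ℝ≥0∞) (hf : Measurable f) (g : (E → ℝ≥0) → ℝ≥0∞) (hg : Measurable g)
    (hgi : ∀ V x, g (Function.update V e x) = g V) :
    ∫⁻ V, f (V e) * g V ∂(Measure.pi D) = (∫⁻ x, f x ∂(D e)) * ∫⁻ V, g V ∂(Measure.pi D) := by
  have hfg : Measurable fun V : E → ℝ≥0 => f (V e) * g V :=
    (hf.comp (measurable_pi_apply e)).mul hg
  have key : ∀ (F : (E → ℝ≥0) → ℝ≥0∞), Measurable F →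
      ∫⁻ V, F V ∂(Measure.pi D)
        = lmarginal D (Finset.univ.erase e)
            (fun x => ∫⁻ y, F (Function.update x e y) ∂(D e)) (fun _ => 0) := by
    intro F hF
    rw [lintegral_eq_lmarginal_univ (μ := D) (f := F) (fun _ => 0)]
    rw [lmarginal_erase' (μ := D) F hF (Finset.mem_univ e)]
  rw [key _ hfg, key _ hg]
  have e1 : (fun x : E → ℝ≥0 =>
        ∫⁻ y, f (Function.update x e y e) * g (Function.update x e y) ∂(D e))
      = fun x => (∫⁻ y, f y ∂(D e)) * g x := by
    funext x
    simp only [Function.update_self, hgi]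
    rw [lintegral_mul_const _ hf]
  have e2 : (fun x : E → ℝ≥0 => ∫⁻ y, g (Function.update x e y) ∂(D e)) = g := by
    funext x
    simp only [hgi, lintegral_const, measure_univ, mul_one]
  rw [e1, e2]
  unfold lmarginal
  rw [lintegral_const_mul]
  exact hg.comp measurable_updateFinset

end Vale.Agent.P331
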