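import Vale.Agent.P331.KModel

/-! P331: skeleton of the version with comparable laws (all `sorry`; never imported). -/

namespace Vale.Agent.P331.KSkel

open MeasureTheory
open scoped ENNReal NNReal

universe u
variable {E : Type u} [DecidableEq E]

/-! ROW KPI -/
theorem pi_forall_prod [Fintype E] (D : E → Measure ℝ≥0) [∀ e, IsProbabilityMeasure (D e)]
    (Z : Finset E) (W : Set ℝ≥0) :
    (Measure.pi D) {S | ∀ z ∈ Z, S z ∈ W} = ∏ z ∈ Z, D z W := sorry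

theorem lintegral_mul_indep_D [Fintype E] (D : E → Measure ℝ≥0)
    [∀ e, IsProbabilityMeasure (D e)] (e : E)
    (f : ℝ≥0 → ℝ≥0∞) (hf : Measurable f) (g : (E → ℝ≥0) → ℝ≥0∞) (hg : Measurable g)
    (hgi : ∀ V x, g (Function.update V e x) = g V) :
    ∫⁻ V, f (V e) * g V ∂(Measure.pi D) = (∫⁻ x, f x ∂(D e)) * ∫⁻ V, g V ∂(Measure.pi D) := sorry

/-! ROW KQUANT -/
theorem th_Ioi [Fintype E] (D : E → Measure ℝ≥0) [∀ e, IsProbabilityMeasure (D e)] (α : ℝ≥0∞)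
    (h0 : 0 < α) (e : E) : D e (Set.Ioi (th D α)) ≤ α := sorry

theorem th_Ici [Fintype E] (D : E → Measure ℝ≥0) [∀ e, IsProbabilityMeasure (D e)] (K : ℕ)
    (hK : 1 ≤ K) (hc : Comp K D) (α : ℝ≥0∞) (h1 : α ≤ 1) (e : E) :
    α / K ≤ D e (Set.Ici (th D α)) := sorry

theorem th_anti [Fintype E] (D : E → Measure ℝ≥0) [∀ e, IsProbabilityMeasure (D e)]
    {α β : ℝ≥0∞} (h0 : 0 < α) (h : α ≤ β) : th D β ≤ th D α := sorry

/-- `P(t* ≤ max < v) ≥ 1/(10K)`: `(1 - 1/(10Ks))^s ≥ 1 - 1/(10K)`,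
`(1 - 1/(4Ks))^s ≤ 4K/(4K+1)` -/
theorem probAK [Fintype E] (D : E → Measure ℝ≥0) [∀ e, IsProbabilityMeasure (D e)] (K : ℕ)
    (hK : 1 ≤ K) (hc : Comp K D) (Z : Finset E) (hs : 1 ≤ Z.card) (v : ℝ≥0)
    (hv : th D (1 / (10 * K * Z.card)) < v) :
    1 / (10 * K) ≤ (Measure.pi D) {S | th D (1 / (4 * Z.card)) ≤ Z.sup S ∧ Z.sup S < v} := sorry

/-- `P(t ≤ max ≤ t2) ≥ 1/(22K^2)`: `(1 - 1/(22K^2 s))^s ≥ 1 - 1/(22K^2)`,
`(1 - 1/(10K^2 s))^s ≤ 10K^2/(10K^2+1)` -/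
theorem probBK [Fintype E] (D : E → Measure ℝ≥0) [∀ e, IsProbabilityMeasure (D e)] (K : ℕ)
    (hK : 1 ≤ K) (hc : Comp K D) (Z : Finset E) (hs : 1 ≤ Z.card) :
    1 / (22 * K ^ 2) ≤ (Measure.pi D)
      {S | th D (1 / (10 * K * Z.card)) ≤ Z.sup S ∧ Z.sup S ≤ th D (1 / (22 * K ^ 2 * Z.card))} :=
  sorry

/-! ROW KCORE (uses KPI, Count, Pi.measurable_passSet) -/
theorem core_eq_D [Fintype E] (D : E → Measure ℝ≥0) [∀ e, IsProbabilityMeasure (D e)]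
    (r : RankFn E) (B : Finset E) (p : ℝ≥0 → Prop) (hp : MeasurableSet {x | p x})
    (f : ℝ≥0 → ℝ≥0∞) (hf : Measurable f) :
    ∫⁻ V, (∑ e ∈ r.free (passSet B p V) (passSet B p V), f (V e)) ∂(Measure.pi D)
      = ∑ e ∈ B, (∫⁻ x in {x | p x}, f x ∂(D e))
        * (Measure.pi D) {V | e ∈ r.free B (passSet B p V)} := sorry

theorem core_count_D [Fintype E] (D : E → Measure ℝ≥0) [∀ e, IsProbabilityMeasure (D e)]
    (r : RankFn E) (B : Finset E) (p : ℝ≥0 → Prop) (hp : MeasurableSet {x | p x}) (d : ℕ)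
    (hd : ∀ A ⊆ B, A.card ≤ d * r.rk A) :
    (B.card : ℝ≥0∞) ≤ (∑ e ∈ B, (Measure.pi D) {V | e ∈ r.free B (passSet B p V)})
      + d * ∫⁻ V, (r.rk (passSet B p V) : ℝ≥0∞) ∂(Measure.pi D) := sorry

theorem mean_le_D [Fintype E] (D : E → Measure ℝ≥0) [∀ e, IsProbabilityMeasure (D e)]
    (r : RankFn E) (B : Finset E) (p : ℝ≥0 → Prop) (hp : MeasurableSet {x | p x}) :
    ∫⁻ V, (r.rk (passSet B p V) : ℝ≥0∞) ∂(Measure.pi D) ≤ ∑ e ∈ B, D e {x | p x} := sorry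

/-! ROW KTAIL: truncated means are comparable too (layer cake:
`∫_{x>t} x = t μ(Ioi t) + ∫_{u>t} μ(Ioi u) du`) -/
theorem tail_comp [Fintype E] (D : E → Measure ℝ≥0) [∀ e, IsProbabilityMeasure (D e)] (K : ℕ)
    (hc : Comp K D) (e f : E) (t : ℝ≥0) :
    ∫⁻ x in Set.Ioi t, (x : ℝ≥0∞) ∂(D e) ≤ K * ∫⁻ x in Set.Ioi t, (x : ℝ≥0∞) ∂(D f) := sorry

/-! ROW KBLOCKA (uses KCORE, KQUANT, KTAIL) -/
theorem blockAK [Fintype E] (D : E → Measure ℝ≥0) [∀ e, IsProbabilityMeasure (D e)] (K : ℕ)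
    (hK : 1 ≤ K) (hc : Comp K D) (r : RankFn E)
    (B Z : Finset E) (hs : 1 ≤ Z.card) (hd : ∀ A ⊆ B, A.card ≤ 2 * Z.card * r.rk A) :
    (1 / (20 * K ^ 2) : ℝ≥0∞)
        * (∑ e ∈ B, ∫⁻ x, ((x : ℝ≥0∞) - th D (1 / (10 * K * Z.card))) ∂(D e)) ≤
      ∫⁻ S, ∫⁻ V, (∑ e ∈ r.free (passSet B (fun x => Z.sup S < x) V)
          (passSet B (fun x => Z.sup S < x) V), (V e : ℝ≥0∞))
        ∂(Measure.pi D) ∂(Measure.pi D) := sorry

/-! ROW KBLOCKB (uses KCORE, KQUANT) -/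
theorem blockBK [Fintype E] (D : E → Measure ℝ≥0) [∀ e, IsProbabilityMeasure (D e)] (K : ℕ)
    (hK : 1 ≤ K) (hc : Comp K D) (r : RankFn E)
    (B Z : Finset E) (hs : 1 ≤ Z.card) (hd : ∀ A ⊆ B, A.card ≤ 2 * Z.card * r.rk A)
    (hb : Z.card * r.rk B ≤ B.card) :
    (1 / (528 * K ^ 5) : ℝ≥0∞) * (r.rk B * (th D (1 / (10 * K * Z.card)) : ℝ≥0∞)) ≤
      (Measure.pi D)
        {S | th D (1 / (10 * K * Z.card)) ≤ Z.sup S ∧ Z.sup S ≤ th D (1 / (22 * K ^ 2 * Z.card))}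
      * ∫⁻ V, (th D (1 / (10 * K * Z.card)) : ℝ≥0∞)
          * (r.rk (passSet B (fun x => th D (1 / (22 * K ^ 2 * Z.card)) ≤ x) V) : ℝ≥0∞)
        ∂(Measure.pi D) := sorry

end Vale.Agent.P331.KSkel
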