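import Vale.Agent.P331.Defs

/-! P331: rank functions, chains, the greedy rule (helper definitions, not in the statement). -/

namespace Vale.Agent.P331

open MeasureTheory
open scoped ENNReal NNReal

universe u

section Rank

variable {E : Type u} [DecidableEq E]

/-- Integer valued rank functions of matroids on finite sets. -/
structure RankFn (E : Type u) [DecidableEq E] where
  rk : Finset E → ℕ
  rk_empty : rk ∅ = 0
  mono : ∀ {A B : Finset E}, A ⊆ B → rk A ≤ rk B
  insert_le : ∀ (e : E) (A : Finset E), rk (insert e A) ≤ rk A + 1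
  submod : ∀ A B : Finset E, rk (A ∩ B) + rk (A ∪ B) ≤ rk A + rk B

/-- Contraction of `G`. -/
def RankFn.con (ρ : RankFn E) (G : Finset E) : RankFn E where
  rk A := ρ.rk (G ∪ A) - ρ.rk G
  rk_empty := by simp
  mono := fun {A B} h => Nat.sub_le_sub_right (ρ.mono (Finset.union_subset_union_right h)) _
  insert_le := fun e A => by
    have h := ρ.insert_le e (G ∪ A)
    rw [Finset.union_insert]
    omega
  submod := fun A B => by
    have h := ρ.submod (G ∪ A) (G ∪ B)
    have h1 : (G ∪ A) ∩ (G ∪ B) = G ∪ (A ∩ B) := by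
      ext x; simp only [Finset.mem_inter, Finset.mem_union]; tauto
    have h2 : (G ∪ A) ∪ (G ∪ B) = G ∪ (A ∪ B) := by
      ext x; simp only [Finset.mem_union]; tauto
    rw [h1, h2] at h
    have e1 := ρ.mono (Finset.subset_union_left (s₁ := G) (s₂ := A ∩ B))
    have e2 := ρ.mono (Finset.subset_union_left (s₁ := G) (s₂ := A ∪ B))
    have e3 := ρ.mono (Finset.subset_union_left (s₁ := G) (s₂ := A))
    have e4 := ρ.mono (Finset.subset_union_left (s₁ := G) (s₂ := B))
    omega

variable [Fintype E]

/-- The chain of minimisers of `2 ^ j * ρ F + |E \ F|`. -/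
structure Chain (ρ : RankFn E) where
  G : ℕ → Finset E
  J : ℕ
  G0 : G 0 = Finset.univ
  anti : ∀ j, G (j + 1) ⊆ G j
  GJ : ρ.rk (G J) = 0
  dense : ∀ j, ∀ A ⊆ G j \ G (j + 1), A.card ≤ 2 ^ (j + 1) * (ρ.con (G (j + 1))).rk A
  big : ∀ j, 2 ^ j * (ρ.con (G (j + 1))).rk (G j \ G (j + 1)) ≤ (G j \ G (j + 1)).card

/-- The block `j` of a chain. -/
def Chain.bl {ρ : RankFn E} (C : Chain ρ) (j : ℕ) : Finset E := C.G j \ C.G (j + 1)

/-- The rank function of the minor of block `j`. -/
def Chain.rb {ρ : RankFn E} (C : Chain ρ) (j : ℕ) : RankFn E := ρ.con (C.G (j + 1))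

/-- The acceptance test inside the blocks. -/
noncomputable def Chain.ok {ρ : RankFn E} (C : Chain ρ) (pass : ℕ → ℝ≥0 → Prop) (A : Finset E)
    (x : E × ℝ≥0) : Bool :=
  open Classical in
  decide (∃ j, j < C.J ∧ x.1 ∈ C.bl j ∧ pass j x.2 ∧
    (C.rb j).rk (insert x.1 (A ∩ C.bl j)) ≠ (C.rb j).rk (A ∩ C.bl j))

/-- The elements of `B` whose value satisfies `p`. -/
noncomputable def passSet (B : Finset E) (p : ℝ≥0 → Prop) (V : E → ℝ≥0) : Finset E :=
  open Classical in B.filter fun e => p (V e)

/-- `e` is not spanned by the other elements of `X`. -/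
def RankFn.Free (r : RankFn E) (X : Finset E) (e : E) : Prop :=
  r.rk (insert e (X.erase e)) ≠ r.rk (X.erase e)

/-- The elements of `B` which are not spanned by the other elements of `X`. -/
noncomputable def RankFn.free (r : RankFn E) (B X : Finset E) : Finset E :=
  open Classical in B.filter fun e => r.Free X e

/-- The upper quantile of level `α`. -/
noncomputable def qt (μ : Measure ℝ≥0) (α : ℝ≥0∞) : ℝ≥0 := sInf {t : ℝ≥0 | μ (Set.Ioi t) ≤ α}

/-- The passing test of the rule: coin `true` is the strict test, coin `false` the weak one. -/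
def pass (Z : ℕ → Finset E) (r : Bool) (S : E → ℝ≥0) (j : ℕ) (x : ℝ≥0) : Prop :=
  if r then (Z j).sup S < x else (Z j).sup S ≤ x

/-- The greedy run with the test `ok`. -/
def run (ok : Finset E → E × ℝ≥0 → Bool) : List (E × ℝ≥0) → Finset E
  | [] => ∅
  | x :: h => if ok (run ok h) x then insert x.1 (run ok h) else run ok h

end Rank

end Vale.Agent.P331
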