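import Vale.Agent.P331.Model

/-! P331: skeleton, one theorem per row (all `sorry` here; this file is never imported). -/

namespace Vale.Agent.P331.Skel

open MeasureTheory
open scoped ENNReal NNReal

universe u
variable {E : Type u} [DecidableEq E]

/-! ROW CHAIN -/
theorem exists_chain [Fintype E] (ρ : RankFn E) : Nonempty (Chain ρ) := sorry

/-! ROW GREEDY (`run` of `C.ok pass`, any predicate `pass`) -/
theorem run_indep [Fintype E] {ρ : RankFn E} (C : Chain ρ) (pass : ℕ → ℝ≥0 → Prop)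
    (h : List (E × ℝ≥0)) : ρ.rk (run (C.ok pass) h) = (run (C.ok pass) h).card := sorry

theorem run_sub [Fintype E] {ρ : RankFn E} (C : Chain ρ) (pass : ℕ → ℝ≥0 → Prop)
    (l : List E) (V : E → ℝ≥0) (j : ℕ) :
    run (C.ok pass) (history l V) ∩ C.bl j ⊆ passSet (C.bl j) (pass j) V := sorry

theorem run_card [Fintype E] {ρ : RankFn E} (C : Chain ρ) (pass : ℕ → ℝ≥0 → Prop)
    (l : List E) (V : E → ℝ≥0) (hl : ∀ e, e ∈ l) (j : ℕ) (hj : j < C.J) :
    (run (C.ok pass) (history l V) ∩ C.bl j).card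
      = (C.rb j).rk (passSet (C.bl j) (pass j) V) := sorry

theorem run_free [Fintype E] {ρ : RankFn E} (C : Chain ρ) (pass : ℕ → ℝ≥0 → Prop)
    (l : List E) (V : E → ℝ≥0) (hl : ∀ e, e ∈ l) (j : ℕ) (hj : j < C.J) :
    (C.rb j).free (passSet (C.bl j) (pass j) V) (passSet (C.bl j) (pass j) V)
      ⊆ run (C.ok pass) (history l V) ∩ C.bl j := sorry

/-! ROW COUNT -/
theorem free_card_le (r : RankFn E) (X : Finset E) : (r.free X X).card ≤ r.rk X := sorry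

theorem spanned_card_le (r : RankFn E) (B X : Finset E) (hX : X ⊆ B) (d : ℕ)
    (hd : ∀ A ⊆ B, A.card ≤ d * r.rk A) :
    B.card ≤ (r.free B X).card + d * r.rk X := sorry

/-! ROW OPT -/
/-- the rank function of a matroid (definition is part of this row) -/
noncomputable def rkM [Fintype E] (M : Matroid E) : RankFn E where
  rk A := (M.eRk (A : Set E)).toNat
  rk_empty := by simp
  mono := sorry
  insert_le := sorry
  submod := sorry

theorem indep_iff [Fintype E] (M : Matroid E) (A : Finset E) :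
    M.Indep (A : Set E) ↔ (rkM M).rk A = A.card := sorry

theorem opt_le [Fintype E] (M : Matroid E) (C : Chain (rkM M)) (t : ℕ → ℝ≥0) (ht : Monotone t)
    (V : E → ℝ≥0) :
    opt M V ≤ (∑ j ∈ Finset.range C.J, ∑ e ∈ C.bl j, ((V e : ℝ≥0∞) - t j))
      + ∑ j ∈ Finset.range C.J, ((C.rb j).rk (C.bl j) : ℝ≥0∞) * t j := sorry

/-! ROW MEAS -/
theorem measurable_run [Fintype E] {ρ : RankFn E} (C : Chain ρ) (Z : ℕ → Finset E) (l : List E)
    (A : Finset E) :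
    MeasurableSet {p : Bool × (E → ℝ≥0) × (E → ℝ≥0) |
      run (C.ok (pass Z p.1 p.2.1)) (history l p.2.2) = A} := sorry

theorem measurable_dec [Fintype E] {ρ : RankFn E} (C : Chain ρ) (Z : ℕ → Finset E) (l : List E)
    (e : E) :
    Measurable fun p : Bool × (E → ℝ≥0) × (E → ℝ≥0) =>
      C.ok (pass Z p.1 p.2.1) (run (C.ok (pass Z p.1 p.2.1)) (history l p.2.2)) (e, p.2.2 e) :=
  sorry

/-! ROW PI -/
theorem pi_forall [Fintype E] (μ : Measure ℝ≥0) [IsProbabilityMeasure μ] (Z : Finset E)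
    (W : Set ℝ≥0) (hW : MeasurableSet W) :
    (Measure.pi fun _ : E => μ) {S | ∀ z ∈ Z, S z ∈ W} = μ W ^ Z.card := sorry

theorem lintegral_mul_indep [Fintype E] (μ : Measure ℝ≥0) [IsProbabilityMeasure μ] (e : E)
    (f : ℝ≥0 → ℝ≥0∞) (hf : Measurable f) (g : (E → ℝ≥0) → ℝ≥0∞) (hg : Measurable g)
    (hgi : ∀ V x, g (Function.update V e x) = g V) :
    ∫⁻ V, f (V e) * g V ∂(Measure.pi fun _ : E => μ)
      = (∫⁻ x, f x ∂μ) * ∫⁻ V, g V ∂(Measure.pi fun _ : E => μ) := sorry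

theorem measurable_passSet [Fintype E] (B : Finset E) (p : ℝ≥0 → Prop)
    (hp : MeasurableSet {x | p x}) (A : Finset E) :
    MeasurableSet {V : E → ℝ≥0 | passSet B p V = A} := sorry

/-- joint version: the threshold is the maximum of the samples over `Z` (strict test) -/
theorem measurable_passSet_sup [Fintype E] (B Z : Finset E) (A : Finset E) :
    MeasurableSet {p : (E → ℝ≥0) × (E → ℝ≥0) | passSet B (fun x => Z.sup p.1 < x) p.2 = A} :=
  sorry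

/-! ROW QUANT -/
theorem qt_Ioi (μ : Measure ℝ≥0) [IsProbabilityMeasure μ] (α : ℝ≥0∞) (h0 : 0 < α) :
    μ (Set.Ioi (qt μ α)) ≤ α := sorry

theorem qt_Ici (μ : Measure ℝ≥0) [IsProbabilityMeasure μ] (α : ℝ≥0∞) (h1 : α ≤ 1) :
    α ≤ μ (Set.Ici (qt μ α)) := sorry

theorem qt_anti (μ : Measure ℝ≥0) [IsProbabilityMeasure μ] {α β : ℝ≥0∞} (h0 : 0 < α)
    (h : α ≤ β) : qt μ β ≤ qt μ α := sorry

/-- `P(t* ≤ max < v) ≥ 3/40` for `v` above the `1/(8s)` quantile, `t*` the `1/(4s)` quantile -/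
theorem probA [Fintype E] (μ : Measure ℝ≥0) [IsProbabilityMeasure μ] (Z : Finset E)
    (hs : 1 ≤ Z.card) (v : ℝ≥0) (hv : qt μ (1 / (8 * Z.card)) < v) :
    3 / 40 ≤ (Measure.pi fun _ : E => μ) {S | qt μ (1 / (4 * Z.card)) ≤ Z.sup S ∧ Z.sup S < v} :=
  sorry

/-- `P(t ≤ max ≤ t2) ≥ 7/144`, `t` the `1/(8s)` quantile, `t2` the `1/(16s)` quantile -/
theorem probB [Fintype E] (μ : Measure ℝ≥0) [IsProbabilityMeasure μ] (Z : Finset E)
    (hs : 1 ≤ Z.card) :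
    7 / 144 ≤ (Measure.pi fun _ : E => μ)
      {S | qt μ (1 / (8 * Z.card)) ≤ Z.sup S ∧ Z.sup S ≤ qt μ (1 / (16 * Z.card))} := sorry

/-! ROW CORE (uses PI, COUNT) -/
theorem core_eq [Fintype E] (μ : Measure ℝ≥0) [IsProbabilityMeasure μ] (r : RankFn E)
    (B : Finset E) (p : ℝ≥0 → Prop) (hp : MeasurableSet {x | p x}) (f : ℝ≥0 → ℝ≥0∞)
    (hf : Measurable f) :
    ∫⁻ V, (∑ e ∈ r.free (passSet B p V) (passSet B p V), f (V e)) ∂(Measure.pi fun _ : E => μ)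
      = (∫⁻ x in {x | p x}, f x ∂μ)
        * ∫⁻ V, ((r.free B (passSet B p V)).card : ℝ≥0∞) ∂(Measure.pi fun _ : E => μ) := sorry

theorem core_count [Fintype E] (μ : Measure ℝ≥0) [IsProbabilityMeasure μ] (r : RankFn E)
    (B : Finset E) (p : ℝ≥0 → Prop) (hp : MeasurableSet {x | p x}) (d : ℕ)
    (hd : ∀ A ⊆ B, A.card ≤ d * r.rk A) :
    (B.card : ℝ≥0∞) ≤ (∫⁻ V, ((r.free B (passSet B p V)).card : ℝ≥0∞) ∂(Measure.pi fun _ : E => μ))
      + d * ∫⁻ V, (r.rk (passSet B p V) : ℝ≥0∞) ∂(Measure.pi fun _ : E => μ) := sorry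

theorem mean_le [Fintype E] (μ : Measure ℝ≥0) [IsProbabilityMeasure μ] (r : RankFn E)
    (B : Finset E) (p : ℝ≥0 → Prop) (hp : MeasurableSet {x | p x}) :
    ∫⁻ V, (r.rk (passSet B p V) : ℝ≥0∞) ∂(Measure.pi fun _ : E => μ)
      ≤ B.card * μ {x | p x} := sorry

/-! ROW BLOCKA (uses CORE, QUANT, PI) -/
theorem blockA [Fintype E] (μ : Measure ℝ≥0) [IsProbabilityMeasure μ] (r : RankFn E)
    (B Z : Finset E) (hs : 1 ≤ Z.card) (hd : ∀ A ⊆ B, A.card ≤ 2 * Z.card * r.rk A) :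
    (3 / 80 : ℝ≥0∞) * (B.card * ∫⁻ x, ((x : ℝ≥0∞) - qt μ (1 / (8 * Z.card))) ∂μ) ≤
      ∫⁻ S, ∫⁻ V, (∑ e ∈ r.free (passSet B (fun x => Z.sup S < x) V)
          (passSet B (fun x => Z.sup S < x) V), (V e : ℝ≥0∞))
        ∂(Measure.pi fun _ : E => μ) ∂(Measure.pi fun _ : E => μ) := sorry

/-! ROW BLOCKB (uses CORE, QUANT) -/
theorem blockB [Fintype E] (μ : Measure ℝ≥0) [IsProbabilityMeasure μ] (r : RankFn E)
    (B Z : Finset E) (hs : 1 ≤ Z.card) (hd : ∀ A ⊆ B, A.card ≤ 2 * Z.card * r.rk A)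
    (hb : Z.card * r.rk B ≤ B.card) :
    (7 / 2592 : ℝ≥0∞) * (r.rk B * (qt μ (1 / (8 * Z.card)) : ℝ≥0∞)) ≤
      (Measure.pi fun _ : E => μ)
        {S | qt μ (1 / (8 * Z.card)) ≤ Z.sup S ∧ Z.sup S ≤ qt μ (1 / (16 * Z.card))}
      * ∫⁻ V, (qt μ (1 / (8 * Z.card)) : ℝ≥0∞)
          * (r.rk (passSet B (fun x => qt μ (1 / (16 * Z.card)) ≤ x) V) : ℝ≥0∞)
        ∂(Measure.pi fun _ : E => μ) := sorry

end Vale.Agent.P331.Skel
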